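import Vale.Agent.Lib.P254.LM.Basic

/-!
# Determinant versus trace
-/

namespace Vale.Agent.Lib.P254

open MeasureTheory Set Matrix

variable {n : ℕ}

lemma amgm_fin (hn : 1 ≤ n) (z : Fin n → ℝ) (hz : ∀ i, 0 ≤ z i) :
    ∏ i, z i ≤ ((∑ i, z i) / n) ^ n := by
  have hn0 : (n : ℝ) ≠ 0 := by positivity
  have h := Real.geom_mean_le_arith_mean_weighted Finset.univ (fun _ : Fin n => (1 / n : ℝ)) z
    (fun _ _ => by positivity) (by simp [hn0]) (fun i _ => hz i)
  rw [Real.finsetProd_rpow _ _ (fun i _ => hz i)] at h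
  have hp : 0 ≤ ∏ i, z i := Finset.prod_nonneg fun i _ => hz i
  have h2 : ((∏ i, z i) ^ (1 / n : ℝ)) ^ n ≤ (∑ i, (1 / n : ℝ) * z i) ^ n :=
    pow_le_pow_left₀ (Real.rpow_nonneg hp _) h n
  rw [← Real.rpow_natCast, ← Real.rpow_mul hp, one_div, inv_mul_cancel₀ hn0, Real.rpow_one,
    ← Finset.mul_sum] at h2
  calc ∏ i, z i ≤ ((n : ℝ)⁻¹ * ∑ i, z i) ^ n := h2
    _ = ((∑ i, z i) / n) ^ n := by rw [div_eq_inv_mul]

/-- AM-GM for a positive semidefinite matrix -/
lemma det_le_trace_pow (hn : 1 ≤ n) (A : Matrix (Fin n) (Fin n) ℝ) (hA : A.PosSemidef) :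
    A.det ≤ (A.trace / n) ^ n := by
  have hH := hA.isHermitian
  have h1 := hH.det_eq_prod_eigenvalues
  have h2 := hH.trace_eq_sum_eigenvalues
  simp only [RCLike.ofReal_real_eq_id, id] at h1 h2
  rw [h1, h2]
  exact amgm_fin hn _ (fun i => hA.eigenvalues_nonneg i)

/-- the all ones matrix squares to `n` times itself -/
lemma ones_mul_ones : (Matrix.of fun _ _ => (1 : ℝ) : Matrix (Fin n) (Fin n) ℝ) *
    (Matrix.of fun _ _ => (1 : ℝ)) = (n : ℝ) • (Matrix.of fun _ _ => (1 : ℝ)) := by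
  ext i j
  simp [Matrix.mul_apply]

lemma det_one_add_ones :
    (1 + Matrix.of fun _ _ => (1 : ℝ) : Matrix (Fin n) (Fin n) ℝ).det = (n : ℝ) + 1 := by
  have h := Matrix.det_one_add_replicateCol_mul_replicateRow (ι := Unit)
    (fun _ : Fin n => (1 : ℝ)) (fun _ : Fin n => (1 : ℝ))
  have e : (replicateCol Unit (fun _ : Fin n => (1 : ℝ)) *
      replicateRow Unit (fun _ : Fin n => (1 : ℝ)))
      = (Matrix.of fun _ _ => (1 : ℝ) : Matrix (Fin n) (Fin n) ℝ) := by
    ext i j
    simp [Matrix.mul_apply]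
  rw [e] at h
  rw [h]
  simp [dotProduct, add_comm]

/-- AM-GM relative to the form `I + J` (`J` the all ones matrix), whose determinant is `n+1` -/
lemma det_le_trace_pow' (hn : 1 ≤ n) (A : Matrix (Fin n) (Fin n) ℝ) (hA : A.PosSemidef) :
    ((n : ℝ) + 1) * A.det ≤ (((1 + Matrix.of fun _ _ => (1 : ℝ)) * A).trace / n) ^ n := by
  set J : Matrix (Fin n) (Fin n) ℝ := Matrix.of fun _ _ => (1 : ℝ) with hJ
  have hn0 : (n : ℝ) ≠ 0 := by positivity
  set c : ℝ := (Real.sqrt (1 + n) - 1) / n with hc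
  have hc2 : 2 * c + c ^ 2 * n = 1 := by
    have hs : Real.sqrt (1 + n) ^ 2 = 1 + n := Real.sq_sqrt (by positivity)
    rw [hc]
    field_simp
    nlinarith [hs]
  set R : Matrix (Fin n) (Fin n) ℝ := 1 + c • J with hR
  have hJJ : J * J = (n : ℝ) • J := ones_mul_ones
  have hRR : R * R = 1 + J := by
    rw [hR]
    rw [Matrix.add_mul, Matrix.mul_add, Matrix.mul_add, Matrix.one_mul, Matrix.one_mul,
      Matrix.mul_one, Matrix.smul_mul, Matrix.mul_smul, hJJ, smul_smul, smul_smul]
    have : (1 : Matrix (Fin n) (Fin n) ℝ) + c • J + (c • J + (c * c * n) • J)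
        = 1 + (2 * c + c ^ 2 * n) • J := by
      rw [add_smul, two_mul, add_smul]
      have : c * c * n = c ^ 2 * n := by ring
      rw [this]
      abel
    rw [this, hc2, one_smul]
  have hRT : Rᴴ = R := by
    rw [hR]
    ext i j
    simp [hJ, Matrix.one_apply, eq_comm]
  have hPSD : (R * A * R).PosSemidef := by
    have := hA.mul_mul_conjTranspose_same R
    rwa [hRT] at this
  have h := det_le_trace_pow hn _ hPSD
  have hdet : (R * A * R).det = ((n : ℝ) + 1) * A.det := by
    rw [Matrix.det_mul, Matrix.det_mul]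
    have : R.det * R.det = (n : ℝ) + 1 := by
      rw [← Matrix.det_mul, hRR, hJ, det_one_add_ones]
    calc R.det * A.det * R.det = (R.det * R.det) * A.det := by ring
      _ = _ := by rw [this]
  have htr : (R * A * R).trace = ((1 + J) * A).trace := by
    rw [Matrix.trace_mul_comm, ← Matrix.mul_assoc, hRR]
  rw [hdet, htr] at h
  exact h

lemma covMatrix_posSemidef {K : Set (Fin n → ℝ)} (hK : IsCompact K) (hv : 0 < vol K) :
    (covMatrix K).PosSemidef := by
  apply Matrix.PosSemidef.of_dotProduct_mulVec_nonneg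
  · ext i j
    simp only [covMatrix, Matrix.conjTranspose_apply, Matrix.of_apply, star_trivial]
    simp_rw [mul_comm (_ - centroid K j)]
  · intro v
    set c := centroid K with hc
    have key : ∀ x : Fin n → ℝ, (∑ i, v i * (x i - c i)) ^ 2
        = ∑ i, ∑ j, v i * v j * ((x i - c i) * (x j - c j)) := by
      intro x
      rw [sq, Finset.sum_mul_sum]
      exact Finset.sum_congr rfl fun i _ => Finset.sum_congr rfl fun j _ => by ring
    have e : star v ⬝ᵥ (covMatrix K *ᵥ v)
        = (vol K)⁻¹ * ∫ x in K, (∑ i, v i * (x i - c i)) ^ 2 := by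
      simp_rw [key]
      rw [integral_finsetSum _ (fun i _ => integrableOn_of_continuous hK (by fun_prop))]
      have : ∀ i, ∫ x in K, ∑ j, v i * v j * ((x i - c i) * (x j - c j))
          = ∑ j, v i * v j * ∫ x in K, (x i - c i) * (x j - c j) := by
        intro i
        rw [integral_finsetSum _ (fun j _ => integrableOn_of_continuous hK (by fun_prop))]
        exact Finset.sum_congr rfl fun j _ => integral_const_mul _ _
      simp_rw [this]
      simp only [dotProduct, mulVec, star_trivial, covMatrix, Matrix.of_apply, Finset.mul_sum]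
      exact Finset.sum_congr rfl fun i _ => Finset.sum_congr rfl fun j _ => by ring
    rw [e]
    exact mul_nonneg (inv_nonneg.2 hv.le) (integral_nonneg fun x => sq_nonneg _)

lemma q2_nonneg (x : Fin n → ℝ) : 0 ≤ q2 x := by
  have h := sq_sum_le_card_mul_sum_sq (s := Finset.univ) (f := fun i : Option (Fin n) =>
    match i with
    | none => lam0 x
    | some i => x i)
  simp only [Fintype.sum_option, Finset.card_univ, Fintype.card_option, Fintype.card_fin] at h
  have h1 : lam0 x + ∑ i, x i = 1 := by simp [lam0]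
  rw [h1] at h
  simp only [q2]
  push_cast at h
  linarith

lemma trace_one_add_ones_mul (A : Matrix (Fin n) (Fin n) ℝ) :
    ((1 + Matrix.of fun _ _ => (1 : ℝ)) * A).trace = ∑ i, A i i + ∑ i, ∑ j, A i j := by
  rw [Matrix.add_mul, Matrix.one_mul, Matrix.trace_add]
  congr 1
  simp only [Matrix.trace, Matrix.diag_apply, Matrix.mul_apply, Matrix.of_apply, one_mul]
  exact Finset.sum_comm

lemma trace_one_add_ones_mul_nonneg (A : Matrix (Fin n) (Fin n) ℝ) (hA : A.PosSemidef) :
    0 ≤ ((1 + Matrix.of fun _ _ => (1 : ℝ)) * A).trace := by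
  rw [trace_one_add_ones_mul]
  have h1 : 0 ≤ ∑ i, A i i := hA.trace_nonneg
  have h2 := hA.dotProduct_mulVec_nonneg (fun _ => 1)
  simp only [dotProduct, mulVec, Pi.star_apply, star_trivial, one_mul, mul_one] at h2
  linarith

lemma integral_q2_eq {K : Set (Fin n → ℝ)} (hK : IsCompact K) :
    ∫ x in K, q2 x = ((n : ℝ) + 1) * (vol K - 2 * (∑ i, ∫ x in K, x i)
      + (∑ i, ∑ j, ∫ x in K, x i * x j) + (∑ i, ∫ x in K, x i * x i)) - vol K := by
  have h : ∀ x : Fin n → ℝ, q2 x = ((n : ℝ) + 1) * (1 - 2 * ∑ i, x i + ∑ i, ∑ j, x i * x j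
      + ∑ i, x i * x i) - 1 := by
    intro x
    simp only [q2, lam0]
    rw [← Finset.sum_mul_sum]
    simp_rw [← sq]
    ring
  have e1 : ∫ x in K, ∑ i, x i = ∑ i, ∫ x in K, x i :=
    integral_finsetSum _ (fun i _ => integrableOn_of_continuous hK (by fun_prop))
  have e2 : ∫ x in K, ∑ i, ∑ j, x i * x j = ∑ i, ∑ j, ∫ x in K, x i * x j := by
    rw [integral_finsetSum _ (fun i _ => integrableOn_of_continuous hK (by fun_prop))]
    exact Finset.sum_congr rfl fun i _ =>
      integral_finsetSum _ (fun j _ => integrableOn_of_continuous hK (by fun_prop))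
  have e3 : ∫ x in K, ∑ i, x i * x i = ∑ i, ∫ x in K, x i * x i :=
    integral_finsetSum _ (fun i _ => integrableOn_of_continuous hK (by fun_prop))
  simp_rw [h]
  rw [integral_sub, integral_const_mul, integral_add, integral_add, integral_sub,
    integral_const_mul, e1, e2, e3, ← vol_eq_integral]
  all_goals exact integrableOn_of_continuous hK (by fun_prop)

/-- the basic upper bound for `qf K = det Σ_K / |K|²` -/
theorem qf_le (hn : 1 ≤ n) {K : Set (Fin n → ℝ)} (hK : IsCompact K) (hv : 0 < vol K) :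
    qf K ≤ (1 / ((n : ℝ) + 1)) * ((∫ x in K, q2 x) / (vol K * n * ((n : ℝ) + 1))) ^ n / (vol K) ^ 2 := by
  have hA := covMatrix_posSemidef hK hv
  have h := det_le_trace_pow' hn _ hA
  have h0 := trace_one_add_ones_mul_nonneg _ hA
  have hn0 : (0 : ℝ) < n := by positivity
  have hn1 : (0 : ℝ) < (n : ℝ) + 1 := by positivity
  have htr : ((1 + Matrix.of fun _ _ => (1 : ℝ)) * covMatrix K).trace
      ≤ (∫ x in K, q2 x) / (vol K * ((n : ℝ) + 1)) := by
    rw [trace_one_add_ones_mul, integral_q2_eq hK]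
    simp_rw [covMatrix_apply_eq hK hv.ne']
    have hq := q2_nonneg (fun i => (∫ x in K, x i) / vol K)
    simp only [q2, lam0, ← Finset.sum_div] at hq
    simp only [Finset.sum_sub_distrib, ← Finset.sum_div, ← Finset.sum_mul_sum]
    set V := vol K with hV
    set S1 := ∑ i, ∫ x in K, x i with hS1
    set S2 := ∑ i, ∑ j, ∫ x in K, x i * x j with hS2
    set S3 := ∑ i, ∫ x in K, x i * x i with hS3
    set Q := ∑ i, ((∫ x in K, x i) / V) ^ 2 with hQ
    have hQ' : ∑ i, (∫ x in K, x i) / V * ((∫ x in K, x i) / V) = Q := by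
      simp only [hQ, sq]
    rw [hQ']
    have e : (((n : ℝ) + 1) * (V - 2 * S1 + S2 + S3) - V) / (V * ((n : ℝ) + 1))
        = 1 - 2 * (S1 / V) + S2 / V + S3 / V - 1 / ((n : ℝ) + 1) := by
      field_simp
    rw [e]
    have hq' : 1 / ((n : ℝ) + 1) ≤ (1 - S1 / V) ^ 2 + Q := by
      rw [div_le_iff₀ hn1]
      linarith
    nlinarith [hq']
  have h2 : (((1 + Matrix.of fun _ _ => (1 : ℝ)) * covMatrix K).trace / n) ^ n
      ≤ ((∫ x in K, q2 x) / (vol K * n * ((n : ℝ) + 1))) ^ n := by
    apply pow_le_pow_left₀ (by positivity)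
    have : (∫ x in K, q2 x) / (vol K * n * ((n : ℝ) + 1))
        = (∫ x in K, q2 x) / (vol K * ((n : ℝ) + 1)) / n := by
      field_simp
    rw [this]
    gcongr
  have h3 : (covMatrix K).det
      ≤ (1 / ((n : ℝ) + 1)) * ((∫ x in K, q2 x) / (vol K * n * ((n : ℝ) + 1))) ^ n := by
    rw [one_div, ← div_eq_inv_mul, le_div_iff₀ hn1]
    linarith
  unfold qf
  gcongr

lemma qf_nonneg {K : Set (Fin n → ℝ)} (hK : IsCompact K) (hv : 0 < vol K) : 0 ≤ qf K := by
  unfold qf
  exact div_nonneg (covMatrix_posSemidef hK hv).det_nonneg (by positivity)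

lemma integral_q2_stdS : ∫ x in stdS n, q2 x = ((n : ℝ) / ((n : ℝ) + 2)) * vol (stdS n) := by
  rw [integral_q2_eq stdS_isCompact]
  simp_rw [stdS_m1, stdS_m2]
  simp only [Finset.sum_const, Finset.card_univ, Fintype.card_fin, nsmul_eq_mul, if_true,
    ← Finset.mul_sum, Finset.sum_add_distrib, Finset.sum_ite_eq, Finset.mem_univ, mul_one]
  have hn1 : (0 : ℝ) < (n : ℝ) + 1 := by positivity
  have hn2 : (0 : ℝ) < (n : ℝ) + 2 := by positivity
  field_simp
  ring

end Vale.Agent.Lib.P254
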