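import Vale.Agent.Lib.P254.LM.Final

/-!
# Local maximality of the simplex in an explicit Banach-Mazur neighbourhood
-/

namespace Vale.Agent.Lib.P254

open MeasureTheory Set

variable {n : ℕ}

private lemma delN_pos' (hn : 1 ≤ n) : 0 < delN n := by
  have hn' : (1 : ℝ) ≤ (n : ℝ) := by exact_mod_cast hn
  unfold delN
  positivity

/-- the numerical inequality behind the explicit radius -/
lemma radius_ok (hn : 1 ≤ n) {lam : ℝ} (h1 : 1 ≤ lam) (h2 : lam ≤ 1 + delN n ^ n / (n : ℝ)) :
    lam ^ n * (1 - delN n ^ n) < 1 := by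
  have hn' : (1 : ℝ) ≤ (n : ℝ) := by exact_mod_cast hn
  have hn0 : (n : ℝ) ≠ 0 := by positivity
  obtain ⟨t, ht⟩ : ∃ t : ℝ, t = delN n ^ n := ⟨_, rfl⟩
  rw [← ht] at h2 ⊢
  have ht0 : 0 < t := by rw [ht]; exact pow_pos (delN_pos' hn) n
  have hle : lam ≤ Real.exp (t / n) := h2.trans (by linarith [Real.add_one_le_exp (t / n)])
  have hpow : lam ^ n ≤ Real.exp t := by
    calc lam ^ n ≤ Real.exp (t / n) ^ n := pow_le_pow_left₀ (by linarith) hle n
      _ = Real.exp t := by
        rw [← Real.exp_nat_mul]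
        congr 1
        field_simp
  have hlt : 1 - t < Real.exp (-t) := by
    have := Real.add_one_lt_exp (x := -t) (by linarith)
    linarith
  have hlam : 0 < lam ^ n := by positivity
  calc lam ^ n * (1 - t) < lam ^ n * Real.exp (-t) := mul_lt_mul_of_pos_left hlt hlam
    _ ≤ Real.exp t * Real.exp (-t) := mul_le_mul_of_nonneg_right hpow (Real.exp_pos _).le
    _ = 1 := by rw [← Real.exp_add]; simp

theorem local_max_bm (hn : 1 ≤ n) (lam : ℝ) (h1 : 1 ≤ lam)
    (h2 : lam ≤ 1 + delN n ^ n / (n : ℝ))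
    (K : Set (Fin n → ℝ)) (hKc : Convex ℝ K) (hK : IsCompact K)
    (S : Fin (n + 1) → (Fin n → ℝ)) (hS : AffineIndependent ℝ S) (c : Fin n → ℝ)
    (hSK : convexHull ℝ (Set.range S) ⊆ K)
    (hKS : K ⊆ (fun x => c + lam • (x - c)) '' convexHull ℝ (Set.range S)) :
    isoConst K ≤ isoConst (convexHull ℝ (Set.range S)) ∧
    (isoConst K = isoConst (convexHull ℝ (Set.range S)) →
      ∃ P : Fin (n + 1) → (Fin n → ℝ), AffineIndependent ℝ P ∧ K = convexHull ℝ (Set.range P)) := by
  have hlam0 : 0 < lam := by linarith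
  obtain ⟨M, hM⟩ : ∃ M : Matrix (Fin n) (Fin n) ℝ, M = lam • 1 := ⟨_, rfl⟩
  obtain ⟨b, hb⟩ : ∃ b : Fin n → ℝ, b = c - lam • c := ⟨_, rfl⟩
  have hdet : M.det = lam ^ n := by rw [hM]; simp
  have hdet0 : M.det ≠ 0 := by rw [hdet]; positivity
  have hfun : (fun x : Fin n → ℝ => c + lam • (x - c)) = fun x => M.mulVec x + b := by
    funext x
    rw [hM, hb, Matrix.smul_mulVec, Matrix.one_mulVec, smul_sub]
    abel
  rw [hfun] at hKS
  -- the big simplex
  obtain ⟨S', hS'⟩ : ∃ S' : Fin (n + 1) → (Fin n → ℝ), S' = fun i => M.mulVec (S i) + b :=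
    ⟨_, rfl⟩
  have hinj : Function.Injective (affA M b) := by
    intro x y hxy
    rw [affA_apply, affA_apply, hM, Matrix.smul_mulVec, Matrix.smul_mulVec,
      Matrix.one_mulVec, Matrix.one_mulVec] at hxy
    exact smul_right_injective _ hlam0.ne' (add_right_cancel hxy)
  have hS'ai : AffineIndependent ℝ S' := by
    have h := hS.map' (affA M b) hinj
    have e : (⇑(affA M b) ∘ S) = S' := by
      funext i
      rw [hS', Function.comp_apply, affA_apply]
    rwa [e] at h
  have hrange : (fun x => M.mulVec x + b) '' Set.range S = Set.range S' := by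
    rw [hS', ← Set.range_comp]
    rfl
  have himg : (fun x => M.mulVec x + b) '' convexHull ℝ (Set.range S)
      = convexHull ℝ (Set.range S') := by
    rw [image_convexHull_aff, hrange]
  have hDc : IsCompact (convexHull ℝ (Set.range S)) :=
    (Set.finite_range S).isCompact_convexHull (𝕜 := ℝ)
  have hA : (diffMat S).det ≠ 0 := diffMat_det_ne_zero S hS
  have hvD : 0 < vol (convexHull ℝ (Set.range S)) := by
    rw [← image_stdS S, vol_image_affine _ _ hA stdS_isCompact.measurableSet]
    exact mul_pos (abs_pos.mpr hA) stdS_vol_pos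
  have hvD' : vol (convexHull ℝ (Set.range S')) = lam ^ n * vol (convexHull ℝ (Set.range S)) := by
    rw [← himg, vol_image_affine _ _ hdet0 hDc.measurableSet, hdet, abs_of_pos (by positivity)]
  have hiso : isoConst (convexHull ℝ (Set.range S')) = isoConst (convexHull ℝ (Set.range S)) := by
    rw [isoConst_eq, isoConst_eq, ← himg, qf_image_affine _ _ hdet0 hDc hvD.ne']
  have hmono : vol (convexHull ℝ (Set.range S)) ≤ vol K := by
    unfold vol
    exact ENNReal.toReal_mono hK.measure_lt_top.ne (measure_mono hSK)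
  rw [himg] at hKS
  have hvol : (1 - delN n ^ n) * vol (convexHull ℝ (Set.range S')) < vol K := by
    rw [hvD']
    have h3 := radius_ok hn h1 h2
    calc (1 - delN n ^ n) * (lam ^ n * vol (convexHull ℝ (Set.range S)))
        = (lam ^ n * (1 - delN n ^ n)) * vol (convexHull ℝ (Set.range S)) := by ring
      _ < 1 * vol (convexHull ℝ (Set.range S)) := mul_lt_mul_of_pos_right h3 hvD
      _ ≤ vol K := by rw [one_mul]; exact hmono
  have h := local_max hn K hKc hK S' hS'ai hKS hvol
  rw [hiso] at h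
  exact h

end Vale.Agent.Lib.P254
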