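import Vale.Agent.Lib.P254.Normal

/-!
# Local maximality of the simplex: common definitions

`E = Fin n → ℝ`.  `stdS n` is the corner simplex `{x ≥ 0, ∑ x ≤ 1}`.
See `notes/P254_LM_blueprint.md` for the mathematical plan.
-/

namespace Vale.Agent.Lib.P254

open MeasureTheory

variable {n : ℕ}

/-- sum of the coordinates -/
def tS (μ : Fin n → ℝ) : ℝ := ∑ i, μ i

/-- sum of the squares of the coordinates -/
def sS (μ : Fin n → ℝ) : ℝ := ∑ i, μ i ^ 2

/-- the cell where the `j`-th coordinate is the smallest one -/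
def cell (j : Fin n) : Set (Fin n → ℝ) := {μ | ∀ k, μ j ≤ μ k}

/-- the part of the corner simplex where the `j`-th coordinate is the smallest one -/
def XS (j : Fin n) : Set (Fin n → ℝ) := stdS n ∩ cell j

/-- the cone over `XS j` -/
def CS (j : Fin n) : Set (Fin n → ℝ) := {μ | 0 ≤ μ j ∧ ∀ k, μ j ≤ μ k}

/-- admissible perturbation functions on the orthant: `φ = γ - t` where `γ` is the gauge of the
body seen from the centroid of the simplex, in the coordinates of one of the `n+1` cones. -/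
structure Adm (n : ℕ) (ε : ℝ) (φ : (Fin n → ℝ) → ℝ) : Prop where
  cont : Continuous φ
  conv : ConvexOn ℝ Set.univ φ
  hom : ∀ (c : ℝ), 0 ≤ c → ∀ μ, φ (c • μ) = c * φ μ
  nonneg : ∀ μ, (∀ i, 0 ≤ μ i) → 0 ≤ φ μ
  le : ∀ μ, (∀ i, 0 ≤ μ i) → φ μ ≤ ε * tS μ
  diag : φ (fun _ => 1) ≤ 0

/-- the barycentric coordinate of the vertex `0` of the corner simplex -/
def lam0 (x : Fin n → ℝ) : ℝ := 1 - ∑ i, x i

/-- `q2 = (n+1)|λ|² - 1`, `λ` the barycentric coordinates with respect to the corner simplex -/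
def q2 (x : Fin n → ℝ) : ℝ := ((n : ℝ) + 1) * (lam0 x ^ 2 + ∑ i, x i ^ 2) - 1

/-- centroid of the facet `∑ x = 1` of the corner simplex -/
noncomputable def cen0 (n : ℕ) : Fin n → ℝ := fun _ => 1 / (n : ℝ)

/-- the homothetic copy of the corner simplex: all barycentric coordinates at least `δ` -/
def coreS (n : ℕ) (δ : ℝ) : Set (Fin n → ℝ) := {x | (∀ i, δ ≤ x i) ∧ δ ≤ lam0 x}

/-- the affine map from the corner simplex onto the cone piece of the corner simplex
spanned by its centroid and the facet `∑ x = 1` -/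
noncomputable def Psi (μ : Fin n → ℝ) : Fin n → ℝ := fun i => μ i + (1 - tS μ) / ((n : ℝ) + 1)

/-- the region where `lam0` is the smallest barycentric coordinate -/
def Pc0 (n : ℕ) : Set (Fin n → ℝ) := {x | ∀ k, lam0 x ≤ x k}

/-- the constant `κ = 1/(n(n+2))` -/
noncomputable def kap (n : ℕ) : ℝ := 1 / ((n : ℝ) * ((n : ℝ) + 2))

/-- the admissible size of the perturbation `ε_n = 1/(2n(n+2)(n+3))` -/
noncomputable def epsN (n : ℕ) : ℝ := 1 / (2 * (n : ℝ) * ((n : ℝ) + 2) * ((n : ℝ) + 3))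

/-- `δ_n = 1/(4n(n+1)(n+2)(n+3))` -/
noncomputable def delN (n : ℕ) : ℝ := 1 / (4 * (n : ℝ) * ((n : ℝ) + 1) * ((n : ℝ) + 2) * ((n : ℝ) + 3))

end Vale.Agent.Lib.P254
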