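import Vale.Agent.Lib.P254.LM.Basic

/-!
# A convex subset of the simplex of almost full volume contains a large homothetic copy
-/

namespace Vale.Agent.Lib.P254

open MeasureTheory Set Matrix

variable {n : ℕ}

theorem core_subset (K : Set (Fin n → ℝ)) (hKc : Convex ℝ K) (hKcl : IsClosed K)
    (hKS : K ⊆ stdS n) (δ : ℝ) (hδ0 : 0 < δ)
    (hvol : vol (stdS n \ K) < δ ^ n * vol (stdS n)) : coreS n δ ⊆ K := by
  intro x hx
  by_contra hxK
  obtain ⟨f, u, hfK, hfx⟩ := geometric_hahn_banach_closed_point hKc hKcl hxK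
  have hne : (stdS n).Nonempty := ⟨0, by simp [stdS]⟩
  obtain ⟨v, hvS, hv⟩ := stdS_isCompact.exists_isMaxOn hne f.continuous.continuousOn
  have hv' : ∀ s ∈ stdS n, f s ≤ f v := fun s hs => hv hs
  set M : Matrix (Fin n) (Fin n) ℝ := (-δ) • (1 : Matrix (Fin n) (Fin n) ℝ) with hM
  set b : Fin n → ℝ := x + δ • v with hb
  have hdet : M.det = (-δ) ^ n := by
    rw [hM, Matrix.det_smul, Matrix.det_one, Fintype.card_fin, mul_one]
  have hdet0 : M.det ≠ 0 := by
    rw [hdet]
    exact pow_ne_zero _ (by linarith)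
  have hmap : ∀ s : Fin n → ℝ, M *ᵥ s + b = x + δ • (v - s) := by
    intro s
    rw [hM, hb, Matrix.smul_mulVec, Matrix.one_mulVec]
    funext i
    simp only [Pi.add_apply, Pi.smul_apply, Pi.sub_apply, smul_eq_mul]
    ring
  have hsub : (fun s => M *ᵥ s + b) '' stdS n ⊆ stdS n \ K := by
    rintro _ ⟨s, hs, rfl⟩
    simp only [hmap]
    constructor
    · constructor
      · intro i
        have h1 := hx.1 i
        have h2 := hvS.1 i
        have h3 := stdS_le_one hs i
        simp only [Pi.add_apply, Pi.smul_apply, Pi.sub_apply, smul_eq_mul]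
        nlinarith
      · have h1 : δ ≤ 1 - ∑ i, x i := hx.2
        have h2 : ∑ i, v i ≤ 1 := hvS.2
        have h3 : 0 ≤ ∑ i, s i := Finset.sum_nonneg fun i _ => hs.1 i
        have h4 : ∑ i, (x + δ • (v - s)) i = ∑ i, x i + δ * (∑ i, v i - ∑ i, s i) := by
          simp only [Pi.add_apply, Pi.smul_apply, Pi.sub_apply, smul_eq_mul]
          rw [Finset.sum_add_distrib, ← Finset.mul_sum, Finset.sum_sub_distrib]
        rw [h4]
        nlinarith
    · intro hK
      have h1 := hfK _ hK
      have h2 : f (x + δ • (v - s)) = f x + δ * (f v - f s) := by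
        simp [map_add, map_smul, map_sub]
      have h3 := hv' s hs
      rw [h2] at h1
      nlinarith
  have hvolZ : vol ((fun s => M *ᵥ s + b) '' stdS n) = δ ^ n * vol (stdS n) := by
    rw [vol_image_affine M b hdet0 stdS_isCompact.measurableSet, hdet, abs_pow, abs_neg,
      abs_of_pos hδ0]
  have hfin : volume (stdS n \ K) ≠ ⊤ :=
    ne_top_of_le_ne_top stdS_isCompact.measure_lt_top.ne (measure_mono sdiff_subset)
  have hle : vol ((fun s => M *ᵥ s + b) '' stdS n) ≤ vol (stdS n \ K) :=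
    ENNReal.toReal_mono hfin (measure_mono hsub)
  rw [hvolZ] at hle
  linarith

/-- a closed convex subset of full volume is the whole simplex -/
theorem eq_stdS_of_vol (K : Set (Fin n → ℝ)) (hKc : Convex ℝ K) (hKcl : IsClosed K)
    (hKS : K ⊆ stdS n) (hvol : vol (stdS n \ K) = 0) : K = stdS n := by
  apply Subset.antisymm hKS
  intro x hx
  have hcore : ∀ δ : ℝ, 0 < δ → coreS n δ ⊆ K := by
    intro δ hδ
    apply core_subset K hKc hKcl hKS δ hδ
    rw [hvol]
    exact mul_pos (pow_pos hδ n) stdS_vol_pos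
  set g : Fin n → ℝ := fun _ => 1 / ((n : ℝ) + 1) with hg
  have hn1 : (0 : ℝ) < (n : ℝ) + 1 := by positivity
  have hsumg : ∑ i, g i = (n : ℝ) / ((n : ℝ) + 1) := by
    simp only [hg, Finset.sum_const, Finset.card_univ, Fintype.card_fin, nsmul_eq_mul]
    ring
  have hcont : Continuous fun t : ℝ => (1 - t) • x + t • g := by fun_prop
  have htend : Filter.Tendsto (fun t : ℝ => (1 - t) • x + t • g) (nhdsWithin 0 (Ioi 0))
      (nhds x) := by
    have h := (hcont.tendsto 0).mono_left (nhdsWithin_le_nhds (s := Ioi (0 : ℝ)))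
    simpa using h
  apply hKcl.mem_of_tendsto htend
  have hev : ∀ᶠ t : ℝ in nhdsWithin 0 (Ioi 0), t ∈ Ioo (0 : ℝ) 1 :=
    Ioo_mem_nhdsGT (by norm_num)
  filter_upwards [hev] with t ht
  apply hcore (t / ((n : ℝ) + 1)) (div_pos ht.1 hn1)
  constructor
  · intro i
    have h1 := hx.1 i
    simp only [Pi.add_apply, Pi.smul_apply, smul_eq_mul, hg]
    have h2 : 0 ≤ (1 - t) * x i := mul_nonneg (by linarith [ht.2]) h1
    have h3 : t * (1 / ((n : ℝ) + 1)) = t / ((n : ℝ) + 1) := by ring
    linarith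
  · have h1 : ∑ i, x i ≤ 1 := hx.2
    have h4 : ∑ i, ((1 - t) • x + t • g) i = (1 - t) * ∑ i, x i + t * ∑ i, g i := by
      simp only [Pi.add_apply, Pi.smul_apply, smul_eq_mul]
      rw [Finset.sum_add_distrib, ← Finset.mul_sum, ← Finset.mul_sum]
    unfold lam0
    rw [h4, hsumg]
    have h5 : (1 - t) * ∑ i, x i ≤ (1 - t) * 1 :=
      mul_le_mul_of_nonneg_left h1 (by linarith [ht.2])
    have h6 : t / ((n : ℝ) + 1) = t - t * ((n : ℝ) / ((n : ℝ) + 1)) := by
      field_simp
      ring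
    linarith

end Vale.Agent.Lib.P254
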