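import Vale.Agent.Lib.P254.LM.Basic

/-!
# The final numerical inequality
-/

namespace Vale.Agent.Lib.P254

variable {n : ℕ}

lemma num_ineq (hn : 1 ≤ n) (θ y : ℝ) (hθ0 : 0 ≤ θ) (hθ : θ ≤ kap n / 2) (hy0 : 0 ≤ y)
    (hy : y ≤ 1 - (((n : ℝ) + 2) / n) * (1 + kap n) * θ) :
    y ^ n ≤ (1 - θ) ^ (n + 2) ∧ (0 < θ → y ^ n < (1 - θ) ^ (n + 2)) := by
  have hn1 : (1 : ℝ) ≤ (n : ℝ) := by exact_mod_cast hn
  have hn0 : (0 : ℝ) < (n : ℝ) := by linarith
  have hk0 : 0 < kap n := by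
    unfold kap
    positivity
  have hk1 : kap n ≤ 1 / 3 := by
    unfold kap
    rw [div_le_div_iff₀ (by positivity) (by norm_num)]
    nlinarith
  have hθ1 : θ < 1 := by linarith
  have h1θ : 0 < 1 - θ := by linarith
  set c : ℝ := (((n : ℝ) + 2) / n) * (1 + kap n) * θ with hc
  -- upper bound for `y ^ n`
  have h1 : y ≤ Real.exp (-c) := by
    have := Real.add_one_le_exp (-c)
    linarith
  have h2 : y ^ n ≤ Real.exp (-(((n : ℝ) + 2) * ((1 + kap n) * θ))) := by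
    calc y ^ n ≤ (Real.exp (-c)) ^ n := pow_le_pow_left₀ hy0 h1 n
      _ = Real.exp ((n : ℝ) * (-c)) := by rw [← Real.exp_nat_mul]
      _ = Real.exp (-(((n : ℝ) + 2) * ((1 + kap n) * θ))) := by
          congr 1
          rw [hc]
          field_simp
  -- lower bound for `(1 - θ) ^ (n + 2)`
  have h3 : Real.exp (-(θ / (1 - θ))) ≤ 1 - θ := by
    have h := Real.add_one_le_exp (θ / (1 - θ))
    have h' : θ / (1 - θ) + 1 = (1 - θ)⁻¹ := by
      field_simp
      ring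
    rw [h'] at h
    rw [Real.exp_neg]
    have h4 : (Real.exp (θ / (1 - θ)))⁻¹ ≤ ((1 - θ)⁻¹)⁻¹ :=
      inv_anti₀ (by positivity) h
    rwa [inv_inv] at h4
  have h5 : Real.exp (-(((n : ℝ) + 2) * (θ / (1 - θ)))) ≤ (1 - θ) ^ (n + 2) := by
    calc Real.exp (-(((n : ℝ) + 2) * (θ / (1 - θ))))
        = Real.exp (((n + 2 : ℕ) : ℝ) * (-(θ / (1 - θ)))) := by
          congr 1
          push_cast
          ring
      _ = (Real.exp (-(θ / (1 - θ)))) ^ (n + 2) := by rw [Real.exp_nat_mul]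
      _ ≤ (1 - θ) ^ (n + 2) := pow_le_pow_left₀ (Real.exp_pos _).le h3 (n + 2)
  -- comparison of the exponents
  have hA : θ * (1 + kap n) ≤ (kap n / 2) * (4 / 3) :=
    mul_le_mul hθ (by linarith) (by linarith) (by linarith)
  have hfac : 0 < (1 + kap n) * (1 - θ) - 1 := by
    have : (1 + kap n) * (1 - θ) - 1 = kap n - θ * (1 + kap n) := by ring
    rw [this]
    linarith
  have h6 : θ / (1 - θ) ≤ (1 + kap n) * θ := by
    rw [div_le_iff₀ h1θ]
    have := mul_nonneg hθ0 hfac.le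
    linarith
  have h7 : 0 < θ → θ / (1 - θ) < (1 + kap n) * θ := by
    intro hpos
    rw [div_lt_iff₀ h1θ]
    have := mul_pos hpos hfac
    linarith
  have hn2 : (0 : ℝ) < (n : ℝ) + 2 := by linarith
  constructor
  · refine h2.trans (le_trans ?_ h5)
    apply Real.exp_le_exp.mpr
    have := mul_le_mul_of_nonneg_left h6 hn2.le
    linarith
  · intro hpos
    refine lt_of_le_of_lt h2 (lt_of_lt_of_le ?_ h5)
    apply Real.exp_lt_exp.mpr
    have := mul_lt_mul_of_pos_left (h7 hpos) hn2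
    linarith

end Vale.Agent.Lib.P254
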