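import Vale.Agent.Lib.P254.LM.Piece
import Vale.Agent.Lib.P254.LM.AMGM
import Vale.Agent.Lib.P254.LM.Num
import Vale.Agent.Lib.P254.LM.Delta

/-!
# The core theorem for bodies inside the corner simplex
-/

namespace Vale.Agent.Lib.P254

open MeasureTheory Set

variable {n : ℕ}

private lemma q2_continuous : Continuous (q2 : (Fin n → ℝ) → ℝ) := by
  unfold q2 lam0
  fun_prop

private lemma delN_pos (hn : 1 ≤ n) : 0 < delN n := by
  have hn0 : (0 : ℝ) < n := by exact_mod_cast hn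
  unfold delN
  positivity

private lemma delN_pow_le (hn : 1 ≤ n) : delN n ^ n ≤ kap n / 2 := by
  have hn1 : (1 : ℝ) ≤ n := by exact_mod_cast hn
  have hn0 : (0 : ℝ) < n := by linarith
  have h1 : delN n ≤ kap n / 2 := by
    unfold delN kap
    rw [div_div, div_le_div_iff₀ (by positivity) (by positivity)]
    nlinarith [mul_pos hn0 hn0, mul_pos (mul_pos hn0 hn0) hn0]
  have h2 : kap n / 2 ≤ 1 := by
    unfold kap
    rw [div_div, div_le_one (by positivity)]
    nlinarith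
  have h3 : delN n ^ n ≤ delN n :=
    pow_le_of_le_one (delN_pos hn).le (h1.trans h2) (by omega)
  exact h3.trans h1

/-- the purely algebraic part -/
private lemma core_alg (hn : 1 ≤ n) (V θ I : ℝ) (hV : 0 < V) (hθ1 : θ < 1) :
    (1 / ((n : ℝ) + 1)) * (I / (((1 - θ) * V) * n * ((n : ℝ) + 1))) ^ n / ((1 - θ) * V) ^ 2
      = ((1 / (((n : ℝ) + 1) * ((n : ℝ) + 2))) ^ n / ((n : ℝ) + 1) / V ^ 2)
        * ((I * ((n : ℝ) + 2) / (n * V)) ^ n / (1 - θ) ^ (n + 2)) := by
  have hn0 : (0 : ℝ) < n := by exact_mod_cast hn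
  have h1 : (0 : ℝ) < 1 - θ := by linarith
  have e : I / (((1 - θ) * V) * n * ((n : ℝ) + 1))
      = (1 / (((n : ℝ) + 1) * ((n : ℝ) + 2))) * (I * ((n : ℝ) + 2) / (n * V)) / (1 - θ) := by
    field_simp
  rw [e, div_pow, mul_pow, pow_add (1 - θ) n 2, mul_pow]
  field_simp

theorem core (hn : 1 ≤ n) (K : Set (Fin n → ℝ)) (hKc : Convex ℝ K) (hK : IsCompact K)
    (hKS : K ⊆ stdS n) (hcen : cen0 n ∈ K) (hcen' : ∀ i, swapZero i (cen0 n) ∈ K)
    (hvol : (1 - delN n ^ n) * vol (stdS n) < vol K) :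
    qf K ≤ qf (stdS n) ∧ (qf K = qf (stdS n) → K = stdS n) := by
  have hn0 : (0 : ℝ) < n := by exact_mod_cast hn
  have hV : 0 < vol (stdS n) := stdS_vol_pos
  have hKm : MeasurableSet K := hK.measurableSet
  have hvD : vol (stdS n \ K) = vol (stdS n) - vol K := by
    rw [vol_eq_integral, vol_eq_integral (stdS n), vol_eq_integral K]
    exact setIntegral_sdiff hKm (stdS_integrable continuous_const) hKS
  have hqD : ∫ x in stdS n \ K, q2 x = (∫ x in stdS n, q2 x) - ∫ x in K, q2 x :=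
    setIntegral_sdiff hKm (stdS_integrable q2_continuous) hKS
  have hvD0 : 0 ≤ vol (stdS n \ K) := ENNReal.toReal_nonneg
  have hvDlt : vol (stdS n \ K) < delN n ^ n * vol (stdS n) := by
    rw [hvD]
    linarith
  have hcore : coreS n (delN n) ⊆ K :=
    core_subset K hKc hK.isClosed hKS (delN n) (delN_pos hn) hvDlt
  have hall := core_all hn K hKc hK.isClosed hKS hcore hcen hcen'
  have hDint : IntegrableOn q2 (stdS n \ K) volume :=
    (stdS_integrable q2_continuous).mono_set sdiff_subset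
  have hDint1 : IntegrableOn (fun _ : Fin n → ℝ => (1 : ℝ)) (stdS n \ K) volume :=
    (stdS_integrable continuous_const).mono_set sdiff_subset
  have hsub : ∫ x in stdS n \ K, (q2 x - 1) = (∫ x in stdS n \ K, q2 x) - vol (stdS n \ K) := by
    rw [vol_eq_integral (stdS n \ K)]
    exact integral_sub hDint hDint1
  rw [hsub, hqD, integral_q2_stdS] at hall
  -- abbreviations
  obtain ⟨V, hVdef⟩ : ∃ V, V = vol (stdS n) := ⟨_, rfl⟩
  obtain ⟨θ, hθdef⟩ : ∃ θ, θ = vol (stdS n \ K) / V := ⟨_, rfl⟩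
  obtain ⟨I, hIdef⟩ : ∃ I, I = ∫ x in K, q2 x := ⟨_, rfl⟩
  rw [← hVdef] at hV hvD hvDlt hall
  rw [← hIdef] at hall
  have hDθ : vol (stdS n \ K) = θ * V := by
    rw [hθdef]
    field_simp
  have hKθ : vol K = (1 - θ) * V := by
    have := hvD
    rw [hDθ] at this
    linarith
  have hθ0 : 0 ≤ θ := by
    rw [hθdef]
    exact div_nonneg hvD0 hV.le
  have hθlt : θ < delN n ^ n := by
    rw [hθdef, div_lt_iff₀ hV]
    exact hvDlt
  have hθk : θ ≤ kap n / 2 := hθlt.le.trans (delN_pow_le hn)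
  have hk1 : kap n / 2 < 1 := by
    have hn1 : (1 : ℝ) ≤ n := by exact_mod_cast hn
    unfold kap
    rw [div_div, div_lt_one (by positivity)]
    nlinarith
  have hθ1 : θ < 1 := lt_of_le_of_lt hθk hk1
  have hvK : 0 < vol K := by
    rw [hKθ]
    exact mul_pos (by linarith) hV
  have hI0 : 0 ≤ I := by
    rw [hIdef]
    exact setIntegral_nonneg hKm (fun x _ => q2_nonneg x)
  rw [hDθ] at hall
  have hy0 : 0 ≤ I * ((n : ℝ) + 2) / (n * V) := by positivity
  have hy : I * ((n : ℝ) + 2) / (n * V) ≤ 1 - (((n : ℝ) + 2) / n) * (1 + kap n) * θ := by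
    rw [div_le_iff₀ (by positivity)]
    have e : (1 - (((n : ℝ) + 2) / n) * (1 + kap n) * θ) * (n * V)
        = ((n : ℝ) + 2) * ((n : ℝ) / ((n : ℝ) + 2) * V - (1 + kap n) * (θ * V)) := by
      field_simp
    rw [e, mul_comm I]
    refine mul_le_mul_of_nonneg_left ?_ (by positivity)
    linarith
  obtain ⟨hnum, hnum'⟩ := num_ineq hn θ _ hθ0 hθk hy0 hy
  have hq := qf_le hn hK hvK
  rw [← hIdef, hKθ, core_alg hn V θ I hV hθ1, hVdef, ← qf_stdS] at hq
  have hpos : (0 : ℝ) < (1 - θ) ^ (n + 2) := pow_pos (by linarith) _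
  have hS : 0 < qf (stdS n) := qf_stdS_pos
  constructor
  · refine hq.trans ?_
    have : (I * ((n : ℝ) + 2) / (n * vol (stdS n))) ^ n / (1 - θ) ^ (n + 2) ≤ 1 := by
      rw [div_le_one hpos, ← hVdef]
      exact hnum
    calc qf (stdS n) * ((I * ((n : ℝ) + 2) / (n * vol (stdS n))) ^ n / (1 - θ) ^ (n + 2))
        ≤ qf (stdS n) * 1 := mul_le_mul_of_nonneg_left this hS.le
      _ = qf (stdS n) := mul_one _
  · intro heq
    have hθz : θ = 0 := by
      by_contra hne
      have hθpos : 0 < θ := lt_of_le_of_ne hθ0 (Ne.symm hne)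
      have : (I * ((n : ℝ) + 2) / (n * vol (stdS n))) ^ n / (1 - θ) ^ (n + 2) < 1 := by
        rw [div_lt_one hpos, ← hVdef]
        exact hnum' hθpos
      have h2 : qf (stdS n) * ((I * ((n : ℝ) + 2) / (n * vol (stdS n))) ^ n / (1 - θ) ^ (n + 2))
          < qf (stdS n) * 1 := mul_lt_mul_of_pos_left this hS
      rw [mul_one] at h2
      rw [heq] at hq
      exact absurd (lt_of_le_of_lt hq h2) (lt_irrefl _)
    refine eq_stdS_of_vol K hKc hK.isClosed hKS ?_
    rw [hDθ, hθz, zero_mul]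

end Vale.Agent.Lib.P254
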