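import Vale.Agent.Lib.P254.LM.Basic

/-!
# The optimal affine position inside the corner simplex
(equivalently: a circumscribed simplex of minimal volume; its facet centroids belong to the body)
-/

namespace Vale.Agent.Lib.P254

open MeasureTheory Set Matrix

variable {n : ℕ}

/-- if the centroid of the facet `∑ x = 1` is not in `K`, the body can be enlarged inside the
corner simplex by a diagonal map -/
lemma exists_diag (hn : 1 ≤ n) (K : Set (Fin n → ℝ)) (hKc : Convex ℝ K) (hK : IsCompact K)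
    (hKS : K ⊆ stdS n) (hcen : cen0 n ∉ K) :
    ∃ u : Fin n → ℝ, (∀ i, 0 < u i) ∧ 1 < ∏ i, u i ∧ ∀ x ∈ K, ∑ i, u i * x i ≤ 1 := by
  obtain ⟨f, β₁, hf1, hf2⟩ := geometric_hahn_banach_closed_point hKc hK.isClosed hcen
  obtain ⟨a, hfa⟩ : ∃ a : Fin n → ℝ, ∀ x, f x = ∑ i, a i * x i := by
    refine ⟨fun i => f (Pi.single i 1), fun x => ?_⟩
    have h := LinearMap.pi_apply_eq_sum_univ (f : (Fin n → ℝ) →ₗ[ℝ] ℝ) x
    have h2 : f x = ∑ i, x i • f (fun j => if i = j then 1 else 0) := h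
    rw [h2]
    refine Finset.sum_congr rfl fun i _ => ?_
    have : (fun j => if i = j then (1 : ℝ) else 0) = Pi.single i 1 := by
      funext j
      by_cases hij : i = j
      · subst hij; simp
      · simp [hij, Ne.symm hij]
    rw [this, smul_eq_mul, mul_comm]
  have hnpos : (0 : ℝ) < n := by exact_mod_cast hn
  obtain ⟨β, hβ1, hβ2⟩ := exists_between hf2
  set c : Fin n → ℝ := fun i => a i - β with hc
  have hcs : 0 < ∑ i, c i := by
    have h1 : f (cen0 n) = (∑ i, a i) / n := by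
      rw [hfa, Finset.sum_div]
      refine Finset.sum_congr rfl fun i _ => ?_
      simp only [cen0]; ring
    rw [h1, lt_div_iff₀ hnpos] at hβ2
    simp only [hc, Finset.sum_sub_distrib, Finset.sum_const, Finset.card_univ, Fintype.card_fin,
      nsmul_eq_mul]
    linarith
  set C : ℝ := ∑ i, c i ^ 2 with hC
  have hC0 : 0 ≤ C := Finset.sum_nonneg fun i _ => sq_nonneg _
  set A : ℝ := ∑ i, |c i| with hA
  have hA0 : 0 ≤ A := Finset.sum_nonneg fun i _ => abs_nonneg _
  set D : ℝ := 1 + C + |β| + A with hD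
  have hD1 : 1 ≤ D := by have := abs_nonneg β; linarith
  have hDpos : 0 < D := by linarith
  set m : ℝ := min 1 (β - β₁) with hm
  have hmpos : 0 < m := lt_min one_pos (by linarith)
  set ε : ℝ := m / D with hε
  have hεpos : 0 < ε := div_pos hmpos hDpos
  have hεD : ε * D = m := div_mul_cancel₀ _ hDpos.ne'
  have hm1 : m ≤ 1 := min_le_left _ _
  have hm2 : m ≤ β - β₁ := min_le_right _ _
  have hεc : ∀ i, |ε * c i| ≤ 1 := by
    intro i
    rw [abs_mul, abs_of_pos hεpos]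
    have h1 : |c i| ≤ A := Finset.single_le_sum (f := fun i => |c i|) (fun k _ => abs_nonneg _) (Finset.mem_univ i)
    have h2 : |c i| ≤ D := by have := abs_nonneg β; linarith
    calc ε * |c i| ≤ ε * D := by gcongr
      _ = m := hεD
      _ ≤ 1 := hm1
  have hεβ : ε * β ≤ 1 := by
    have h2 : β ≤ D := by have := le_abs_self β; linarith
    calc ε * β ≤ ε * D := by gcongr
      _ = m := hεD
      _ ≤ 1 := hm1
  have hεC : ε * C ≤ β - β₁ := by
    have h2 : C ≤ D := by have := abs_nonneg β; linarith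
    calc ε * C ≤ ε * D := by gcongr
      _ = m := hεD
      _ ≤ _ := hm2
  refine ⟨fun i => Real.exp (ε * c i), fun i => Real.exp_pos _, ?_, ?_⟩
  · rw [← Real.exp_sum, ← Finset.mul_sum]
    exact Real.one_lt_exp_iff.mpr (mul_pos hεpos hcs)
  · intro x hx
    have hxS := hKS hx
    have hx0 := hxS.1
    have hxs := hxS.2
    have hfx := hf1 x hx
    rw [hfa] at hfx
    have hexp : ∀ i, Real.exp (ε * c i) ≤ 1 + ε * c i + ε ^ 2 * C := by
      intro i
      have h1 := Real.abs_exp_sub_one_sub_id_le (hεc i)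
      have h2 := (abs_le.mp h1).2
      have h3 : c i ^ 2 ≤ C := Finset.single_le_sum (f := fun i => c i ^ 2) (fun k _ => sq_nonneg _) (Finset.mem_univ i)
      have h4 : (ε * c i) ^ 2 ≤ ε ^ 2 * C := by rw [mul_pow]; gcongr
      linarith
    have h1 : ∑ i, Real.exp (ε * c i) * x i ≤ ∑ i, (1 + ε * c i + ε ^ 2 * C) * x i :=
      Finset.sum_le_sum fun i _ => mul_le_mul_of_nonneg_right (hexp i) (hx0 i)
    have h2 : ∑ i, (1 + ε * c i + ε ^ 2 * C) * x i
        = (1 - ε * β + ε ^ 2 * C) * (∑ i, x i) + ε * ∑ i, a i * x i := by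
      rw [Finset.mul_sum Finset.univ x, Finset.mul_sum Finset.univ (fun i => a i * x i),
        ← Finset.sum_add_distrib]
      refine Finset.sum_congr rfl fun i _ => ?_
      simp only [hc]; ring
    rw [h2] at h1
    have h3 : (1 - ε * β + ε ^ 2 * C) * (∑ i, x i) ≤ (1 - ε * β + ε ^ 2 * C) := by
      have : 0 ≤ 1 - ε * β + ε ^ 2 * C := by have := mul_nonneg (sq_nonneg ε) hC0; linarith
      nlinarith
    have h4 : ε * ∑ i, a i * x i ≤ ε * β₁ := by gcongr
    have h5 : ε ^ 2 * C ≤ ε * (β - β₁) := by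
      rw [sq, mul_assoc]; gcongr
    nlinarith

/-- the set of the admissible affine positions of `K` inside the corner simplex -/
def admPos (K : Set (Fin n → ℝ)) : Set ((Fin n → Fin n → ℝ) × (Fin n → ℝ)) :=
  {p | ∀ x ∈ K, (Matrix.of p.1) *ᵥ x + p.2 ∈ stdS n}

lemma admPos_isClosed (K : Set (Fin n → ℝ)) : IsClosed (admPos K) := by
  have h : admPos K = ⋂ x ∈ K, {p : (Fin n → Fin n → ℝ) × (Fin n → ℝ) |
      (Matrix.of p.1) *ᵥ x + p.2 ∈ stdS n} := by
    ext p; simp [admPos]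
  rw [h]
  refine isClosed_biInter fun x _ => ?_
  refine stdS_isClosed.preimage ?_
  refine Continuous.add ?_ continuous_snd
  refine continuous_pi fun i => ?_
  simp only [Matrix.mulVec, dotProduct, Matrix.of_apply]
  fun_prop

lemma admPos_subset (K : Set (Fin n → ℝ)) (x0 : Fin n → ℝ) (r : ℝ) (hr : 0 < r)
    (hball : Metric.closedBall x0 r ⊆ K) :
    admPos K ⊆ Set.Icc ((fun _ _ => -(1 / r), fun _ => -(1 + (1 / r) * ∑ j, |x0 j|)) :
        (Fin n → Fin n → ℝ) × (Fin n → ℝ))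
      (fun _ _ => 1 / r, fun _ => 1 + (1 / r) * ∑ j, |x0 j|) := by
  intro p hp
  have hx0 : x0 ∈ K := hball (Metric.mem_closedBall_self hr.le)
  have h0 := hp x0 hx0
  have hM : ∀ i j, |p.1 i j| ≤ 1 / r := by
    intro i j
    have hxj : x0 + r • (Pi.single j 1 : Fin n → ℝ) ∈ K := by
      apply hball
      rw [Metric.mem_closedBall, dist_eq_norm, add_sub_cancel_left, norm_smul, Real.norm_eq_abs,
        abs_of_pos hr]
      have : ‖(Pi.single j 1 : Fin n → ℝ)‖ = 1 := by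
        rw [Pi.norm_single]; simp
      rw [this, mul_one]
    have h1 := hp _ hxj
    have e : ((Matrix.of p.1) *ᵥ (x0 + r • (Pi.single j 1 : Fin n → ℝ)) + p.2) i
        = ((Matrix.of p.1) *ᵥ x0 + p.2) i + r * p.1 i j := by
      rw [Matrix.mulVec_add, Matrix.mulVec_smul, Matrix.mulVec_single_one]
      simp only [Pi.add_apply, Pi.smul_apply, smul_eq_mul, Matrix.col_apply, Matrix.of_apply]
      ring
    have a1 := h1.1 i
    have a2 := stdS_le_one h1 i
    have a3 := h0.1 i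
    have a4 := stdS_le_one h0 i
    rw [e] at a1 a2
    rw [le_div_iff₀ hr, ← abs_of_pos hr, ← abs_mul, abs_le]
    constructor <;> linarith
  have hb : ∀ i, |p.2 i| ≤ 1 + (1 / r) * ∑ j, |x0 j| := by
    intro i
    have a3 := h0.1 i
    have a4 := stdS_le_one h0 i
    have e : ((Matrix.of p.1) *ᵥ x0 + p.2) i = (∑ j, p.1 i j * x0 j) + p.2 i := by
      simp only [Pi.add_apply, Matrix.mulVec, dotProduct, Matrix.of_apply]
    rw [e] at a3 a4
    have h2 : |∑ j, p.1 i j * x0 j| ≤ (1 / r) * ∑ j, |x0 j| := by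
      rw [Finset.mul_sum]
      refine (Finset.abs_sum_le_sum_abs _ _).trans (Finset.sum_le_sum fun j _ => ?_)
      rw [abs_mul]
      exact mul_le_mul_of_nonneg_right (hM i j) (abs_nonneg _)
    have h3 := abs_le.mp h2
    rw [abs_le]
    constructor <;> linarith [h3.1, h3.2]
  refine ⟨⟨fun i j => (abs_le.mp (hM i j)).1, fun i => (abs_le.mp (hb i)).1⟩,
    ⟨fun i j => (abs_le.mp (hM i j)).2, fun i => (abs_le.mp (hb i)).2⟩⟩

lemma admPos_isCompact (K : Set (Fin n → ℝ)) (hint : (interior K).Nonempty) :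
    IsCompact (admPos K) := by
  obtain ⟨x0, hx0⟩ := hint
  obtain ⟨r, hr, hball⟩ := Metric.nhds_basis_closedBall.mem_iff.mp (mem_interior_iff_mem_nhds.mp hx0)
  exact isCompact_Icc.of_isClosed_subset (admPos_isClosed K) (admPos_subset K x0 r hr hball)

lemma image_convex (K : Set (Fin n → ℝ)) (hKc : Convex ℝ K)
    (M : Matrix (Fin n) (Fin n) ℝ) (b : Fin n → ℝ) :
    Convex ℝ ((fun x => M *ᵥ x + b) '' K) := by
  rintro _ ⟨x, hx, rfl⟩ _ ⟨y, hy, rfl⟩ s t hs ht hst
  refine ⟨s • x + t • y, hKc hx hy hs ht hst, ?_⟩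
  have hb : b = s • b + t • b := by rw [← add_smul, hst, one_smul]
  simp only [Matrix.mulVec_add, Matrix.mulVec_smul, smul_add]
  nth_rewrite 1 [hb]
  abel

lemma image_isCompact (K : Set (Fin n → ℝ)) (hK : IsCompact K)
    (M : Matrix (Fin n) (Fin n) ℝ) (b : Fin n → ℝ) :
    IsCompact ((fun x => M *ᵥ x + b) '' K) := by
  refine hK.image ?_
  exact (Continuous.matrix_mulVec continuous_const continuous_id).add continuous_const

lemma cen0_mem_of_max (hn : 1 ≤ n) (K : Set (Fin n → ℝ)) (hKc : Convex ℝ K)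
    (hK : IsCompact K) (M : Matrix (Fin n) (Fin n) ℝ) (b : Fin n → ℝ) (hdet : M.det ≠ 0)
    (hMb : ∀ x ∈ K, M *ᵥ x + b ∈ stdS n)
    (hmax : ∀ (M' : Matrix (Fin n) (Fin n) ℝ) (b' : Fin n → ℝ),
      (∀ x ∈ K, M' *ᵥ x + b' ∈ stdS n) → |M'.det| ≤ |M.det|) :
    cen0 n ∈ (fun x => M *ᵥ x + b) '' K := by
  by_contra hcen
  obtain ⟨u, hu0, hu1, hu2⟩ := exists_diag hn _ (image_convex K hKc M b) (image_isCompact K hK M b)
    (by rintro _ ⟨x, hx, rfl⟩; exact hMb x hx) hcen
  have h := hmax (Matrix.diagonal u * M) (Matrix.diagonal u *ᵥ b) (by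
    intro x hx
    have e : (Matrix.diagonal u * M) *ᵥ x + Matrix.diagonal u *ᵥ b
        = Matrix.diagonal u *ᵥ (M *ᵥ x + b) := by
      rw [Matrix.mulVec_add, Matrix.mulVec_mulVec]
    rw [e]
    refine ⟨fun i => ?_, ?_⟩
    · rw [Matrix.mulVec_diagonal]; exact mul_nonneg (hu0 i).le ((hMb x hx).1 i)
    · simp_rw [Matrix.mulVec_diagonal]; exact hu2 _ ⟨x, hx, rfl⟩)
  rw [Matrix.det_mul, Matrix.det_diagonal, abs_mul, abs_of_pos (by linarith : 0 < ∏ i, u i)] at h
  have hpos := abs_pos.mpr hdet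
  nlinarith

/-- `swapZero` as an affine map given by a matrix of determinant `-1` -/
lemma swapZero_matrix (i : Fin n) :
    ∃ S : Matrix (Fin n) (Fin n) ℝ, |S.det| = 1 ∧
      ∀ x, swapZero i x = S *ᵥ x + (Pi.single i 1 : Fin n → ℝ) := by
  refine ⟨1 + Matrix.vecMulVec (Pi.single i 1 : Fin n → ℝ)
    (fun k => -1 - (Pi.single i 1 : Fin n → ℝ) k), ?_, fun x => ?_⟩
  · rw [Matrix.vecMulVec_eq (ι := Unit), Matrix.det_one_add_replicateCol_mul_replicateRow]
    have hba : (fun k => -1 - (Pi.single i 1 : Fin n → ℝ) k) ⬝ᵥ (Pi.single i 1 : Fin n → ℝ) = -2 := by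
      simp [dotProduct, Pi.single_apply]
      norm_num
    rw [hba]; norm_num
  · rw [Matrix.add_mulVec, Matrix.one_mulVec, Matrix.vecMulVec_mulVec, op_smul_eq_smul]
    simp only [swapZero]
    rw [add_smul, one_smul, add_assoc]

theorem exists_opt (hn : 1 ≤ n) (K : Set (Fin n → ℝ)) (hKc : Convex ℝ K) (hK : IsCompact K)
    (hint : (interior K).Nonempty)
    (M0 : Matrix (Fin n) (Fin n) ℝ) (b0 : Fin n → ℝ) (hM0 : M0.det ≠ 0)
    (h0 : (fun x => M0 *ᵥ x + b0) '' K ⊆ stdS n) :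
    ∃ (M : Matrix (Fin n) (Fin n) ℝ) (b : Fin n → ℝ), M.det ≠ 0 ∧ |M0.det| ≤ |M.det| ∧
      (fun x => M *ᵥ x + b) '' K ⊆ stdS n ∧ cen0 n ∈ (fun x => M *ᵥ x + b) '' K ∧
      ∀ i, swapZero i (cen0 n) ∈ (fun x => M *ᵥ x + b) '' K := by
  have hcont : ContinuousOn (fun p : (Fin n → Fin n → ℝ) × (Fin n → ℝ) => |(Matrix.of p.1).det|)
      (admPos K) := by
    refine Continuous.continuousOn ?_
    refine continuous_abs.comp (Continuous.matrix_det ?_)
    refine continuous_matrix fun i j => ?_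
    simp only [Matrix.of_apply]
    fun_prop
  have hne : (admPos K).Nonempty := ⟨(M0, b0), fun x hx => h0 ⟨x, hx, rfl⟩⟩
  obtain ⟨p, hp, hpmax⟩ := (admPos_isCompact K hint).exists_isMaxOn hne hcont
  set M : Matrix (Fin n) (Fin n) ℝ := Matrix.of p.1 with hM
  set b : Fin n → ℝ := p.2 with hb
  have hmax : ∀ (M' : Matrix (Fin n) (Fin n) ℝ) (b' : Fin n → ℝ),
      (∀ x ∈ K, M' *ᵥ x + b' ∈ stdS n) → |M'.det| ≤ |M.det| := by
    intro M' b' h
    exact hpmax (show ((M', b') : (Fin n → Fin n → ℝ) × (Fin n → ℝ)) ∈ admPos K from h)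
  have hMb : ∀ x ∈ K, M *ᵥ x + b ∈ stdS n := hp
  have hle : |M0.det| ≤ |M.det| := hmax M0 b0 fun x hx => h0 ⟨x, hx, rfl⟩
  have hdet : M.det ≠ 0 := by
    have := abs_pos.mpr hM0
    exact abs_pos.mp (lt_of_lt_of_le this hle)
  refine ⟨M, b, hdet, hle, ?_, cen0_mem_of_max hn K hKc hK M b hdet hMb hmax, fun i => ?_⟩
  · rintro _ ⟨x, hx, rfl⟩; exact hMb x hx
  · obtain ⟨S, hS, hSx⟩ := swapZero_matrix i
    have e : ∀ x, (S * M) *ᵥ x + (S *ᵥ b + (Pi.single i 1 : Fin n → ℝ)) = swapZero i (M *ᵥ x + b) := by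
      intro x
      rw [hSx, Matrix.mulVec_add, Matrix.mulVec_mulVec, add_assoc]
    have hdetS : |(S * M).det| = |M.det| := by rw [Matrix.det_mul, abs_mul, hS, one_mul]
    have h := cen0_mem_of_max hn K hKc hK (S * M) (S *ᵥ b + (Pi.single i 1 : Fin n → ℝ))
      (by rw [← abs_pos, hdetS]; exact abs_pos.mpr hdet)
      (fun x hx => by rw [e]; exact swapZero_mem i (hMb x hx))
      (fun M' b' h' => by rw [hdetS]; exact hmax M' b' h')
    obtain ⟨x, hx, hxe⟩ := h
    refine ⟨x, hx, ?_⟩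
    have h2 : swapZero i (M *ᵥ x + b) = cen0 n := by rw [← e]; exact hxe
    show M *ᵥ x + b = swapZero i (cen0 n)
    rw [← h2, swapZero_involutive]

end Vale.Agent.Lib.P254
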