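import Vale.Agent.Lib.P254.LM.Core
import Vale.Agent.Lib.P254.LM.Opt
import Vale.Agent.Lib.P254.Final

/-!
# Local maximality of the simplex
-/

namespace Vale.Agent.Lib.P254

open MeasureTheory Set

variable {n : ℕ}

private lemma delN_pow_le_one (hn : 1 ≤ n) : delN n ^ n ≤ 1 := by
  have hn' : (1 : ℝ) ≤ (n : ℝ) := by exact_mod_cast hn
  have h0 : 0 ≤ delN n := by unfold delN; positivity
  have h1 : delN n ≤ 1 := by
    unfold delN
    rw [div_le_one (by positivity)]
    nlinarith [mul_pos (show (0:ℝ) < (n:ℝ) by linarith) (show (0:ℝ) < (n:ℝ) + 1 by linarith),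
      mul_pos (show (0:ℝ) < (n:ℝ) + 2 by linarith) (show (0:ℝ) < (n:ℝ) + 3 by linarith),
      mul_le_mul hn' (show (1:ℝ) ≤ (n:ℝ) + 1 by linarith) (by norm_num) (by linarith),
      mul_le_mul (show (1:ℝ) ≤ (n:ℝ) + 2 by linarith) (show (1:ℝ) ≤ (n:ℝ) + 3 by linarith)
        (by norm_num) (by linarith),
      mul_le_mul (mul_le_mul hn' (show (1:ℝ) ≤ (n:ℝ) + 1 by linarith) (by norm_num) (by linarith))
        (mul_le_mul (show (1:ℝ) ≤ (n:ℝ) + 2 by linarith) (show (1:ℝ) ≤ (n:ℝ) + 3 by linarith)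
        (by norm_num) (by linarith)) (by norm_num) (by positivity)]
  exact pow_le_one₀ h0 h1

private lemma interior_nonempty_of_vol_pos {K : Set (Fin n → ℝ)} (hKc : Convex ℝ K)
    (hK : IsCompact K) (hv : 0 < vol K) : (interior K).Nonempty := by
  by_contra h
  rw [Set.not_nonempty_iff_eq_empty] at h
  have hfr : frontier K = K := by
    rw [frontier, h, hK.isClosed.closure_eq, Set.sdiff_empty]
  have h0 : volume (frontier K) = 0 := hKc.addHaar_frontier volume
  rw [hfr] at h0
  simp [vol, h0] at hv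

private lemma image_inv_aff (M : Matrix (Fin n) (Fin n) ℝ) (b : Fin n → ℝ) (hM : M.det ≠ 0)
    (K : Set (Fin n → ℝ)) :
    (fun y => M⁻¹.mulVec y + (- M⁻¹.mulVec b)) '' ((fun x => M.mulVec x + b) '' K) = K := by
  have hu : IsUnit M.det := isUnit_iff_ne_zero.mpr hM
  rw [Set.image_image]
  have : ∀ x : Fin n → ℝ, M⁻¹.mulVec (M.mulVec x + b) + (- M⁻¹.mulVec b) = x := by
    intro x
    rw [Matrix.mulVec_add, Matrix.mulVec_mulVec, Matrix.nonsing_inv_mul M hu, Matrix.one_mulVec]
    abel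
  simp only [this, Set.image_id']

theorem local_max (hn : 1 ≤ n) (K : Set (Fin n → ℝ)) (hKc : Convex ℝ K) (hK : IsCompact K)
    (S : Fin (n + 1) → (Fin n → ℝ)) (hS : AffineIndependent ℝ S)
    (hKS : K ⊆ convexHull ℝ (Set.range S))
    (hvol : (1 - delN n ^ n) * vol (convexHull ℝ (Set.range S)) < vol K) :
    isoConst K ≤ isoConst (convexHull ℝ (Set.range S)) ∧
    (isoConst K = isoConst (convexHull ℝ (Set.range S)) →
      ∃ P : Fin (n + 1) → (Fin n → ℝ), AffineIndependent ℝ P ∧ K = convexHull ℝ (Set.range P)) := by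
  have hA : (diffMat S).det ≠ 0 := diffMat_det_ne_zero S hS
  have hAu : IsUnit (diffMat S).det := isUnit_iff_ne_zero.mpr hA
  have hAi : ((diffMat S)⁻¹).det ≠ 0 := by
    intro h
    have h1 : ((diffMat S)⁻¹ * diffMat S).det = 1 := by
      rw [Matrix.nonsing_inv_mul _ hAu, Matrix.det_one]
    rw [Matrix.det_mul, h, zero_mul] at h1
    exact zero_ne_one h1
  have hvT : vol (convexHull ℝ (Set.range S)) = |(diffMat S).det| * vol (stdS n) := by
    rw [← image_stdS S, vol_image_affine _ _ hA stdS_isCompact.measurableSet]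
  have hvTpos : 0 < vol (convexHull ℝ (Set.range S)) := by
    rw [hvT]; exact mul_pos (abs_pos.mpr hA) stdS_vol_pos
  have hvK : 0 < vol K := by
    refine lt_of_le_of_lt ?_ hvol
    exact mul_nonneg (by linarith [delN_pow_le_one hn]) hvTpos.le
  have hint : (interior K).Nonempty := interior_nonempty_of_vol_pos hKc hK hvK
  have h0 : (fun x => (diffMat S)⁻¹.mulVec x + (- (diffMat S)⁻¹.mulVec (S 0))) '' K ⊆ stdS n := by
    have h1 := Set.image_mono (f := fun x => (diffMat S)⁻¹.mulVec x + (- (diffMat S)⁻¹.mulVec (S 0))) hKS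
    rw [← image_stdS S, image_inv_aff _ _ hA] at h1
    exact h1
  obtain ⟨M, b, hM, hdet, hsub, hc, hc'⟩ := exists_opt hn K hKc hK hint _ _ hAi h0
  have hK'c : Convex ℝ ((fun x => M.mulVec x + b) '' K) := by
    have h := hKc.affine_image (affA M b)
    have hf : (⇑(affA M b)) = fun x => M.mulVec x + b := funext (affA_apply M b)
    rw [hf] at h
    exact h
  have hK'k : IsCompact ((fun x => M.mulVec x + b) '' K) :=
    hK.image (by fun_prop)
  have hdetmul : |((diffMat S)⁻¹).det| * |(diffMat S).det| = 1 := by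
    rw [← abs_mul, ← Matrix.det_mul, Matrix.nonsing_inv_mul _ hAu, Matrix.det_one, abs_one]
  have hvol' : (1 - delN n ^ n) * vol (stdS n) < vol ((fun x => M.mulVec x + b) '' K) := by
    rw [vol_image_affine M b hM hK.measurableSet]
    have h1 : |((diffMat S)⁻¹).det| * ((1 - delN n ^ n) * vol (convexHull ℝ (Set.range S)))
        < |((diffMat S)⁻¹).det| * vol K :=
      mul_lt_mul_of_pos_left hvol (abs_pos.mpr hAi)
    have h2 : |((diffMat S)⁻¹).det| * vol K ≤ |M.det| * vol K :=
      mul_le_mul_of_nonneg_right hdet hvK.le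
    have h3 : |((diffMat S)⁻¹).det| * ((1 - delN n ^ n) * vol (convexHull ℝ (Set.range S)))
        = (1 - delN n ^ n) * vol (stdS n) := by
      rw [hvT]
      calc |((diffMat S)⁻¹).det| * ((1 - delN n ^ n) * (|(diffMat S).det| * vol (stdS n)))
          = (|((diffMat S)⁻¹).det| * |(diffMat S).det|) * ((1 - delN n ^ n) * vol (stdS n)) := by ring
        _ = (1 - delN n ^ n) * vol (stdS n) := by rw [hdetmul, one_mul]
    linarith
  obtain ⟨hle, heq⟩ := core hn _ hK'c hK'k hsub hc hc' hvol'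
  rw [qf_image_affine M b hM hK hvK.ne'] at hle heq
  have hn' : (0 : ℝ) < (n : ℝ) := by exact_mod_cast hn
  have hexp : (0 : ℝ) < 1 / (2 * (n : ℝ)) := by positivity
  have hq0 : 0 ≤ qf K := qf_nonneg hK hvK
  rw [isoConst_eq, isoConst_eq, qf_simplex S hS]
  refine ⟨Real.rpow_le_rpow hq0 hle hexp.le, fun h => ?_⟩
  have hKstd := heq ((Real.rpow_left_inj hq0 qf_stdS_pos.le hexp.ne').mp h)
  have hKeq : K = convexHull ℝ (Set.range
      (fun k => M⁻¹.mulVec (stdVert n k) + (- M⁻¹.mulVec b))) := by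
    have h1 := image_inv_aff M b hM K
    rw [hKstd, stdS_eq_convexHull, image_convexHull_aff, ← Set.range_comp] at h1
    exact h1.symm
  refine ⟨_, ?_, hKeq⟩
  apply affineIndependent_of_interior
  rw [← hKeq]
  exact hint

end Vale.Agent.Lib.P254
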