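import Vale.Agent.Lib.P254.LM.Basic

/-!
# From a convex body inside the corner simplex to an admissible function
-/

namespace Vale.Agent.Lib.P254

open MeasureTheory Set

variable {n : ℕ}

/-- the linear part of `Psi` -/
private noncomputable def Lg (μ : Fin n → ℝ) : Fin n → ℝ := fun i => μ i - tS μ / ((n : ℝ) + 1)

private lemma tS_add (μ ν : Fin n → ℝ) : tS (μ + ν) = tS μ + tS ν := by
  simp [tS, Finset.sum_add_distrib]

private lemma tS_smul (c : ℝ) (μ : Fin n → ℝ) : tS (c • μ) = c * tS μ := by
  simp [tS, Finset.mul_sum]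

private lemma Lg_add (μ ν : Fin n → ℝ) : Lg (μ + ν) = Lg μ + Lg ν := by
  funext i
  simp only [Lg, tS_add, Pi.add_apply]
  ring

private lemma Lg_smul (c : ℝ) (μ : Fin n → ℝ) : Lg (c • μ) = c • Lg μ := by
  funext i
  simp only [Lg, tS_smul, Pi.smul_apply, smul_eq_mul]
  ring

private lemma continuous_tS : Continuous (tS : (Fin n → ℝ) → ℝ) := by
  unfold tS
  fun_prop

private lemma continuous_Lg : Continuous (Lg : (Fin n → ℝ) → (Fin n → ℝ)) := by
  apply continuous_pi
  intro i
  have := continuous_tS (n := n)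
  unfold Lg
  fun_prop

private lemma sum_Lg (μ : Fin n → ℝ) : ∑ i, Lg μ i = tS μ / ((n : ℝ) + 1) := by
  have hn1 : (0 : ℝ) < (n : ℝ) + 1 := by positivity
  simp only [Lg, Finset.sum_sub_distrib, Finset.sum_const, Finset.card_univ, Fintype.card_fin,
    nsmul_eq_mul]
  change tS μ - _ = _
  field_simp
  ring

theorem exists_adm (hn : 1 ≤ n) (K : Set (Fin n → ℝ)) (hKc : Convex ℝ K) (hKcl : IsClosed K)
    (hKS : K ⊆ stdS n) (δ : ℝ) (hδ0 : 0 < δ) (hδ1 : ((n : ℝ) + 1) * δ < 1)
    (hcore : coreS n δ ⊆ K) (hcen : cen0 n ∈ K) :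
    ∃ φ : (Fin n → ℝ) → ℝ, Adm n (((n : ℝ) + 1) * δ / (1 - ((n : ℝ) + 1) * δ)) φ ∧
      ∀ μ, (Psi μ ∈ K ↔ tS μ + φ μ ≤ 1) := by
  have hn1 : (0 : ℝ) < (n : ℝ) + 1 := by positivity
  have hn0 : (0 : ℝ) < (n : ℝ) := by exact_mod_cast hn
  set g : Fin n → ℝ := fun _ => 1 / ((n : ℝ) + 1) with hg
  set Kg : Set (Fin n → ℝ) := {w | w + g ∈ K} with hKg
  have hδg : δ < 1 / ((n : ℝ) + 1) := by
    rw [lt_div_iff₀ hn1]
    linarith
  have hsumg : ∑ i, g i = (n : ℝ) / ((n : ℝ) + 1) := by
    simp only [hg, Finset.sum_const, Finset.card_univ, Fintype.card_fin, nsmul_eq_mul]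
    ring
  -- `Kg` is a closed convex neighbourhood of the origin
  have hcontadd : Continuous fun w : Fin n → ℝ => w + g := by fun_prop
  have hKgcl : IsClosed Kg := hKcl.preimage hcontadd
  have hKgc : Convex ℝ Kg := by
    intro w hw w' hw' a b ha hb hab
    have h := hKc hw hw' ha hb hab
    have h2 : a • (w + g) + b • (w' + g) = (a • w + b • w') + g := by
      have : g = a • g + b • g := by rw [← add_smul, hab, one_smul]
      rw [smul_add, smul_add]
      nth_rewrite 3 [this]
      abel
    rw [h2] at h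
    exact h
  have hopen : IsOpen {x : Fin n → ℝ | (∀ i, δ < x i) ∧ δ < 1 - ∑ i, x i} := by
    have h1 : {x : Fin n → ℝ | (∀ i, δ < x i) ∧ δ < 1 - ∑ i, x i}
        = (⋂ i, {x : Fin n → ℝ | δ < x i}) ∩ {x : Fin n → ℝ | δ < 1 - ∑ i, x i} := by
      ext x
      simp
    rw [h1]
    apply IsOpen.inter
    · apply isOpen_iInter_of_finite
      intro i
      exact isOpen_lt continuous_const (continuous_apply i)
    · exact isOpen_lt continuous_const (by fun_prop)
  have hKnhds : K ∈ nhds g := by
    apply Filter.mem_of_superset (hopen.mem_nhds _)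
    · intro x hx
      exact hcore ⟨fun i => (hx.1 i).le, hx.2.le⟩
    · refine ⟨fun i => hδg, ?_⟩
      rw [hsumg]
      have : 1 - (n : ℝ) / ((n : ℝ) + 1) = 1 / ((n : ℝ) + 1) := by
        field_simp
        ring
      rw [this]
      exact hδg
  have hKg0 : Kg ∈ nhds (0 : Fin n → ℝ) := by
    have h : Filter.Tendsto (fun w : Fin n → ℝ => w + g) (nhds 0) (nhds g) := by
      have := hcontadd.tendsto 0
      simpa using this
    exact h hKnhds
  have habs : Absorbent ℝ Kg := absorbent_nhds_zero hKg0
  have hPsi : ∀ μ : Fin n → ℝ, Psi μ = Lg μ + g := by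
    intro μ
    funext i
    simp only [Psi, Lg, hg, Pi.add_apply]
    ring
  refine ⟨fun μ => gauge Kg (Lg μ) - tS μ, ?_, ?_⟩
  · refine ⟨?_, ?_, ?_, ?_, ?_, ?_⟩
    · exact ((continuous_gauge hKgc hKg0).comp continuous_Lg).sub continuous_tS
    · refine ⟨convex_univ, ?_⟩
      intro μ _ ν _ a b ha hb _
      simp only [smul_eq_mul]
      rw [Lg_add, Lg_smul, Lg_smul, tS_add, tS_smul, tS_smul]
      have h1 := gauge_add_le hKgc habs (a • Lg μ) (b • Lg ν)
      rw [gauge_smul_of_nonneg ha, gauge_smul_of_nonneg hb] at h1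
      simp only [smul_eq_mul] at h1
      linarith
    · intro c hc μ
      rw [Lg_smul, tS_smul, gauge_smul_of_nonneg hc]
      simp only [smul_eq_mul]
      ring
    · intro μ _
      by_contra hlt
      have hlt' : gauge Kg (Lg μ) < tS μ := by
        have := not_le.mp hlt
        linarith
      obtain ⟨r, hr0, hrt, hmem⟩ := exists_lt_of_gauge_lt habs hlt'
      obtain ⟨w, hw, hwe⟩ := hmem
      have hwS : w + g ∈ stdS n := hKS hw
      have h1 : ∑ i, (w + g) i ≤ 1 := hwS.2
      have h2 : ∑ i, (w + g) i = ∑ i, w i + (n : ℝ) / ((n : ℝ) + 1) := by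
        simp only [Pi.add_apply]
        rw [Finset.sum_add_distrib, hsumg]
      have h3 : r * ∑ i, w i = tS μ / ((n : ℝ) + 1) := by
        rw [← sum_Lg, ← hwe, Finset.mul_sum]
        simp
      have h4 : ∑ i, w i ≤ 1 / ((n : ℝ) + 1) := by
        have : 1 - (n : ℝ) / ((n : ℝ) + 1) = 1 / ((n : ℝ) + 1) := by
          field_simp
          ring
        linarith
      have h5 : tS μ / ((n : ℝ) + 1) ≤ r * (1 / ((n : ℝ) + 1)) := by
        rw [← h3]
        exact mul_le_mul_of_nonneg_left h4 hr0.le
      have h6 : tS μ ≤ r := by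
        have h7 : r * (1 / ((n : ℝ) + 1)) = r / ((n : ℝ) + 1) := by ring
        rw [h7, div_le_div_iff_of_pos_right hn1] at h5
        exact h5
      linarith
    · intro μ hμ
      have hd : 0 < 1 - ((n : ℝ) + 1) * δ := by linarith
      have ht0 : 0 ≤ tS μ := Finset.sum_nonneg fun i _ => hμ i
      rcases ht0.eq_or_lt with ht | ht
      · have hμ0 : μ = 0 := by
          funext i
          have := (Finset.sum_eq_zero_iff_of_nonneg (fun i _ => hμ i)).mp ht.symm i
            (Finset.mem_univ i)
          simpa using this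
        have hL0 : Lg (0 : Fin n → ℝ) = 0 := by
          have := Lg_smul (0 : ℝ) (0 : Fin n → ℝ)
          simpa using this
        rw [hμ0, hL0, gauge_zero]
        simp [tS]
      · set c : ℝ := tS μ / (1 - ((n : ℝ) + 1) * δ) with hc
        have hc0 : 0 < c := div_pos ht hd
        set w : Fin n → ℝ := c⁻¹ • Lg μ with hw
        have hcw : Lg μ = c • w := by
          rw [hw, smul_smul, mul_inv_cancel₀ hc0.ne', one_smul]
        have hcinv : c⁻¹ = (1 - ((n : ℝ) + 1) * δ) / tS μ := by
          rw [hc, inv_div]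
        have hwK : w ∈ Kg := by
          apply hcore
          constructor
          · intro i
            have h1 : (w + g) i = μ i * ((1 - ((n : ℝ) + 1) * δ) / tS μ) + δ := by
              simp only [hw, hg, Pi.add_apply, Pi.smul_apply, smul_eq_mul, Lg, hcinv]
              field_simp
              ring
            rw [h1]
            have : 0 ≤ μ i * ((1 - ((n : ℝ) + 1) * δ) / tS μ) :=
              mul_nonneg (hμ i) (div_nonneg hd.le ht.le)
            linarith
          · have h1 : ∑ i, (w + g) i = c⁻¹ * (tS μ / ((n : ℝ) + 1)) + (n : ℝ) / ((n : ℝ) + 1) := by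
              simp only [Pi.add_apply]
              rw [Finset.sum_add_distrib, hsumg, ← sum_Lg, Finset.mul_sum]
              simp [hw]
            unfold lam0
            rw [h1, hcinv]
            apply le_of_eq
            field_simp
            ring
        have h2 : gauge Kg (Lg μ) ≤ c := by
          rw [hcw, gauge_smul_of_nonneg hc0.le]
          simp only [smul_eq_mul]
          have := gauge_le_one_of_mem hwK
          nlinarith
        have h3 : c = tS μ + ((n : ℝ) + 1) * δ / (1 - ((n : ℝ) + 1) * δ) * tS μ := by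
          rw [hc]
          field_simp
          ring
        linarith
    · have h1 : Lg (fun _ : Fin n => (1 : ℝ)) = (n : ℝ) • (cen0 n - g) := by
        funext i
        simp only [Lg, tS, cen0, hg, Pi.smul_apply, Pi.sub_apply, smul_eq_mul, Finset.sum_const,
          Finset.card_univ, Fintype.card_fin, nsmul_eq_mul, mul_one]
        field_simp
      have h2 : cen0 n - g ∈ Kg := by
        change cen0 n - g + g ∈ K
        rw [sub_add_cancel]
        exact hcen
      have h3 : tS (fun _ : Fin n => (1 : ℝ)) = (n : ℝ) := by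
        simp [tS]
      rw [h1, h3, gauge_smul_of_nonneg hn0.le]
      simp only [smul_eq_mul]
      have := gauge_le_one_of_mem h2
      nlinarith
  · intro μ
    have h1 : tS μ + (gauge Kg (Lg μ) - tS μ) = gauge Kg (Lg μ) := by ring
    rw [h1, gauge_le_one_iff_mem_closure hKgc hKg0, hKgcl.closure_eq, hPsi]
    rfl

end Vale.Agent.Lib.P254
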