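import Vale.Agent.Lib.P254.LM.Final

/-!
# Local maximality of the simplex with respect to the Hausdorff distance
-/

namespace Vale.Agent.Lib.P254

open MeasureTheory Set

variable {n : ℕ}

private lemma interior_nonempty_of_vol_pos' {K : Set (Fin n → ℝ)} (hKc : Convex ℝ K)
    (hK : IsCompact K) (hv : 0 < vol K) : (interior K).Nonempty := by
  by_contra h
  rw [Set.not_nonempty_iff_eq_empty] at h
  have hfr : frontier K = K := by
    rw [frontier, h, hK.isClosed.closure_eq, Set.sdiff_empty]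
  have h0 : volume (frontier K) = 0 := hKc.addHaar_frontier volume
  rw [hfr] at h0
  simp [vol, h0] at hv

private lemma image_inv_aff' (M : Matrix (Fin n) (Fin n) ℝ) (b : Fin n → ℝ) (hM : M.det ≠ 0)
    (K : Set (Fin n → ℝ)) :
    (fun y => M⁻¹.mulVec y + (- M⁻¹.mulVec b)) '' ((fun x => M.mulVec x + b) '' K) = K := by
  have hu : IsUnit M.det := isUnit_iff_ne_zero.mpr hM
  rw [Set.image_image]
  have : ∀ x : Fin n → ℝ, M⁻¹.mulVec (M.mulVec x + b) + (- M⁻¹.mulVec b) = x := by
    intro x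
    rw [Matrix.mulVec_add, Matrix.mulVec_mulVec, Matrix.nonsing_inv_mul M hu, Matrix.one_mulVec]
    abel
  simp only [this, Set.image_id']

private lemma image_aff_inv' (M : Matrix (Fin n) (Fin n) ℝ) (b : Fin n → ℝ) (hM : M.det ≠ 0)
    (K : Set (Fin n → ℝ)) :
    (fun x => M.mulVec x + b) '' ((fun y => M⁻¹.mulVec y + (- M⁻¹.mulVec b)) '' K) = K := by
  have hu : IsUnit M.det := isUnit_iff_ne_zero.mpr hM
  rw [Set.image_image]
  have : ∀ x : Fin n → ℝ, M.mulVec (M⁻¹.mulVec x + (- M⁻¹.mulVec b)) + b = x := by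
    intro x
    rw [Matrix.mulVec_add, Matrix.mulVec_neg, Matrix.mulVec_mulVec, Matrix.mulVec_mulVec,
      Matrix.mul_nonsing_inv M hu, Matrix.one_mulVec, Matrix.one_mulVec]
    abel
  simp only [this, Set.image_id']

/-- the entrywise `ℓ¹` norm of a matrix -/
private noncomputable def lipC (N : Matrix (Fin n) (Fin n) ℝ) : ℝ := ∑ i, ∑ j, |N i j|

private lemma lipC_nonneg (N : Matrix (Fin n) (Fin n) ℝ) : 0 ≤ lipC N :=
  Finset.sum_nonneg fun _ _ => Finset.sum_nonneg fun _ _ => abs_nonneg _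

private lemma row_bound (N : Matrix (Fin n) (Fin n) ℝ) (w : Fin n → ℝ) (r : ℝ)
    (hw : ∀ j, |w j| ≤ r) (i : Fin n) : |(N.mulVec w) i| ≤ (∑ j, |N i j|) * r := by
  simp only [Matrix.mulVec, dotProduct]
  calc |∑ j, N i j * w j| ≤ ∑ j, |N i j * w j| := Finset.abs_sum_le_sum_abs _ _
    _ = ∑ j, |N i j| * |w j| := Finset.sum_congr rfl fun j _ => abs_mul _ _
    _ ≤ ∑ j, |N i j| * r :=
        Finset.sum_le_sum fun j _ => mul_le_mul_of_nonneg_left (hw j) (abs_nonneg _)
    _ = (∑ j, |N i j|) * r := by rw [Finset.sum_mul]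

private lemma coord_bound (N : Matrix (Fin n) (Fin n) ℝ) (w : Fin n → ℝ) (r : ℝ) (hr : 0 ≤ r)
    (hw : ∀ j, |w j| ≤ r) (i : Fin n) : |(N.mulVec w) i| ≤ lipC N * r := by
  refine (row_bound N w r hw i).trans (mul_le_mul_of_nonneg_right ?_ hr)
  exact Finset.single_le_sum (f := fun i => ∑ j, |N i j|)
    (fun _ _ => Finset.sum_nonneg fun _ _ => abs_nonneg _) (Finset.mem_univ i)

private lemma sum_bound (N : Matrix (Fin n) (Fin n) ℝ) (w : Fin n → ℝ) (r : ℝ)
    (hw : ∀ j, |w j| ≤ r) : |∑ i, (N.mulVec w) i| ≤ lipC N * r := by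
  calc |∑ i, (N.mulVec w) i| ≤ ∑ i, |(N.mulVec w) i| := Finset.abs_sum_le_sum_abs _ _
    _ ≤ ∑ i, (∑ j, |N i j|) * r := Finset.sum_le_sum fun i _ => row_bound N w r hw i
    _ = lipC N * r := by rw [lipC, Finset.sum_mul]

/-- the homothety `x ↦ c x + t 1` written with a matrix -/
private lemma hom_apply (c t : ℝ) (x : Fin n → ℝ) (i : Fin n) :
    ((c • (1 : Matrix (Fin n) (Fin n) ℝ)).mulVec x + (fun _ => t : Fin n → ℝ)) i = c * x i + t := by
  simp [Matrix.smul_mulVec]

private lemma hom_det (c : ℝ) : (c • (1 : Matrix (Fin n) (Fin n) ℝ)).det = c ^ n := by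
  simp

private lemma vol_hom (c t : ℝ) (hc : 0 < c) :
    vol ((fun x => (c • (1 : Matrix (Fin n) (Fin n) ℝ)).mulVec x + fun _ => t) '' stdS n)
      = c ^ n * vol (stdS n) := by
  rw [vol_image_affine _ _ (by rw [hom_det]; positivity) stdS_isCompact.measurableSet, hom_det,
    abs_of_pos (by positivity)]

private lemma exists_param (hn : 1 ≤ n) :
    ∃ s : ℝ, 0 < s ∧ s < 1 ∧ (1 - delN n ^ n) * (1 + s) ^ n < (1 - s) ^ n := by
  have hn' : (1 : ℝ) ≤ (n : ℝ) := by exact_mod_cast hn
  have hd : 0 < delN n := by unfold delN; positivity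
  have hc1 : ContinuousAt (fun s : ℝ => (1 - delN n ^ n) * (1 + s) ^ n) 0 := by fun_prop
  have hc2 : ContinuousAt (fun s : ℝ => (1 - s) ^ n) 0 := by fun_prop
  have h0 : (fun s : ℝ => (1 - delN n ^ n) * (1 + s) ^ n) 0 < (fun s : ℝ => (1 - s) ^ n) 0 := by
    simp only [add_zero, sub_zero, one_pow, mul_one]
    linarith [pow_pos hd n]
  have hev := hc1.eventually_lt hc2 h0
  obtain ⟨ε, hε, hball⟩ := Metric.eventually_nhds_iff.mp hev
  refine ⟨min ε 1 / 2, by positivity, ?_, ?_⟩
  · have := min_le_right ε 1; linarith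
  · apply hball
    rw [Real.dist_eq, sub_zero, abs_of_pos (by positivity)]
    have := min_le_left ε 1
    have h2 : 0 < min ε 1 := by positivity
    linarith

private lemma sep_point {K : Set (Fin n → ℝ)} (hKc : Convex ℝ K) (hKcl : IsClosed K)
    {x : Fin n → ℝ} (hx : x ∉ K) {η : ℝ} (hη : 0 < η) :
    ∃ v : Fin n → ℝ, (∀ j, |v j| ≤ η) ∧ ∀ k ∈ K, η < dist (x + v) k := by
  obtain ⟨f, u, hfu, hux⟩ := geometric_hahn_banach_closed_point hKc hKcl hx
  set a : Fin n → ℝ := fun i => f (Pi.single i 1) with ha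
  have hf : ∀ y : Fin n → ℝ, f y = ∑ i, y i * a i := by
    intro y
    conv_lhs => rw [eq_sum_single y]
    rw [map_sum]
    refine Finset.sum_congr rfl fun i _ => ?_
    rw [map_smul, smul_eq_mul]
  set v : Fin n → ℝ := fun j => if 0 ≤ a j then η else -η with hv
  have hfv : f v = η * ∑ i, |a i| := by
    rw [hf, Finset.mul_sum]
    refine Finset.sum_congr rfl fun i _ => ?_
    simp only [hv]
    split_ifs with h
    · rw [abs_of_nonneg h]
    · rw [abs_of_neg (not_le.mp h)]; ring
  refine ⟨v, fun j => ?_, fun k hk => ?_⟩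
  · simp only [hv]
    split_ifs
    · rw [abs_of_pos hη]
    · rw [abs_neg, abs_of_pos hη]
  · have h1 : f (x + v - k) ≤ dist (x + v) k * ∑ i, |a i| := by
      rw [hf, Finset.mul_sum]
      refine Finset.sum_le_sum fun i _ => ?_
      have h2 : |(x + v - k) i| ≤ dist (x + v) k := by
        have := dist_le_pi_dist (x + v) k i
        rwa [Real.dist_eq] at this
      calc (x + v - k) i * a i ≤ |(x + v - k) i * a i| := le_abs_self _
        _ = |(x + v - k) i| * |a i| := abs_mul _ _
        _ ≤ dist (x + v) k * |a i| := mul_le_mul_of_nonneg_right h2 (abs_nonneg _)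
    have h3 : f (x + v - k) = f x + f v - f k := by rw [map_sub, map_add]
    have h4 : η * ∑ i, |a i| < dist (x + v) k * ∑ i, |a i| := by
      have := hfu k hk
      linarith
    have hA : 0 ≤ ∑ i, |a i| := Finset.sum_nonneg fun _ _ => abs_nonneg _
    exact lt_of_mul_lt_mul_right h4 hA

theorem local_max_hausdorff (hn : 1 ≤ n) (S : Fin (n + 1) → (Fin n → ℝ))
    (hS : AffineIndependent ℝ S) :
    ∃ η : ℝ, 0 < η ∧ ∀ K : Set (Fin n → ℝ), Convex ℝ K → IsCompact K → K.Nonempty →
      Metric.hausdorffDist K (convexHull ℝ (Set.range S)) < η →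
      isoConst K ≤ isoConst (convexHull ℝ (Set.range S)) ∧
      (isoConst K = isoConst (convexHull ℝ (Set.range S)) →
        ∃ P : Fin (n + 1) → (Fin n → ℝ), AffineIndependent ℝ P ∧
          K = convexHull ℝ (Set.range P)) := by
  obtain ⟨s, hs0, hs1, hs⟩ := exists_param hn
  have hA : (diffMat S).det ≠ 0 := diffMat_det_ne_zero S hS
  have hAu : IsUnit (diffMat S).det := isUnit_iff_ne_zero.mpr hA
  obtain ⟨N, hN⟩ : ∃ N, N = (diffMat S)⁻¹ := ⟨_, rfl⟩
  have hNdet : N.det ≠ 0 := by
    intro h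
    have h1 : (N * diffMat S).det = 1 := by
      rw [hN, Matrix.nonsing_inv_mul _ hAu, Matrix.det_one]
    rw [Matrix.det_mul, h, zero_mul] at h1
    exact zero_ne_one h1
  have hnpos : (0 : ℝ) < (n : ℝ) + 1 := by positivity
  obtain ⟨t, ht⟩ : ∃ t : ℝ, t = s / ((n : ℝ) + 1) := ⟨_, rfl⟩
  have ht0 : 0 < t := by rw [ht]; positivity
  have hst : s = ((n : ℝ) + 1) * t := by rw [ht]; field_simp
  have hL := lipC_nonneg N
  obtain ⟨η, hη⟩ : ∃ η : ℝ, η = t / (lipC N + 1) := ⟨_, rfl⟩
  have hη0 : 0 < η := by rw [hη]; positivity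
  have hLη : lipC N * η ≤ t := by
    rw [hη, mul_div_assoc', div_le_iff₀ (by positivity)]
    nlinarith
  refine ⟨η, hη0, fun K hKc hK hKne hd => ?_⟩
  obtain ⟨D0, hD0⟩ : ∃ D0, D0 = convexHull ℝ (Set.range S) := ⟨_, rfl⟩
  rw [← hD0] at hd ⊢
  obtain ⟨g, hg⟩ : ∃ g : (Fin n → ℝ) → (Fin n → ℝ),
      g = fun y => N.mulVec y + (- N.mulVec (S 0)) := ⟨_, rfl⟩
  have hD0c : IsCompact D0 := by rw [hD0]; exact (Set.finite_range S).isCompact_convexHull (𝕜 := ℝ)
  have hD0ne : D0.Nonempty := ⟨S 0, by rw [hD0]; exact subset_convexHull ℝ _ (Set.mem_range_self 0)⟩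
  have fin : Metric.hausdorffEDist K D0 ≠ ⊤ :=
    Metric.hausdorffEDist_ne_top_of_nonempty_of_bounded hKne hD0ne hK.isBounded hD0c.isBounded
  have hgD0 : g '' D0 = stdS n := by
    rw [hD0, ← image_stdS S, hg, hN]; exact image_inv_aff' _ _ hA _
  have hgsub : ∀ x y, g x - g y = N.mulVec (x - y) := by
    intro x y; rw [hg]; simp [Matrix.mulVec_sub]
  have hfg : ∀ y, (diffMat S).mulVec (g y) + S 0 = y := by
    intro y
    rw [hg, hN]
    simp only
    rw [Matrix.mulVec_add, Matrix.mulVec_neg, Matrix.mulVec_mulVec, Matrix.mulVec_mulVec,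
      Matrix.mul_nonsing_inv _ hAu, Matrix.one_mulVec, Matrix.one_mulVec]
    abel
  have hgf : ∀ z, g ((diffMat S).mulVec z + S 0) = z := by
    intro z
    rw [hg, hN]
    simp only
    rw [Matrix.mulVec_add, Matrix.mulVec_mulVec, Matrix.nonsing_inv_mul _ hAu, Matrix.one_mulVec]
    abel
  -- the body is contained in a slightly larger simplex
  have hout : g '' K ⊆ (fun x => ((1 + s) • (1 : Matrix (Fin n) (Fin n) ℝ)).mulVec x
      + fun _ => -t) '' stdS n := by
    rintro _ ⟨x, hx, rfl⟩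
    obtain ⟨y, hy, hxy⟩ := Metric.exists_dist_lt_of_hausdorffDist_lt hx hd fin
    have hgy : g y ∈ stdS n := hgD0 ▸ Set.mem_image_of_mem g hy
    have hw : ∀ j, |(x - y) j| ≤ η := fun j => by
      have := dist_le_pi_dist x y j
      rw [Real.dist_eq] at this
      exact this.trans hxy.le
    have hc : ∀ i, |g x i - g y i| ≤ t := fun i => by
      have := coord_bound N (x - y) η hη0.le hw i
      rw [← hgsub] at this
      exact this.trans hLη
    have hsum : |∑ i, g x i - ∑ i, g y i| ≤ t := by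
      have := sum_bound N (x - y) η hw
      rw [← hgsub] at this
      simp only [Pi.sub_apply, Finset.sum_sub_distrib] at this
      exact this.trans hLη
    refine ⟨fun i => (g x i + t) / (1 + s), ⟨fun i => ?_, ?_⟩, ?_⟩
    · have h1 := abs_le.mp (hc i)
      have h2 := hgy.1 i
      apply div_nonneg <;> linarith
    · rw [← Finset.sum_div, div_le_one (by linarith), Finset.sum_add_distrib]
      simp only [Finset.sum_const, Finset.card_univ, Fintype.card_fin, nsmul_eq_mul]
      have h1 := abs_le.mp hsum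
      have h2 := hgy.2
      linarith
    · funext i
      simp only
      rw [hom_apply]
      have : (1 + s) ≠ 0 := by linarith
      field_simp
      ring
  -- the body contains a slightly smaller simplex
  have hin : (fun x => ((1 - s) • (1 : Matrix (Fin n) (Fin n) ℝ)).mulVec x
      + fun _ => t) '' stdS n ⊆ g '' K := by
    rintro _ ⟨z0, hz0, rfl⟩
    obtain ⟨z, hz⟩ : ∃ z, z = ((1 - s) • (1 : Matrix (Fin n) (Fin n) ℝ)).mulVec z0
      + (fun _ => t : Fin n → ℝ) := ⟨_, rfl⟩
    simp only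
    rw [← hz]
    have hzi : ∀ i, z i = (1 - s) * z0 i + t := fun i => by rw [hz, hom_apply]
    by_contra hzK
    have hxK : (diffMat S).mulVec z + S 0 ∉ K := fun h => hzK ⟨_, h, hgf z⟩
    obtain ⟨v, hv, hfar⟩ := sep_point hKc hK.isClosed hxK hη0
    have hy : (diffMat S).mulVec z + S 0 + v ∈ D0 := by
      have e : g ((diffMat S).mulVec z + S 0 + v) = z + N.mulVec v := by
        have h1 := hgsub ((diffMat S).mulVec z + S 0 + v) ((diffMat S).mulVec z + S 0)
        rw [hgf, add_sub_cancel_left] at h1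
        rw [← h1]; abel
      have hgv : g ((diffMat S).mulVec z + S 0 + v) ∈ stdS n := by
        rw [e]
        refine ⟨fun i => ?_, ?_⟩
        · have h1 := abs_le.mp ((coord_bound N v η hη0.le hv i).trans hLη)
          have h2 : 0 ≤ (1 - s) * z0 i := mul_nonneg (by linarith) (hz0.1 i)
          rw [Pi.add_apply, hzi]
          linarith
        · have h1 := abs_le.mp ((sum_bound N v η hv).trans hLη)
          simp only [Pi.add_apply, Finset.sum_add_distrib, hzi, ← Finset.mul_sum,
            Finset.sum_const, Finset.card_univ, Fintype.card_fin, nsmul_eq_mul]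
          have h2 : (1 - s) * ∑ i, z0 i ≤ (1 - s) * 1 :=
            mul_le_mul_of_nonneg_left hz0.2 (by linarith)
          linarith
      rw [hD0, ← image_stdS S]
      exact ⟨_, hgv, hfg _⟩
    obtain ⟨k, hk, hkd⟩ := Metric.exists_dist_lt_of_hausdorffDist_lt' hy hd fin
    have := hfar k hk
    rw [dist_comm] at hkd
    linarith
  -- assembly
  obtain ⟨P, hPdef⟩ : ∃ P : Fin (n + 1) → (Fin n → ℝ), P = fun k =>
      ((1 + s) • (1 : Matrix (Fin n) (Fin n) ℝ)).mulVec (stdVert n k) + fun _ => -t := ⟨_, rfl⟩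
  have hP : (fun x => ((1 + s) • (1 : Matrix (Fin n) (Fin n) ℝ)).mulVec x
      + fun _ => -t) '' stdS n = convexHull ℝ (Set.range P) := by
    rw [stdS_eq_convexHull, image_convexHull_aff, ← Set.range_comp, hPdef]
    rfl
  have hvP : vol (convexHull ℝ (Set.range P)) = (1 + s) ^ n * vol (stdS n) := by
    rw [← hP, vol_hom _ _ (by linarith)]
  have hPind : AffineIndependent ℝ P := by
    apply affineIndependent_of_interior
    apply interior_nonempty_of_vol_pos' (convex_convexHull ℝ _)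
      ((Set.finite_range P).isCompact_convexHull (𝕜 := ℝ))
    rw [hvP]
    exact mul_pos (pow_pos (by linarith) n) stdS_vol_pos
  have hgeq : g = fun y => N.mulVec y + (- N.mulVec (S 0)) := hg
  have hK'c : Convex ℝ (g '' K) := by
    have h := hKc.affine_image (affA N (- N.mulVec (S 0)))
    have hf : (⇑(affA N (- N.mulVec (S 0)))) = g := by
      rw [hg]; exact funext (affA_apply N _)
    rw [hf] at h
    exact h
  have hK'k : IsCompact (g '' K) := hK.image (by rw [hg]; fun_prop)
  have hvK' : (1 - s) ^ n * vol (stdS n) ≤ vol (g '' K) := by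
    rw [← vol_hom (1 - s) t (by linarith)]
    exact ENNReal.toReal_mono hK'k.measure_lt_top.ne (measure_mono hin)
  have hvol : (1 - delN n ^ n) * vol (convexHull ℝ (Set.range P)) < vol (g '' K) := by
    rw [hvP]
    calc (1 - delN n ^ n) * ((1 + s) ^ n * vol (stdS n))
        = ((1 - delN n ^ n) * (1 + s) ^ n) * vol (stdS n) := by ring
      _ < (1 - s) ^ n * vol (stdS n) := mul_lt_mul_of_pos_right hs stdS_vol_pos
      _ ≤ _ := hvK'
  obtain ⟨hle, heq⟩ := local_max hn (g '' K) hK'c hK'k P hPind (hP ▸ hout) hvol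
  have hvK'pos : 0 < vol (g '' K) :=
    lt_of_lt_of_le (mul_pos (pow_pos (by linarith) n) stdS_vol_pos) hvK'
  have hvKne : vol K ≠ 0 := by
    intro h
    rw [hg, vol_image_affine N _ hNdet hK.measurableSet, h, mul_zero] at hvK'pos
    exact lt_irrefl _ hvK'pos
  have hiso : isoConst (g '' K) = isoConst K := by
    rw [isoConst_eq, isoConst_eq, hg, qf_image_affine N _ hNdet hK hvKne]
  have hisoP : isoConst (convexHull ℝ (Set.range P)) = isoConst D0 := by
    rw [isoConst_eq, isoConst_eq, qf_simplex P hPind, hD0, qf_simplex S hS]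
  rw [hiso, hisoP] at hle heq
  refine ⟨hle, fun h => ?_⟩
  obtain ⟨Q, hQ, hKQ⟩ := heq h
  have hKeq : K = convexHull ℝ (Set.range fun k => (diffMat S).mulVec (Q k) + S 0) := by
    have h1 : (fun x => (diffMat S).mulVec x + S 0) '' (g '' K) = K := by
      rw [Set.image_image]
      simp only [hfg, Set.image_id']
    rw [hKQ, image_convexHull_aff, ← Set.range_comp] at h1
    exact h1.symm
  refine ⟨_, ?_, hKeq⟩
  apply affineIndependent_of_interior
  rw [← hKeq]
  exact interior_nonempty_of_vol_pos' hKc hK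
    (lt_of_le_of_ne ENNReal.toReal_nonneg hvKne.symm)

end Vale.Agent.Lib.P254
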