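import Vale.Agent.Lib.P254.LM.Layer

/-!
# Homogeneity lemmas on truncated cones
-/

namespace Vale.Agent.Lib.P254

open MeasureTheory Set
open scoped Pointwise

variable {n : ℕ}

/-- On a truncated cone `C ∩ {ρ ≤ 1}` (`ρ` positively homogeneous of degree one) and for `F`
homogeneous of degree `e`: `∫ F ρ^(k+1) = (n+e)/(n+e+k+1) ∫ F`. -/
lemma hom_layer (C : Set (Fin n → ℝ)) (hC : MeasurableSet C)
    (hcone : ∀ c : ℝ, 0 < c → ∀ μ ∈ C, c • μ ∈ C)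
    (ρ : (Fin n → ℝ) → ℝ) (hρc : Continuous ρ) (hρh : ∀ c : ℝ, 0 ≤ c → ∀ μ, ρ (c • μ) = c * ρ μ)
    (hρ0 : ∀ μ ∈ C, 0 ≤ ρ μ)
    (F : (Fin n → ℝ) → ℝ) (e : ℕ) (hFh : ∀ c : ℝ, 0 ≤ c → ∀ μ, F (c • μ) = c ^ e * F μ)
    (hFi : IntegrableOn F (C ∩ {μ | ρ μ ≤ 1})) (k : ℕ) :
    ∫ μ in C ∩ {μ | ρ μ ≤ 1}, F μ * ρ μ ^ (k + 1)
      = (((n : ℝ) + e) / ((n : ℝ) + e + k + 1)) * ∫ μ in C ∩ {μ | ρ μ ≤ 1}, F μ := by
  set X : Set (Fin n → ℝ) := C ∩ {μ | ρ μ ≤ 1} with hXdef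
  have hX : MeasurableSet X := hC.inter (isClosed_le hρc continuous_const).measurableSet
  have h01 : ∀ x ∈ X, 0 ≤ ρ x ∧ ρ x ≤ 1 := fun x hx => ⟨hρ0 x hx.1, hx.2⟩
  have hG : ∀ σ ∈ Ioc (0 : ℝ) 1,
      ∫ x in X ∩ {x | ρ x ≤ σ}, F x = σ ^ (n + e) * ∫ x in X, F x := by
    intro σ hσ
    have hset : X ∩ {x | ρ x ≤ σ} = σ • X := by
      ext μ
      constructor
      · rintro ⟨⟨h1, _⟩, h3⟩
        have h3' : ρ μ ≤ σ := h3
        refine ⟨σ⁻¹ • μ, ⟨hcone _ (inv_pos.mpr hσ.1) μ h1, ?_⟩, ?_⟩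
        · show ρ (σ⁻¹ • μ) ≤ 1
          rw [hρh _ (inv_pos.mpr hσ.1).le, inv_mul_le_iff₀ hσ.1, mul_one]
          exact h3'
        · show σ • σ⁻¹ • μ = μ
          rw [smul_smul, mul_inv_cancel₀ hσ.1.ne', one_smul]
      · rintro ⟨ν, ⟨h1, h2⟩, rfl⟩
        have h2' : ρ ν ≤ 1 := h2
        have h4 : ρ (σ • ν) ≤ σ := by
          rw [hρh _ hσ.1.le]
          calc σ * ρ ν ≤ σ * 1 := mul_le_mul_of_nonneg_left h2' hσ.1.le
            _ = σ := mul_one σ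
        exact ⟨⟨hcone _ hσ.1 ν h1, h4.trans hσ.2⟩, h4⟩
    have h5 := Measure.setIntegral_comp_smul_of_pos (volume : Measure (Fin n → ℝ)) F X hσ.1
    rw [Module.finrank_fin_fun] at h5
    have h6 : ∫ x in X, F (σ • x) = σ ^ e * ∫ x in X, F x := by
      simp only [hFh σ hσ.1.le]
      rw [integral_const_mul]
    rw [h6, smul_eq_mul] at h5
    rw [hset, pow_add]
    have hpos : (σ ^ n) ≠ 0 := (pow_pos hσ.1 n).ne'
    field_simp at h5
    linarith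
  have hc := contr_eq volume X hX F ρ hFi hρc.measurable h01 k (n + e) hG
  have hint : IntegrableOn (fun x => F x * (1 - ρ x ^ (k + 1))) X := by
    refine Integrable.mono' hFi.norm
      (hFi.aestronglyMeasurable.mul (by fun_prop : Continuous fun x => 1 - ρ x ^ (k + 1)).aestronglyMeasurable) ?_
    filter_upwards [ae_restrict_mem hX] with x hx
    obtain ⟨a0, a1⟩ := h01 x hx
    have b0 : 0 ≤ ρ x ^ (k + 1) := pow_nonneg a0 _
    have b1 : ρ x ^ (k + 1) ≤ 1 := pow_le_one₀ a0 a1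
    rw [norm_mul]
    calc ‖F x‖ * ‖1 - ρ x ^ (k + 1)‖ ≤ ‖F x‖ * 1 := by
          apply mul_le_mul_of_nonneg_left _ (norm_nonneg _)
          rw [Real.norm_eq_abs, abs_le]
          constructor <;> linarith
      _ = ‖F x‖ := mul_one _
  have hsplit : ∫ x in X, F x * ρ x ^ (k + 1)
      = (∫ x in X, F x) - ∫ x in X, F x * (1 - ρ x ^ (k + 1)) := by
    rw [← integral_sub hFi hint]
    congr 1
    funext x
    ring
  rw [hsplit, hc]
  have hpos : (0 : ℝ) < (k : ℝ) + 1 + ((n + e : ℕ) : ℝ) := by positivity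
  have hpos' : (0 : ℝ) < (n : ℝ) + e + k + 1 := by positivity
  push_cast at hpos ⊢
  field_simp
  ring

lemma XS_eq (j : Fin n) : XS j = CS j ∩ {μ | tS μ ≤ 1} := by
  ext μ
  simp only [XS, stdS, cell, CS, tS, mem_inter_iff, mem_ofPred_eq]
  constructor
  · rintro ⟨⟨h1, h2⟩, h3⟩
    exact ⟨⟨h1 j, h3⟩, h2⟩
  · rintro ⟨⟨h1, h3⟩, h2⟩
    exact ⟨⟨fun i => h1.trans (h3 i), h2⟩, h3⟩

private lemma cell_isClosed (j : Fin n) : IsClosed (cell j) := by
  have : cell j = ⋂ k, {μ : Fin n → ℝ | μ j ≤ μ k} := by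
    ext μ; simp [cell]
  rw [this]
  exact isClosed_iInter fun k => isClosed_le (continuous_apply j) (continuous_apply k)

lemma XS_isCompact (j : Fin n) : IsCompact (XS j) :=
  stdS_isCompact.inter_right (cell_isClosed j)

private lemma CS_isClosed (j : Fin n) : IsClosed (CS j) := by
  have : CS j = {μ : Fin n → ℝ | 0 ≤ μ j} ∩ cell j := by
    ext μ; simp [CS, cell]
  rw [this]
  exact (isClosed_le continuous_const (continuous_apply j)).inter (cell_isClosed j)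

private lemma CS_cone (j : Fin n) : ∀ c : ℝ, 0 < c → ∀ μ ∈ CS j, c • μ ∈ CS j := by
  rintro c hc μ ⟨h1, h2⟩
  refine ⟨?_, fun k => ?_⟩
  · simp only [Pi.smul_apply, smul_eq_mul]; positivity
  · simp only [Pi.smul_apply, smul_eq_mul]
    exact mul_le_mul_of_nonneg_left (h2 k) hc.le

private lemma CS_nonneg (j : Fin n) {μ : Fin n → ℝ} (h : μ ∈ CS j) : ∀ i, 0 ≤ μ i :=
  fun i => h.1.trans (h.2 i)

private lemma tS_cont : Continuous (tS : (Fin n → ℝ) → ℝ) := by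
  unfold tS; fun_prop

private lemma tS_hom (c : ℝ) (μ : Fin n → ℝ) : tS (c • μ) = c * tS μ := by
  simp [tS, Finset.mul_sum]

private lemma tS_nonneg {μ : Fin n → ℝ} (h : ∀ i, 0 ≤ μ i) : 0 ≤ tS μ :=
  Finset.sum_nonneg fun i _ => h i

/-- The exact layer-cake identity relating integrals over the removed set
`D = XS j ∩ {1 < t + φ}` and integrals against `φ`. -/
lemma LC (j : Fin n) {ε : ℝ} {φ : (Fin n → ℝ) → ℝ} (h : Adm n ε φ)
    (w : (Fin n → ℝ) → ℝ) (hwc : Continuous w) (d : ℕ)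
    (hwh : ∀ c : ℝ, 0 ≤ c → ∀ μ, w (c • μ) = c ^ d * w μ) :
    ∫ μ in XS j, w μ * φ μ
      = ∫ μ in XS j ∩ {μ | 1 < tS μ + φ μ},
          w μ * (tS μ + φ μ - ((n : ℝ) + d) / ((n : ℝ) + d + 1)) := by
  set c : ℝ := ((n : ℝ) + d) / ((n : ℝ) + d + 1) with hc
  set γ : (Fin n → ℝ) → ℝ := fun μ => tS μ + φ μ with hγ
  have hγc : Continuous γ := tS_cont.add h.cont
  have hγh : ∀ a : ℝ, 0 ≤ a → ∀ μ, γ (a • μ) = a * γ μ := by
    intro a ha μ
    simp only [hγ, tS_hom, h.hom a ha μ]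
    ring
  have hγ0 : ∀ μ ∈ CS j, 0 ≤ γ μ := fun μ hμ =>
    add_nonneg (tS_nonneg (CS_nonneg j hμ)) (h.nonneg μ (CS_nonneg j hμ))
  have hXc := XS_isCompact j
  have hXm : MeasurableSet (XS j) := hXc.measurableSet
  -- the set Y
  have hY : CS j ∩ {μ | γ μ ≤ 1} = XS j ∩ {μ | γ μ ≤ 1} := by
    rw [XS_eq]
    ext μ
    simp only [mem_inter_iff, mem_ofPred_eq]
    constructor
    · rintro ⟨h1, h2⟩
      refine ⟨⟨h1, ?_⟩, h2⟩
      have := h.nonneg μ (CS_nonneg j h1)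
      simp only [hγ] at h2
      linarith
    · rintro ⟨⟨h1, _⟩, h2⟩
      exact ⟨h1, h2⟩
  have hYc : IsCompact (XS j ∩ {μ | γ μ ≤ 1}) :=
    hXc.inter_right (isClosed_le hγc continuous_const)
  have hYm : MeasurableSet {μ | γ μ ≤ 1} := (isClosed_le hγc continuous_const).measurableSet
  have hI : ∀ g : (Fin n → ℝ) → ℝ, Continuous g → IntegrableOn g (XS j) :=
    fun g hg => integrableOn_of_continuous hXc hg
  -- first application
  have e1 := hom_layer (CS j) (CS_isClosed j).measurableSet (CS_cone j) tS tS_cont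
    (fun a _ μ => tS_hom a μ) (fun μ hμ => tS_nonneg (CS_nonneg j hμ)) w d hwh
    (by rw [← XS_eq]; exact hI w hwc) 0
  rw [← XS_eq] at e1
  -- second application
  have e2 := hom_layer (CS j) (CS_isClosed j).measurableSet (CS_cone j) γ hγc hγh hγ0 w d hwh
    (by rw [hY]; exact integrableOn_of_continuous hYc hwc) 0
  rw [hY] at e2
  simp only [zero_add, pow_one, Nat.cast_zero, add_zero] at e1 e2
  rw [← hc] at e1 e2
  -- splitting X = Y ∪ D
  have hD : {μ | 1 < tS μ + φ μ} = {μ | γ μ ≤ 1}ᶜ := by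
    ext μ
    simp [hγ]
  have split : ∀ g : (Fin n → ℝ) → ℝ, Continuous g →
      ∫ μ in XS j, g μ = (∫ μ in XS j ∩ {μ | γ μ ≤ 1}, g μ)
        + ∫ μ in XS j ∩ {μ | 1 < tS μ + φ μ}, g μ := by
    intro g hg
    rw [hD, ← Set.sdiff_eq]
    exact (integral_inter_add_sdiff hYm (hI g hg)).symm
  have s1 := split (fun μ => w μ * γ μ) (hwc.mul hγc)
  have s2 := split w hwc
  have hDi : ∀ g : (Fin n → ℝ) → ℝ, Continuous g →
      IntegrableOn g (XS j ∩ {μ | 1 < tS μ + φ μ}) :=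
    fun g hg => (hI g hg).mono_set inter_subset_left
  have l1 : ∫ μ in XS j, w μ * φ μ = (∫ μ in XS j, w μ * γ μ) - ∫ μ in XS j, w μ * tS μ := by
    rw [← integral_sub (hI (fun μ => w μ * γ μ) (hwc.mul hγc))
      (hI (fun μ => w μ * tS μ) (hwc.mul tS_cont))]
    congr 1
    funext μ
    simp only [hγ]
    ring
  have l2 : ∫ μ in XS j ∩ {μ | 1 < tS μ + φ μ}, w μ * (tS μ + φ μ - c)
      = (∫ μ in XS j ∩ {μ | 1 < tS μ + φ μ}, w μ * γ μ)
        - c * ∫ μ in XS j ∩ {μ | 1 < tS μ + φ μ}, w μ := by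
    rw [← integral_const_mul, ← integral_sub (hDi (fun μ => w μ * γ μ) (hwc.mul hγc))
      ((hDi _ hwc).const_mul c)]
    congr 1
    funext μ
    simp only [hγ]
    ring
  rw [l1, l2, s1, e1, e2, s2]
  ring

/-- `∫ t² φ = (n+1)/(n+3) ∫ φ` on `XS j`. -/
lemma HL (j : Fin n) {ε : ℝ} {φ : (Fin n → ℝ) → ℝ} (h : Adm n ε φ) :
    ∫ μ in XS j, tS μ ^ 2 * φ μ = (((n : ℝ) + 1) / ((n : ℝ) + 3)) * ∫ μ in XS j, φ μ := by
  have e1 := hom_layer (CS j) (CS_isClosed j).measurableSet (CS_cone j) tS tS_cont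
    (fun a _ μ => tS_hom a μ) (fun μ hμ => tS_nonneg (CS_nonneg j hμ)) φ 1
    (fun a ha μ => by rw [pow_one]; exact h.hom a ha μ)
    (by rw [← XS_eq]; exact integrableOn_of_continuous (XS_isCompact j) h.cont) 1
  rw [← XS_eq] at e1
  have e3 : ((n : ℝ) + ((1 : ℕ) : ℝ)) / ((n : ℝ) + ((1 : ℕ) : ℝ) + ((1 : ℕ) : ℝ) + 1)
      = ((n : ℝ) + 1) / ((n : ℝ) + 3) := by
    push_cast
    congr 1
    ring
  rw [e3] at e1
  rw [← e1]
  congr 1
  funext μ
  ring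

end Vale.Agent.Lib.P254
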