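import Vale.Agent.Lib.P254.LM.Layer

/-!
# The ridge-level convexity inequality
-/

namespace Vale.Agent.Lib.P254

open MeasureTheory Set

variable {n : ℕ}

/-- the vector `e_k - e_l` -/
noncomputable def ekl (k l : Fin n) : Fin n → ℝ := Pi.single k 1 - Pi.single l 1

lemma ekl_dot (k l : Fin n) (μ : Fin n → ℝ) : ekl k l ⬝ᵥ μ = μ k - μ l := by
  simp [ekl, dotProduct, sub_mul, Finset.sum_sub_distrib, Pi.single_apply]

/-- contraction of the coordinates `k, l` towards their mean with ratio `σ` -/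
noncomputable def Rm (k l : Fin n) (σ : ℝ) (μ : Fin n → ℝ) : Fin n → ℝ :=
  μ + ((((σ - 1) / 2) • ekl k l) ⬝ᵥ μ + 0) • ekl k l

lemma Rm_eq (k l : Fin n) (σ : ℝ) (μ : Fin n → ℝ) :
    Rm k l σ μ = μ + (((σ - 1) / 2) * (μ k - μ l)) • ekl k l := by
  simp [Rm, ekl_dot]

lemma Rm_k {k l : Fin n} (hkl : k ≠ l) (σ : ℝ) (μ : Fin n → ℝ) :
    Rm k l σ μ k = ((1 + σ) / 2) * μ k + ((1 - σ) / 2) * μ l := by
  rw [Rm_eq]
  simp [ekl, hkl]
  ring

lemma Rm_l {k l : Fin n} (hkl : k ≠ l) (σ : ℝ) (μ : Fin n → ℝ) :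
    Rm k l σ μ l = ((1 + σ) / 2) * μ l + ((1 - σ) / 2) * μ k := by
  rw [Rm_eq]
  simp [ekl, hkl.symm]
  ring

lemma Rm_o {k l i : Fin n} (hik : i ≠ k) (hil : i ≠ l) (σ : ℝ) (μ : Fin n → ℝ) :
    Rm k l σ μ i = μ i := by
  rw [Rm_eq]
  simp [ekl, hik, hil]

lemma Rm_sum (k l : Fin n) (σ : ℝ) (μ : Fin n → ℝ) : ∑ i, Rm k l σ μ i = ∑ i, μ i := by
  rw [Rm_eq]
  simp [ekl, Finset.sum_add_distrib, ← Finset.mul_sum, Finset.sum_sub_distrib]

lemma Rm_comp {k l : Fin n} (hkl : k ≠ l) (σ τ : ℝ) (μ : Fin n → ℝ) :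
    Rm k l σ (Rm k l τ μ) = Rm k l (σ * τ) μ := by
  funext i
  by_cases hik : i = k
  · subst hik
    rw [Rm_k hkl, Rm_k hkl, Rm_l hkl, Rm_k hkl]; ring
  · by_cases hil : i = l
    · subst hil
      rw [Rm_l hkl, Rm_k hkl, Rm_l hkl, Rm_l hkl]; ring
    · rw [Rm_o hik hil, Rm_o hik hil, Rm_o hik hil]

lemma Rm_one (k l : Fin n) (μ : Fin n → ℝ) : Rm k l 1 μ = μ := by
  rw [Rm_eq]; simp

lemma Rm_convex {k l : Fin n} (hkl : k ≠ l) (σ : ℝ) (μ : Fin n → ℝ) :
    Rm k l σ μ = ((1 + σ) / 2) • μ + ((1 - σ) / 2) • Rm k l (-1) μ := by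
  funext i
  simp only [Pi.add_apply, Pi.smul_apply, smul_eq_mul]
  by_cases hik : i = k
  · subst hik
    rw [Rm_k hkl, Rm_k hkl]; ring
  · by_cases hil : i = l
    · subst hil
      rw [Rm_l hkl, Rm_l hkl]; ring
    · rw [Rm_o hik hil, Rm_o hik hil]; ring

lemma Rm_mem {j k l : Fin n} (hkl : k ≠ l) (hkj : k ≠ j) (hlj : l ≠ j) {σ : ℝ}
    {μ : Fin n → ℝ} (hμ : μ ∈ XS j) (hσ : |σ| * |μ k - μ l| ≤ μ k + μ l - 2 * μ j) :
    Rm k l σ μ ∈ XS j := by
  obtain ⟨⟨h0, h1⟩, hc⟩ := hμ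
  have hj : Rm k l σ μ j = μ j := Rm_o hkj.symm hlj.symm σ μ
  have habs : |σ * (μ k - μ l)| ≤ μ k + μ l - 2 * μ j := by rw [abs_mul]; exact hσ
  have hb := abs_le.mp habs
  have key : ∀ i, μ j ≤ Rm k l σ μ i := by
    intro i
    by_cases hik : i = k
    · subst hik
      rw [Rm_k hkl]; nlinarith [hb.1, hb.2]
    · by_cases hil : i = l
      · subst hil
        rw [Rm_l hkl]; nlinarith [hb.1, hb.2]
      · rw [Rm_o hik hil]; exact hc i
  refine ⟨⟨fun i => (h0 j).trans (key i), ?_⟩, fun i => ?_⟩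
  · rw [Rm_sum]; exact h1
  · rw [hj]; exact key i

lemma I1_XS_measurableSet (j : Fin n) : MeasurableSet (XS j) := by
  have h1 : IsClosed (cell j) := by
    have : cell j = ⋂ k, {μ : Fin n → ℝ | μ j ≤ μ k} := by
      ext μ; simp [cell]
    rw [this]
    exact isClosed_iInter fun k => isClosed_le (continuous_apply j) (continuous_apply k)
  exact (stdS_isClosed.inter h1).measurableSet

lemma I1_XS_integrable (j : Fin n) {g : (Fin n → ℝ) → ℝ} (hg : Continuous g) :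
    IntegrableOn g (XS j) volume :=
  (stdS_integrable hg).mono_set inter_subset_left

lemma integral_Rm {k l : Fin n} (hkl : k ≠ l) (σ : ℝ) (hσ : σ ≠ 0) {X : Set (Fin n → ℝ)}
    (hX : MeasurableSet X) (g : (Fin n → ℝ) → ℝ) :
    ∫ y in Rm k l σ '' X, g y = |σ| * ∫ x in X, g (Rm k l σ x) := by
  have hdot : 1 + (((σ - 1) / 2) • ekl k l) ⬝ᵥ ekl k l = σ := by
    rw [smul_dotProduct, ekl_dot]
    simp [ekl, hkl, hkl.symm]
    ring
  have h := setIntegral_image_rankOne (ekl k l) (((σ - 1) / 2) • ekl k l) 0 (by rw [hdot]; exact hσ) hX g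
  rw [hdot] at h
  exact h

/-- pair inequality: contraction of the coordinates `k, l` towards their mean -/
lemma I1_pair (j k l : Fin n) (hkl : k ≠ l) (hkj : k ≠ j) (hlj : l ≠ j)
    {ε : ℝ} {φ : (Fin n → ℝ) → ℝ} (h : Adm n ε φ) :
    0 ≤ ∫ μ in XS j, ((μ k - μ l) ^ 2 - (μ k + μ l - 2 * μ j) ^ 2 / 3) * φ μ := by
  have hφc := h.cont
  set m : (Fin n → ℝ) → ℝ := fun μ => μ k + μ l - 2 * μ j with hm
  set F : (Fin n → ℝ) → ℝ := fun μ => m μ ^ 2 * φ μ with hF
  set ρ : (Fin n → ℝ) → ℝ := fun μ => |μ k - μ l| / m μ with hρ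
  have hmc : Continuous m := by simp only [hm]; fun_prop
  have hFc : Continuous F := by simp only [hF]; fun_prop
  have hFi : IntegrableOn F (XS j) volume := I1_XS_integrable j hFc
  have hρm : Measurable ρ := by
    simp only [hρ]
    exact (by fun_prop : Continuous fun μ : Fin n → ℝ => |μ k - μ l|).measurable.div hmc.measurable
  have hle : ∀ μ ∈ XS j, |μ k - μ l| ≤ m μ := by
    intro μ hμ
    have h1 := hμ.2 k
    have h2 := hμ.2 l
    simp only [hm]
    rw [abs_le]; constructor <;> linarith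
  have hm0 : ∀ μ ∈ XS j, 0 ≤ m μ := fun μ hμ => (abs_nonneg _).trans (hle μ hμ)
  have h01 : ∀ μ ∈ XS j, 0 ≤ ρ μ ∧ ρ μ ≤ 1 := by
    intro μ hμ
    exact ⟨div_nonneg (abs_nonneg _) (hm0 μ hμ), div_le_one_of_le₀ (hle μ hμ) (hm0 μ hμ)⟩
  have hmR : ∀ σ μ, m (Rm k l σ μ) = m μ := by
    intro σ μ
    simp only [hm]
    rw [Rm_k hkl, Rm_l hkl, Rm_o hkj.symm hlj.symm]; ring
  have hdR : ∀ σ μ, Rm k l σ μ k - Rm k l σ μ l = σ * (μ k - μ l) := by
    intro σ μ
    rw [Rm_k hkl, Rm_l hkl]; ring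
  -- the swap
  have hswapimg : Rm k l (-1) '' XS j = XS j := by
    ext μ
    constructor
    · rintro ⟨ν, hν, rfl⟩
      exact Rm_mem hkl hkj hlj hν (by simpa using hle ν hν)
    · intro hμ
      refine ⟨Rm k l (-1) μ, Rm_mem hkl hkj hlj hμ (by simpa using hle μ hμ), ?_⟩
      rw [Rm_comp hkl]; norm_num; exact Rm_one k l μ
  have hswap : ∫ μ in XS j, m μ ^ 2 * φ (Rm k l (-1) μ) = ∫ μ in XS j, F μ := by
    have h1 := integral_Rm hkl (-1) (by norm_num) (I1_XS_measurableSet j) F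
    rw [hswapimg] at h1
    rw [h1]
    simp only [hF, hmR]
    norm_num
  have hRc : ∀ σ, Continuous (Rm k l σ) := by
    intro σ
    have : Rm k l σ = fun μ => μ + (((σ - 1) / 2) * (μ k - μ l)) • ekl k l := by
      funext μ; exact Rm_eq k l σ μ
    rw [this]; fun_prop
  -- the image
  have himg : ∀ σ ∈ Ioc (0 : ℝ) 1, XS j ∩ {μ | ρ μ ≤ σ} = Rm k l σ '' XS j := by
    intro σ hσ
    ext μ
    constructor
    · rintro ⟨hμ, hρμ⟩
      simp only [mem_ofPred_eq, hρ] at hρμ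
      have hb : |μ k - μ l| ≤ σ * m μ := by
        rcases (hm0 μ hμ).eq_or_lt with h0 | h0
        · have := hle μ hμ
          rw [← h0] at this ⊢
          simpa using this
        · exact (div_le_iff₀ h0).mp hρμ
      refine ⟨Rm k l σ⁻¹ μ, Rm_mem hkl hkj hlj hμ ?_, ?_⟩
      · rw [abs_of_pos (inv_pos.mpr hσ.1), inv_mul_le_iff₀ hσ.1]
        exact hb
      · rw [Rm_comp hkl, mul_inv_cancel₀ hσ.1.ne']; exact Rm_one k l μ
    · rintro ⟨ν, hν, rfl⟩
      have h1 : |σ| * |ν k - ν l| ≤ ν k + ν l - 2 * ν j := by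
        rw [abs_of_pos hσ.1]
        have := hle ν hν
        have h2 : σ * |ν k - ν l| ≤ 1 * |ν k - ν l| :=
          mul_le_mul_of_nonneg_right hσ.2 (abs_nonneg _)
        simp only [hm] at this
        linarith
      refine ⟨Rm_mem hkl hkj hlj hν h1, ?_⟩
      simp only [mem_ofPred_eq, hρ]
      rw [hmR, hdR, abs_mul, abs_of_pos hσ.1, mul_div_assoc]
      have := (h01 ν hν).2
      simp only [hρ] at this
      nlinarith [hσ.1, (h01 ν hν).1]
  have hG : ∀ σ ∈ Ioc (0 : ℝ) 1, ∫ μ in XS j ∩ {μ | ρ μ ≤ σ}, F μ ≤ σ ^ 1 * ∫ μ in XS j, F μ := by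
    intro σ hσ
    rw [himg σ hσ, integral_Rm hkl σ hσ.1.ne' (I1_XS_measurableSet j), abs_of_pos hσ.1, pow_one]
    refine mul_le_mul_of_nonneg_left ?_ hσ.1.le
    have hpt : ∀ μ, F (Rm k l σ μ) ≤ ((1 + σ) / 2) * F μ + ((1 - σ) / 2) * (m μ ^ 2 * φ (Rm k l (-1) μ)) := by
      intro μ
      have hcv := h.conv.2 (mem_univ μ) (mem_univ (Rm k l (-1) μ))
        (by linarith [hσ.1] : (0 : ℝ) ≤ (1 + σ) / 2) (by linarith [hσ.2] : (0 : ℝ) ≤ (1 - σ) / 2) (by ring)
      rw [← Rm_convex hkl] at hcv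
      simp only [smul_eq_mul] at hcv
      simp only [hF, hmR]
      nlinarith [sq_nonneg (m μ)]
    have hG2c : Continuous fun μ => m μ ^ 2 * φ (Rm k l (-1) μ) := by
      have := hRc (-1); fun_prop
    have hi1 : IntegrableOn (fun μ => ((1 + σ) / 2) * F μ) (XS j) volume :=
      I1_XS_integrable j (by fun_prop)
    have hi2 : IntegrableOn (fun μ => ((1 - σ) / 2) * (m μ ^ 2 * φ (Rm k l (-1) μ))) (XS j) volume :=
      I1_XS_integrable j (by fun_prop)
    calc ∫ μ in XS j, F (Rm k l σ μ)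
        ≤ ∫ μ in XS j, (((1 + σ) / 2) * F μ + ((1 - σ) / 2) * (m μ ^ 2 * φ (Rm k l (-1) μ))) :=
          setIntegral_mono_on (I1_XS_integrable j (hFc.comp (hRc σ))) (hi1.add hi2) (I1_XS_measurableSet j)
            (fun μ _ => hpt μ)
      _ = ((1 + σ) / 2) * (∫ μ in XS j, F μ)
            + ((1 - σ) / 2) * ∫ μ in XS j, m μ ^ 2 * φ (Rm k l (-1) μ) := by
          rw [integral_add hi1 hi2, integral_const_mul, integral_const_mul]
      _ = ∫ μ in XS j, F μ := by rw [hswap]; ring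
  have hmain := contr_le volume (XS j) (I1_XS_measurableSet j) F ρ hFi hρm h01 1 1 hG
  have hpt2 : ∀ μ ∈ XS j, F μ * (1 - ρ μ ^ (1 + 1)) = F μ - (μ k - μ l) ^ 2 * φ μ := by
    intro μ hμ
    simp only [hF, hρ]
    rcases (hm0 μ hμ).eq_or_lt with h0 | h0
    · have h1 := hle μ hμ
      rw [← h0] at h1
      have h2 : μ k - μ l = 0 := abs_eq_zero.mp (le_antisymm h1 (abs_nonneg _))
      rw [← h0, h2]; simp
    · have : m μ ≠ 0 := h0.ne'
      rw [div_pow, sq_abs]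
      field_simp
      ring
  rw [setIntegral_congr_fun (I1_XS_measurableSet j) hpt2, integral_sub hFi
    (I1_XS_integrable j (by fun_prop))] at hmain
  have hfin : ∫ μ in XS j, ((μ k - μ l) ^ 2 - (μ k + μ l - 2 * μ j) ^ 2 / 3) * φ μ
      = (∫ μ in XS j, (μ k - μ l) ^ 2 * φ μ) - (1 / 3) * ∫ μ in XS j, F μ := by
    rw [← integral_const_mul, ← integral_sub (I1_XS_integrable j (by fun_prop))
      (I1_XS_integrable j (by fun_prop))]
    refine integral_congr_ae (Filter.Eventually.of_forall fun μ => ?_)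
    simp only [hF, hm]; ring
  rw [hfin]
  norm_num at hmain
  linarith

/-- the finite-sum identity behind `I1` -/
lemma I1_sum_aux (j : Fin n) (a : Fin n → ℝ) (haj : a j = 0) :
    ∑ k, ∑ l, (if k ≠ l ∧ k ≠ j ∧ l ≠ j then (a k - a l) ^ 2 - (a k + a l) ^ 2 / 3 else 0)
      = 4 / 3 * ((n : ℝ) * (∑ k, a k ^ 2) - 2 * (∑ k, a k) ^ 2) := by
  have h1 : ∀ k l : Fin n,
      (if k ≠ l ∧ k ≠ j ∧ l ≠ j then (a k - a l) ^ 2 - (a k + a l) ^ 2 / 3 else 0)
        = (2 / 3 * a k ^ 2 + 2 / 3 * a l ^ 2 - 8 / 3 * (a k * a l))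
          + (if k = l then 4 / 3 * a k ^ 2 else 0)
          - (if k = j then 2 / 3 * a l ^ 2 else 0)
          - (if l = j then 2 / 3 * a k ^ 2 else 0) := by
    intro k l
    by_cases hkl : k = l
    · subst hkl
      by_cases hkj : k = j
      · subst hkj
        simp [haj]
      · simp [hkj]
        ring
    · by_cases hkj : k = j
      · subst hkj
        have hlk : ¬ l = k := fun h => hkl h.symm
        simp [haj, hlk, hkl]
      · by_cases hlj : l = j
        · subst hlj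
          simp [haj, hkl]
        · simp [hkl, hkj, hlj]
          ring
  simp_rw [h1]
  simp only [Finset.sum_sub_distrib, Finset.sum_add_distrib, Finset.sum_const, Finset.card_univ,
    Fintype.card_fin, Finset.sum_ite_eq, Finset.sum_ite_eq', Finset.mem_univ, if_true,
    ← Finset.mul_sum, ← Finset.sum_mul, nsmul_eq_mul]
  have h2 : ∑ x : Fin n, ∑ x_1 : Fin n, (if x = j then 2 / 3 * a x_1 ^ 2 else 0)
      = 2 / 3 * ∑ i, a i ^ 2 := by
    rw [Finset.sum_comm]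
    simp only [Finset.sum_ite_eq', Finset.mem_univ, if_true, ← Finset.mul_sum]
  rw [h2]
  ring

/-- sum of the pair inequalities -/
lemma I1 (j : Fin n) {ε : ℝ} {φ : (Fin n → ℝ) → ℝ} (h : Adm n ε φ) :
    0 ≤ ∫ μ in XS j, ((n : ℝ) * (∑ k, (μ k - μ j) ^ 2) - 2 * (tS μ - n * μ j) ^ 2) * φ μ := by
  have hcomp : IsCompact (XS j) := by
    refine stdS_isCompact.inter_right ?_
    have : cell j = ⋂ k, {μ : Fin n → ℝ | μ j ≤ μ k} := by
      ext μ; simp [cell]
    rw [this]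
    exact isClosed_iInter fun k => isClosed_le (continuous_apply j) (continuous_apply k)
  have hφ := h.cont
  set G : Fin n → Fin n → (Fin n → ℝ) → ℝ := fun k l μ =>
    (if k ≠ l ∧ k ≠ j ∧ l ≠ j then (μ k - μ l) ^ 2 - (μ k + μ l - 2 * μ j) ^ 2 / 3 else 0) * φ μ
    with hG
  have hGint : ∀ k l, IntegrableOn (G k l) (XS j) volume := by
    intro k l
    have hc : Continuous (G k l) := by
      simp only [hG]
      by_cases hP : k ≠ l ∧ k ≠ j ∧ l ≠ j
      · simp only [if_pos hP]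
        fun_prop
      · simp only [if_neg hP]
        fun_prop
    exact hc.continuousOn.integrableOn_compact hcomp
  have hGnn : ∀ k l, 0 ≤ ∫ μ in XS j, G k l μ := by
    intro k l
    simp only [hG]
    by_cases hP : k ≠ l ∧ k ≠ j ∧ l ≠ j
    · simp only [if_pos hP]
      exact I1_pair j k l hP.1 hP.2.1 hP.2.2 h
    · simp only [if_neg hP, zero_mul, integral_zero, le_refl]
  have hpt : ∀ μ : Fin n → ℝ,
      ((n : ℝ) * (∑ k, (μ k - μ j) ^ 2) - 2 * (tS μ - n * μ j) ^ 2) * φ μ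
        = 3 / 4 * ∑ k, ∑ l, G k l μ := by
    intro μ
    have h1 := I1_sum_aux j (fun k => μ k - μ j) (by simp)
    have h2 : ∑ k, (μ k - μ j) = tS μ - n * μ j := by
      simp [tS, Finset.sum_sub_distrib]
    simp only [h2] at h1
    simp only [hG, ← Finset.sum_mul]
    have h3 : ∀ k l : Fin n, (μ k - μ l) ^ 2 - (μ k + μ l - 2 * μ j) ^ 2 / 3
        = (μ k - μ j - (μ l - μ j)) ^ 2 - (μ k - μ j + (μ l - μ j)) ^ 2 / 3 := by
      intro k l; ring
    simp only [h3, h1]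
    ring
  simp only [hpt]
  rw [integral_const_mul, integral_finsetSum _ (fun k _ => integrable_finsetSum _ (fun l _ => hGint k l))]
  refine mul_nonneg (by norm_num) (Finset.sum_nonneg fun k _ => ?_)
  rw [integral_finsetSum _ (fun l _ => hGint k l)]
  exact Finset.sum_nonneg fun l _ => hGnn k l

end Vale.Agent.Lib.P254
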