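import Vale.Agent.Lib.P254.LM.Layer

/-!
# Contraction towards the diagonal
-/

namespace Vale.Agent.Lib.P254

open MeasureTheory Set

variable {n : ℕ}

private lemma XS_compact' (j : Fin n) : IsCompact (XS j) := by
  have hc : IsClosed (cell j) := by
    have : cell j = ⋂ k, {μ : Fin n → ℝ | μ j ≤ μ k} := by
      ext μ; simp [cell]
    rw [this]
    exact isClosed_iInter fun k => isClosed_le (continuous_apply j) (continuous_apply k)
  exact stdS_isCompact.inter_right hc

private lemma tS_cont : Continuous (tS : (Fin n → ℝ) → ℝ) := by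
  unfold tS
  fun_prop

/-- contraction towards the diagonal -/
private noncomputable def Sb (β : ℝ) (μ : Fin n → ℝ) : Fin n → ℝ :=
  fun i => β * μ i + (1 - β) * (tS μ / n)

private noncomputable def Mb (n : ℕ) (β : ℝ) : Matrix (Fin n) (Fin n) ℝ :=
  β • (1 + Matrix.vecMulVec (fun _ => (1 : ℝ)) (fun _ => (1 - β) / (β * n)))

private lemma Mb_det (hn : 1 ≤ n) {β : ℝ} (hβ : 0 < β) : (Mb n β).det = β ^ n / β := by
  have hn' : (n : ℝ) ≠ 0 := by positivity
  unfold Mb
  rw [Matrix.det_smul, Matrix.vecMulVec_eq (ι := Unit),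
    Matrix.det_one_add_replicateCol_mul_replicateRow]
  simp only [Fintype.card_fin, dotProduct, mul_one, Finset.sum_const, Finset.card_univ,
    nsmul_eq_mul]
  field_simp
  ring

private lemma Mb_apply {β : ℝ} (hβ : 0 < β) (μ : Fin n → ℝ) :
    (Mb n β).mulVec μ + 0 = Sb β μ := by
  funext i
  unfold Mb Sb tS
  rw [Matrix.smul_mulVec, Matrix.add_mulVec, Matrix.one_mulVec, Matrix.vecMulVec_mulVec]
  simp only [Pi.zero_apply, add_zero, Pi.smul_apply, Pi.add_apply, dotProduct, smul_eq_mul,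
    MulOpposite.smul_eq_mul_unop, MulOpposite.unop_op, one_mul, ← Finset.mul_sum]
  by_cases hn : (n : ℝ) = 0
  · simp [hn]
  · field_simp

private lemma tS_Sb (hn : 1 ≤ n) (β : ℝ) (μ : Fin n → ℝ) : tS (Sb β μ) = tS μ := by
  have hn' : (n : ℝ) ≠ 0 := by positivity
  unfold Sb
  simp only [tS, Finset.sum_add_distrib, ← Finset.mul_sum, Finset.sum_const, Finset.card_univ,
    Fintype.card_fin, nsmul_eq_mul]
  field_simp
  ring

private noncomputable def rho (j : Fin n) (μ : Fin n → ℝ) : ℝ := (tS μ - n * μ j) / tS μ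

private lemma n_mul_le (j : Fin n) {μ : Fin n → ℝ} (h : μ ∈ cell j) : n * μ j ≤ tS μ := by
  have : ∑ _k : Fin n, μ j ≤ ∑ k, μ k := Finset.sum_le_sum fun k _ => h k
  simpa [tS] using this

private lemma tS_nonneg' {μ : Fin n → ℝ} (h : μ ∈ stdS n) : 0 ≤ tS μ :=
  Finset.sum_nonneg fun i _ => h.1 i

private lemma image_Sb (hn : 1 ≤ n) (j : Fin n) {β : ℝ} (hβ : 0 < β) (hβ1 : β ≤ 1) :
    (fun μ => (Mb n β).mulVec μ + 0) '' XS j = XS j ∩ {μ | rho j μ ≤ β} := by
  have hn' : (0 : ℝ) < n := by positivity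
  simp only [Mb_apply hβ]
  ext ν
  constructor
  · rintro ⟨μ, ⟨hμS, hμc⟩, rfl⟩
    have ht := tS_nonneg' hμS
    have hnj := n_mul_le j hμc
    refine ⟨⟨⟨fun i => ?_, ?_⟩, fun k => ?_⟩, ?_⟩
    · have := hμS.1 i
      unfold Sb
      have h1 : 0 ≤ (1 - β) * (tS μ / n) := mul_nonneg (by linarith) (by positivity)
      have h2 : 0 ≤ β * μ i := mul_nonneg hβ.le this
      linarith
    · have := tS_Sb hn β μ
      unfold tS at this
      rw [this]
      exact hμS.2
    · unfold Sb
      have := mul_le_mul_of_nonneg_left (hμc k) hβ.le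
      linarith
    · show rho j (Sb β μ) ≤ β
      unfold rho
      rw [tS_Sb hn]
      rcases ht.eq_or_lt with h0 | h0
      · rw [← h0]; simp [hβ.le]
      · rw [div_le_iff₀ h0]
        unfold Sb
        have hj := hμS.1 j
        have e : (n : ℝ) * (β * μ j + (1 - β) * (tS μ / n)) = β * (n * μ j) + (1 - β) * tS μ := by
          field_simp
        rw [e]
        have h3 : 0 ≤ β * (n * μ j) := by positivity
        linarith
  · rintro ⟨⟨hνS, hνc⟩, hρ⟩
    have ht := tS_nonneg' hνS
    have hρ' : tS ν - n * ν j ≤ β * tS ν := by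
      rcases ht.eq_or_lt with h0 | h0
      · have hj := hνS.1 j
        rw [← h0]
        nlinarith
      · have : rho j ν ≤ β := hρ
        unfold rho at this
        rwa [div_le_iff₀ h0] at this
    set μ : Fin n → ℝ := fun i => (ν i - (1 - β) * (tS ν / n)) / β with hμ
    have htμ : tS μ = tS ν := by
      simp only [hμ, tS, ← Finset.sum_div, Finset.sum_sub_distrib, Finset.sum_const,
        Finset.card_univ, Fintype.card_fin, nsmul_eq_mul]
      field_simp
      ring
    have hjk : ∀ k, μ j ≤ μ k := by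
      intro k
      simp only [hμ]
      have := hνc k
      gcongr
    have hj0 : 0 ≤ μ j := by
      simp only [hμ]
      apply div_nonneg _ hβ.le
      have e : (1 - β) * (tS ν / n) = ((1 - β) * tS ν) / n := by ring
      rw [e, sub_nonneg, div_le_iff₀ hn']
      linarith
    refine ⟨μ, ⟨⟨fun i => le_trans hj0 (hjk i), ?_⟩, hjk⟩, ?_⟩
    · have := hνS.2
      unfold tS at htμ
      rw [htμ]; exact this
    · funext i
      show β * μ i + (1 - β) * (tS μ / n) = ν i
      rw [htμ]
      simp only [hμ]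
      field_simp
      ring

private lemma phi_Sb_le {ε : ℝ} {φ : (Fin n → ℝ) → ℝ} (h : Adm n ε φ) {β : ℝ} (hβ : 0 < β)
    (hβ1 : β ≤ 1) {μ : Fin n → ℝ} (ht : 0 ≤ tS μ) : φ (Sb β μ) ≤ β * φ μ := by
  have e : Sb β μ = β • μ + (1 - β) • ((tS μ / n) • (fun _ => (1 : ℝ))) := by
    funext i
    simp [Sb]
  have h1 := h.conv.2 (mem_univ μ) (mem_univ ((tS μ / n) • (fun _ : Fin n => (1 : ℝ)))) hβ.le
    (by linarith : 0 ≤ 1 - β) (by ring)
  rw [← e, h.hom _ (by positivity)] at h1
  simp only [smul_eq_mul] at h1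
  have h2 : (1 - β) * (tS μ / n * φ fun _ => 1) ≤ 0 := by
    apply mul_nonpos_of_nonneg_of_nonpos (by linarith)
    exact mul_nonpos_of_nonneg_of_nonpos (by positivity) h.diag
  linarith

lemma I2 (hn : 1 ≤ n) (j : Fin n) {ε : ℝ} {φ : (Fin n → ℝ) → ℝ} (h : Adm n ε φ) :
    ((n : ℝ) / ((n : ℝ) + 2)) * ∫ μ in XS j, tS μ ^ 2 * φ μ
      ≤ ∫ μ in XS j, (tS μ - n * μ j) ^ 2 * φ μ := by
  have hn' : (0 : ℝ) < n := by positivity
  have hXc := XS_compact' j
  have hXm : MeasurableSet (XS j) := hXc.measurableSet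
  set F : (Fin n → ℝ) → ℝ := fun μ => tS μ ^ 2 * φ μ with hF
  have hFc : Continuous F := (tS_cont.pow 2).mul h.cont
  have hFi : IntegrableOn F (XS j) volume := hFc.continuousOn.integrableOn_compact hXc
  have hρm : Measurable (rho j) := by
    unfold rho
    exact ((tS_cont.measurable).sub (measurable_const.mul (measurable_pi_apply j))).div
      tS_cont.measurable
  have h01 : ∀ μ ∈ XS j, 0 ≤ rho j μ ∧ rho j μ ≤ 1 := by
    rintro μ ⟨hS, hc⟩
    have ht := tS_nonneg' hS
    have hnj := n_mul_le j hc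
    have hj := hS.1 j
    constructor
    · exact div_nonneg (by linarith) ht
    · apply div_le_one_of_le₀ _ ht
      nlinarith
  have hG : ∀ σ ∈ Ioc (0 : ℝ) 1, ∫ x in XS j ∩ {x | rho j x ≤ σ}, F x ≤ σ ^ n * ∫ x in XS j, F x := by
    rintro σ ⟨hσ0, hσ1⟩
    rw [← image_Sb hn j hσ0 hσ1,
      setIntegral_image_affine (Mb n σ) 0 (by rw [Mb_det hn hσ0]; positivity) hXm F,
      Mb_det hn hσ0]
    simp only [Mb_apply hσ0]
    have hSc : Continuous (fun μ : Fin n → ℝ => Sb σ μ) := by
      unfold Sb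
      have := tS_cont (n := n)
      fun_prop
    have hle : ∫ x in XS j, F (Sb σ x) ≤ ∫ x in XS j, σ * F x := by
      apply setIntegral_mono_on ((hFc.comp hSc).continuousOn.integrableOn_compact hXc)
        (hFi.const_mul σ) hXm
      rintro μ ⟨hS, -⟩
      have ht := tS_nonneg' hS
      show tS (Sb σ μ) ^ 2 * φ (Sb σ μ) ≤ σ * (tS μ ^ 2 * φ μ)
      rw [tS_Sb hn]
      have := phi_Sb_le h hσ0 hσ1 ht
      have h2 : 0 ≤ tS μ ^ 2 := by positivity
      nlinarith
    rw [integral_const_mul] at hle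
    have hpos : 0 < σ ^ n / σ := by positivity
    rw [abs_of_pos hpos]
    calc σ ^ n / σ * ∫ x in XS j, F (Sb σ x) ≤ σ ^ n / σ * (σ * ∫ x in XS j, F x) :=
          mul_le_mul_of_nonneg_left hle hpos.le
      _ = σ ^ n * ∫ x in XS j, F x := by field_simp
  have key := contr_le volume (XS j) hXm F (rho j) hFi hρm h01 1 n hG
  have e1 : ∫ x in XS j, F x * (1 - rho j x ^ (1 + 1))
      = (∫ x in XS j, F x) - ∫ μ in XS j, (tS μ - n * μ j) ^ 2 * φ μ := by
    rw [← integral_sub hFi]
    · apply setIntegral_congr_fun hXm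
      rintro μ ⟨hS, hc⟩
      have ht := tS_nonneg' hS
      simp only [hF, rho]
      rcases ht.eq_or_lt with h0 | h0
      · have hj := hS.1 j
        have hnj := n_mul_le j hc
        have : (n : ℝ) * μ j = 0 := by
          apply le_antisymm
          · linarith
          · positivity
        rw [← h0, this]; simp
      · have ht' : tS μ ≠ 0 := h0.ne'
        have e4 : tS μ ^ 2 * ((tS μ - n * μ j) / tS μ) ^ (1 + 1) = (tS μ - n * μ j) ^ 2 := by
          rw [div_pow]
          norm_num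
          field_simp
        linear_combination (-φ μ) * e4
    · have : Continuous fun μ : Fin n → ℝ => (tS μ - n * μ j) ^ 2 * φ μ :=
        ((tS_cont.sub (continuous_const.mul (continuous_apply j))).pow 2).mul h.cont
      exact this.continuousOn.integrableOn_compact hXc
  rw [e1] at key
  have e2 : (((1 : ℕ) : ℝ) + 1) / (((1 : ℕ) : ℝ) + 1 + n) = 2 / ((n : ℝ) + 2) := by
    push_cast; ring_nf
  rw [e2] at key
  have e3 : (n : ℝ) / ((n : ℝ) + 2) = 1 - 2 / ((n : ℝ) + 2) := by
    field_simp; ring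
  rw [e3]
  linarith

end Vale.Agent.Lib.P254
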