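import Vale.Agent.Lib.P254.LM.Basic

/-!
# Layer-cake lemma and the contraction principle
-/

namespace Vale.Agent.Lib.P254

open MeasureTheory Set

/-- the one dimensional computation -/
lemma layer_aux (r : ℝ) (h0 : 0 ≤ r) (h1 : r ≤ 1) (k : ℕ) :
    ∫ σ in Ioc (0 : ℝ) 1, ({σ : ℝ | r ≤ σ}).indicator (fun σ => ((k : ℝ) + 1) * σ ^ k) σ
      = 1 - r ^ (k + 1) := by
  have hm : MeasurableSet {σ : ℝ | r ≤ σ} := measurableSet_le measurable_const measurable_id
  rw [setIntegral_indicator hm]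
  have hae : ((Ioc (0 : ℝ) 1 ∩ {σ : ℝ | r ≤ σ} : Set ℝ)) =ᵐ[volume] (Ioc r 1 : Set ℝ) := by
    have hsub : Ioc r 1 ⊆ Ioc (0 : ℝ) 1 ∩ {σ : ℝ | r ≤ σ} := by
      intro σ hσ
      exact ⟨⟨lt_of_le_of_lt h0 hσ.1, hσ.2⟩, hσ.1.le⟩
    have hdiff : (Ioc (0 : ℝ) 1 ∩ {σ : ℝ | r ≤ σ}) \ Ioc r 1 ⊆ {r} := by
      intro σ hσ
      obtain ⟨⟨h2, h3⟩, h4⟩ := hσ
      simp only [mem_ofPred_eq] at h3
      by_contra hne
      exact h4 ⟨lt_of_le_of_ne h3 (fun h => hne h.symm), h2.2⟩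
    have hz : volume ((Ioc (0 : ℝ) 1 ∩ {σ : ℝ | r ≤ σ}) \ Ioc r 1) = 0 :=
      measure_mono_null hdiff (by simp)
    exact (ae_eq_set.mpr ⟨hz, by rw [sdiff_eq_empty.mpr hsub]; simp⟩)
  rw [setIntegral_congr_set hae, ← intervalIntegral.integral_of_le h1,
    intervalIntegral.integral_const_mul, integral_pow]
  have : ((k : ℝ) + 1) ≠ 0 := by positivity
  field_simp
  simp

/-- Layer cake: `1 - ρ^(k+1) = ∫_0^1 (k+1) σ^k 1[ρ ≤ σ] dσ` integrated against `F`. -/
lemma layer_pow {E : Type*} [MeasurableSpace E] (ν : Measure E) [SFinite ν]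
    (X : Set E) (hX : MeasurableSet X) (F ρ : E → ℝ) (hF : IntegrableOn F X ν)
    (hρ : Measurable ρ) (h01 : ∀ x ∈ X, 0 ≤ ρ x ∧ ρ x ≤ 1) (k : ℕ) :
    ∫ x in X, F x * (1 - ρ x ^ (k + 1)) ∂ν
      = ∫ σ in Ioc (0 : ℝ) 1, (((k : ℝ) + 1) * σ ^ k) * (∫ x in X ∩ {x | ρ x ≤ σ}, F x ∂ν) := by
  set c : ℝ → ℝ := fun σ => ((k : ℝ) + 1) * σ ^ k with hc
  -- the function on the product
  set S : Set (E × ℝ) := {p | ρ p.1 ≤ p.2} with hS
  have hSm : MeasurableSet S := measurableSet_le (hρ.comp measurable_fst) measurable_snd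
  have hci : IntegrableOn c (Ioc (0 : ℝ) 1) volume := by
    have : Continuous c := by simp only [hc]; fun_prop
    exact (this.continuousOn.integrableOn_compact isCompact_Icc).mono_set Ioc_subset_Icc_self
  have hint : Integrable (Function.uncurry fun (x : E) (σ : ℝ) => S.indicator (fun p => F p.1 * c p.2) (x, σ))
      ((ν.restrict X).prod (volume.restrict (Ioc (0 : ℝ) 1))) := by
    have h1 : Integrable (fun p : E × ℝ => F p.1 * c p.2)
        ((ν.restrict X).prod (volume.restrict (Ioc (0 : ℝ) 1))) := Integrable.mul_prod hF hci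
    exact h1.indicator hSm
  have hswap := integral_integral_swap hint
  have hL : ∀ x ∈ X, ∫ σ in Ioc (0 : ℝ) 1, S.indicator (fun p => F p.1 * c p.2) (x, σ)
      = F x * (1 - ρ x ^ (k + 1)) := by
    intro x hx
    rw [← layer_aux (ρ x) (h01 x hx).1 (h01 x hx).2 k, ← integral_const_mul]
    refine integral_congr_ae (Filter.Eventually.of_forall fun σ => ?_)
    by_cases hσ : ρ x ≤ σ
    · have h1 : (x, σ) ∈ S := hσ
      have h2 : σ ∈ {σ : ℝ | ρ x ≤ σ} := hσ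
      simp only [indicator_of_mem h1, indicator_of_mem h2, hc]
    · have h1 : (x, σ) ∉ S := hσ
      have h2 : σ ∉ {σ : ℝ | ρ x ≤ σ} := hσ
      simp only [indicator_of_notMem h1, indicator_of_notMem h2, mul_zero]
  have hR : ∀ σ : ℝ, ∫ x in X, S.indicator (fun p => F p.1 * c p.2) (x, σ) ∂ν
      = c σ * ∫ x in X ∩ {x | ρ x ≤ σ}, F x ∂ν := by
    intro σ
    rw [← setIntegral_indicator (measurableSet_le hρ measurable_const), ← integral_const_mul]
    refine integral_congr_ae (Filter.Eventually.of_forall fun x => ?_)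
    by_cases hσ : ρ x ≤ σ
    · have h1 : (x, σ) ∈ S := hσ
      have h2 : x ∈ {x : E | ρ x ≤ σ} := hσ
      simp only [indicator_of_mem h1, indicator_of_mem h2]
      ring
    · have h1 : (x, σ) ∉ S := hσ
      have h2 : x ∉ {x : E | ρ x ≤ σ} := hσ
      simp only [indicator_of_notMem h1, indicator_of_notMem h2, mul_zero]
  rw [← setIntegral_congr_fun hX hL, hswap]
  exact integral_congr_ae (Filter.Eventually.of_forall fun σ => hR σ)

/-- integrability of the layer function -/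
lemma layer_integrable {E : Type*} [MeasurableSpace E] (ν : Measure E) [SFinite ν]
    (X : Set E) (F ρ : E → ℝ) (hF : IntegrableOn F X ν)
    (hρ : Measurable ρ) (k : ℕ) :
    IntegrableOn (fun σ : ℝ => (((k : ℝ) + 1) * σ ^ k) * (∫ x in X ∩ {x | ρ x ≤ σ}, F x ∂ν))
      (Ioc (0 : ℝ) 1) volume := by
  set c : ℝ → ℝ := fun σ => ((k : ℝ) + 1) * σ ^ k with hc
  set S : Set (E × ℝ) := {p | ρ p.1 ≤ p.2} with hS
  have hSm : MeasurableSet S := measurableSet_le (hρ.comp measurable_fst) measurable_snd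
  have hci : IntegrableOn c (Ioc (0 : ℝ) 1) volume := by
    have : Continuous c := by simp only [hc]; fun_prop
    exact (this.continuousOn.integrableOn_compact isCompact_Icc).mono_set Ioc_subset_Icc_self
  have hint : Integrable (S.indicator (fun p : E × ℝ => F p.1 * c p.2))
      ((ν.restrict X).prod (volume.restrict (Ioc (0 : ℝ) 1))) :=
    (Integrable.mul_prod hF hci).indicator hSm
  have h2 := hint.integral_prod_right
  refine h2.congr (Filter.Eventually.of_forall fun σ => ?_)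
  show ∫ x in X, S.indicator (fun p => F p.1 * c p.2) (x, σ) ∂ν
    = (((k : ℝ) + 1) * σ ^ k) * (∫ x in X ∩ {x | ρ x ≤ σ}, F x ∂ν)
  rw [← setIntegral_indicator (measurableSet_le hρ measurable_const), ← integral_const_mul]
  refine integral_congr_ae (Filter.Eventually.of_forall fun x => ?_)
  by_cases hσ : ρ x ≤ σ
  · have h1 : (x, σ) ∈ S := hσ
    have h2 : x ∈ {x : E | ρ x ≤ σ} := hσ
    simp only [indicator_of_mem h1, indicator_of_mem h2, hc]
    ring
  · have h1 : (x, σ) ∉ S := hσ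
    have h2 : x ∉ {x : E | ρ x ≤ σ} := hσ
    simp only [indicator_of_notMem h1, indicator_of_notMem h2, mul_zero]

lemma integral_pow_Ioc (k a : ℕ) (I : ℝ) :
    ∫ σ in Ioc (0 : ℝ) 1, (((k : ℝ) + 1) * σ ^ k) * (σ ^ a * I)
      = (((k : ℝ) + 1) / ((k : ℝ) + 1 + a)) * I := by
  have h : ∀ σ : ℝ, (((k : ℝ) + 1) * σ ^ k) * (σ ^ a * I) = (((k : ℝ) + 1) * I) * σ ^ (k + a) := by
    intro σ; rw [pow_add]; ring
  simp_rw [h]
  rw [← intervalIntegral.integral_of_le zero_le_one, intervalIntegral.integral_const_mul, integral_pow]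
  have : ((k : ℝ) + 1 + a) ≠ 0 := by positivity
  push_cast
  field_simp
  simp
  left; ring

/-- Contraction principle (inequality). -/
lemma contr_le {E : Type*} [MeasurableSpace E] (ν : Measure E) [SFinite ν]
    (X : Set E) (hX : MeasurableSet X) (F ρ : E → ℝ) (hF : IntegrableOn F X ν)
    (hρ : Measurable ρ) (h01 : ∀ x ∈ X, 0 ≤ ρ x ∧ ρ x ≤ 1) (k a : ℕ)
    (hG : ∀ σ ∈ Ioc (0 : ℝ) 1, ∫ x in X ∩ {x | ρ x ≤ σ}, F x ∂ν ≤ σ ^ a * ∫ x in X, F x ∂ν) :
    ∫ x in X, F x * (1 - ρ x ^ (k + 1)) ∂ν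
      ≤ (((k : ℝ) + 1) / ((k : ℝ) + 1 + a)) * ∫ x in X, F x ∂ν := by
  rw [layer_pow ν X hX F ρ hF hρ h01 k, ← integral_pow_Ioc k a]
  refine setIntegral_mono_on (layer_integrable ν X F ρ hF hρ k) ?_ measurableSet_Ioc ?_
  · have : Continuous fun σ : ℝ => (((k : ℝ) + 1) * σ ^ k) * (σ ^ a * ∫ x in X, F x ∂ν) := by fun_prop
    exact (this.continuousOn.integrableOn_compact isCompact_Icc).mono_set Ioc_subset_Icc_self
  · intro σ hσ
    have : 0 ≤ ((k : ℝ) + 1) * σ ^ k := by have := hσ.1.le; positivity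
    exact mul_le_mul_of_nonneg_left (hG σ hσ) this

/-- Contraction principle (equality). -/
lemma contr_eq {E : Type*} [MeasurableSpace E] (ν : Measure E) [SFinite ν]
    (X : Set E) (hX : MeasurableSet X) (F ρ : E → ℝ) (hF : IntegrableOn F X ν)
    (hρ : Measurable ρ) (h01 : ∀ x ∈ X, 0 ≤ ρ x ∧ ρ x ≤ 1) (k a : ℕ)
    (hG : ∀ σ ∈ Ioc (0 : ℝ) 1, ∫ x in X ∩ {x | ρ x ≤ σ}, F x ∂ν = σ ^ a * ∫ x in X, F x ∂ν) :
    ∫ x in X, F x * (1 - ρ x ^ (k + 1)) ∂ν
      = (((k : ℝ) + 1) / ((k : ℝ) + 1 + a)) * ∫ x in X, F x ∂ν := by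
  rw [layer_pow ν X hX F ρ hF hρ h01 k, ← integral_pow_Ioc k a]
  refine setIntegral_congr_fun measurableSet_Ioc fun σ hσ => ?_
  simp only [hG σ hσ]

end Vale.Agent.Lib.P254
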