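import Vale.Agent.Lib.P254.LM.Basic

/-!
# Decomposition of an integral along the cells where one of finitely many functions is minimal
-/

namespace Vale.Agent.Lib.P254

open MeasureTheory Set

variable {n : ℕ}

lemma part_argmin {ι : Type*} [Fintype ι] [Nonempty ι] (f : ι → (Fin n → ℝ) → ℝ)
    (hf : ∀ i, Continuous (f i))
    (hnull : ∀ i j, i ≠ j → volume {x | f i x = f j x} = 0)
    (A : Set (Fin n → ℝ)) (hA : MeasurableSet A) (g : (Fin n → ℝ) → ℝ) (hg : IntegrableOn g A) :
    ∫ x in A, g x = ∑ i, ∫ x in A ∩ {x | ∀ j, f i x ≤ f j x}, g x := by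
  have hcl : ∀ i, IsClosed {x | ∀ j, f i x ≤ f j x} := by
    intro i
    have : {x | ∀ j, f i x ≤ f j x} = ⋂ j, {x | f i x ≤ f j x} := by
      ext x; simp
    rw [this]
    exact isClosed_iInter fun j => isClosed_le (hf i) (hf j)
  have hU : A = ⋃ i, A ∩ {x | ∀ j, f i x ≤ f j x} := by
    ext x
    simp only [mem_iUnion, mem_inter_iff, mem_ofPred_eq, exists_and_left]
    constructor
    · intro hx
      obtain ⟨i, hi⟩ := Finite.exists_min (fun i => f i x)
      exact ⟨hx, i, hi⟩
    · exact fun h => h.1
  have hm : ∀ i, NullMeasurableSet (A ∩ {x | ∀ j, f i x ≤ f j x}) volume :=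
    fun i => (hA.inter (hcl i).measurableSet).nullMeasurableSet
  have hd : Pairwise (Function.onFun (AEDisjoint volume)
      (fun i => A ∩ {x | ∀ j, f i x ≤ f j x})) := by
    intro i j hij
    simp only [Function.onFun]
    refine measure_mono_null ?_ (hnull i j hij)
    rintro x ⟨⟨_, h1⟩, ⟨_, h2⟩⟩
    exact le_antisymm (h1 j) (h2 i)
  have hint : IntegrableOn g (⋃ i, A ∩ {x | ∀ j, f i x ≤ f j x}) volume := by
    rw [← hU]; exact hg
  conv_lhs => rw [hU]
  rw [integral_iUnion_ae hm hd hint, tsum_fintype]

private lemma null_coord_eq (i j : Fin n) (hij : i ≠ j) :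
    volume {x : Fin n → ℝ | x i = x j} = 0 := by
  have hc : (Pi.single i 1 - Pi.single j 1 : Fin n → ℝ) ≠ 0 := by
    intro h
    have := congrFun h i
    simp [hij] at this
  have := volume_hyperplane_zero (Pi.single i 1 - Pi.single j 1 : Fin n → ℝ) hc
  refine measure_mono_null ?_ this
  intro x hx
  have hx' : x i = x j := hx
  simp [sub_dotProduct, hx']

/-- cells of the orthant coordinates -/
lemma part_cell (hn : 1 ≤ n) (A : Set (Fin n → ℝ)) (hA : MeasurableSet A) (g : (Fin n → ℝ) → ℝ)
    (hg : IntegrableOn g A) :
    ∫ x in A, g x = ∑ j, ∫ x in A ∩ cell j, g x := by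
  have : Nonempty (Fin n) := ⟨⟨0, hn⟩⟩
  exact part_argmin (fun (i : Fin n) (x : Fin n → ℝ) => x i) (fun i => continuous_apply i)
    null_coord_eq A hA g hg

private lemma null_coord_lam0 (i : Fin n) :
    volume {x : Fin n → ℝ | x i = lam0 x} = 0 := by
  -- translate the affine hyperplane to a linear one
  set c : Fin n → ℝ := fun k => if k = i then 2 else 1 with hc
  have hc0 : c ≠ 0 := by
    intro h
    have := congrFun h i
    simp [hc] at this
  have hdot : ∀ x : Fin n → ℝ, c ⬝ᵥ x = x i + ∑ k, x k := by
    intro x
    simp only [hc, dotProduct, ite_mul, one_mul]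
    have : ∀ k, (if k = i then 2 * x k else x k) = (if k = i then x k else 0) + x k := by
      intro k
      split_ifs <;> ring
    simp only [this, Finset.sum_add_distrib, Finset.sum_ite_eq', Finset.mem_univ, if_true]
  set p : Fin n → ℝ := Pi.single i (1 / 2) with hp
  have hpc : c ⬝ᵥ p = 1 := by
    rw [hdot]
    simp [hp]
    norm_num
  have hset : {x : Fin n → ℝ | x i = lam0 x} = (fun x => x + (-p)) ⁻¹' {x | c ⬝ᵥ x = 0} := by
    ext x
    rw [mem_preimage, mem_ofPred_eq, mem_ofPred_eq, dotProduct_add, dotProduct_neg, hpc, hdot]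
    simp only [lam0]
    constructor
    · intro h; linarith
    · intro h; linarith
  rw [hset, measure_preimage_add_right]
  exact volume_hyperplane_zero c hc0

/-- cells of the barycentric coordinates -/
lemma part_bary (A : Set (Fin n → ℝ)) (hA : MeasurableSet A) (g : (Fin n → ℝ) → ℝ)
    (hg : IntegrableOn g A) :
    ∫ x in A, g x = (∫ x in A ∩ Pc0 n, g x)
      + ∑ i, ∫ x in A ∩ {x | x i ≤ lam0 x ∧ ∀ k, x i ≤ x k}, g x := by
  have hlam : Continuous (lam0 : (Fin n → ℝ) → ℝ) := by
    unfold lam0; fun_prop
  have h := part_argmin (ι := Option (Fin n))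
    (fun o x => match o with
      | none => lam0 x
      | some i => x i)
    (by
      intro o
      cases o with
      | none => exact hlam
      | some i => exact continuous_apply i)
    (by
      intro o p hop
      cases o with
      | none =>
        cases p with
        | none => exact absurd rfl hop
        | some j =>
          have := null_coord_lam0 j
          refine measure_mono_null ?_ this
          intro x hx
          exact (Eq.symm hx)
      | some i =>
        cases p with
        | none => exact null_coord_lam0 i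
        | some j => exact null_coord_eq i j (fun h => hop (by rw [h])))
    A hA g hg
  rw [h, Fintype.sum_option]
  congr 1
  · congr 2
    ext x
    simp [Pc0, Option.forall]
  · refine Finset.sum_congr rfl fun i _ => ?_
    congr 2
    ext x
    simp [Option.forall]

end Vale.Agent.Lib.P254
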