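import Vale.Agent.Lib.P254.LM.Hom
import Vale.Agent.Lib.P254.LM.I1
import Vale.Agent.Lib.P254.LM.I2
import Vale.Agent.Lib.P254.LM.Part

/-!
# The orthant core inequality
-/

namespace Vale.Agent.Lib.P254

open MeasureTheory Set

variable {n : ℕ}

lemma OC_tS_cont : Continuous (tS : (Fin n → ℝ) → ℝ) := by
  unfold tS; fun_prop

lemma OC_sS_cont : Continuous (sS : (Fin n → ℝ) → ℝ) := by
  unfold sS; fun_prop

lemma OC_sum_sq (j : Fin n) (μ : Fin n → ℝ) :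
    ∑ k, (μ k - μ j) ^ 2 = sS μ - 2 * μ j * tS μ + n * μ j ^ 2 := by
  have : ∀ k, (μ k - μ j) ^ 2 = μ k ^ 2 - 2 * μ j * μ k + μ j ^ 2 := fun k => by ring
  simp_rw [this]
  rw [Finset.sum_add_distrib, Finset.sum_sub_distrib, ← Finset.mul_sum]
  simp [sS, tS]

/-- Poincare type inequality on a cell. -/
lemma PI (hn : 1 ≤ n) (j : Fin n) {ε : ℝ} {φ : (Fin n → ℝ) → ℝ} (h : Adm n ε φ) :
    (2 / ((n : ℝ) * ((n : ℝ) + 2))) * ∫ μ in XS j, tS μ ^ 2 * φ μ
      ≤ ∫ μ in XS j, (((n : ℝ) + 1) * sS μ - 2 * tS μ ^ 2) * φ μ := by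
  have hφ := h.cont
  have ht := OC_tS_cont (n := n)
  have hs := OC_sS_cont (n := n)
  have hn0 : (0 : ℝ) < n := by exact_mod_cast hn
  have h1 := I1 j h
  have h2 := I2 hn j h
  set A := ∫ μ in XS j, ((n : ℝ) * (∑ k, (μ k - μ j) ^ 2) - 2 * (tS μ - n * μ j) ^ 2) * φ μ with hA
  set B := ∫ μ in XS j, (tS μ - n * μ j) ^ 2 * φ μ with hB
  set T := ∫ μ in XS j, tS μ ^ 2 * φ μ with hT
  have hiA : IntegrableOn (fun μ : Fin n → ℝ =>
      ((n : ℝ) * (∑ k, (μ k - μ j) ^ 2) - 2 * (tS μ - n * μ j) ^ 2) * φ μ) (XS j) volume :=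
    I1_XS_integrable j (by fun_prop)
  have hiB : IntegrableOn (fun μ : Fin n → ℝ => (tS μ - n * μ j) ^ 2 * φ μ) (XS j) volume :=
    I1_XS_integrable j (by fun_prop)
  have hiT : IntegrableOn (fun μ : Fin n → ℝ => tS μ ^ 2 * φ μ) (XS j) volume :=
    I1_XS_integrable j (by fun_prop)
  have hid : ∫ μ in XS j, (((n : ℝ) + 1) * sS μ - 2 * tS μ ^ 2) * φ μ
      = (((n : ℝ) + 1) / n) * A + (((n : ℝ) + 1) / n) * B - (((n : ℝ) - 1) / n) * T := by
    have e1 : ∫ μ in XS j, (((n : ℝ) + 1) * sS μ - 2 * tS μ ^ 2) * φ μ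
        = ∫ μ in XS j, ((((n : ℝ) + 1) / n) *
            (((n : ℝ) * (∑ k, (μ k - μ j) ^ 2) - 2 * (tS μ - n * μ j) ^ 2) * φ μ)
          + (((n : ℝ) + 1) / n) * ((tS μ - n * μ j) ^ 2 * φ μ)
          - (((n : ℝ) - 1) / n) * (tS μ ^ 2 * φ μ)) := by
      refine integral_congr_ae (Filter.Eventually.of_forall fun μ => ?_)
      simp only [OC_sum_sq]
      field_simp
      ring
    have hiAB : IntegrableOn (fun μ : Fin n → ℝ => (((n : ℝ) + 1) / n) *
            (((n : ℝ) * (∑ k, (μ k - μ j) ^ 2) - 2 * (tS μ - n * μ j) ^ 2) * φ μ)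
          + (((n : ℝ) + 1) / n) * ((tS μ - n * μ j) ^ 2 * φ μ)) (XS j) volume :=
      (hiA.const_mul _).add (hiB.const_mul _)
    rw [e1, integral_sub hiAB (hiT.const_mul _),
      integral_add (hiA.const_mul _) (hiB.const_mul _), integral_const_mul, integral_const_mul,
      integral_const_mul]
  rw [hid]
  have h3 : (((n : ℝ) + 1) / n) * ((n : ℝ) / ((n : ℝ) + 2) * T) ≤ (((n : ℝ) + 1) / n) * B :=
    mul_le_mul_of_nonneg_left h2 (by positivity)
  have h4 : 0 ≤ (((n : ℝ) + 1) / n) * A := mul_nonneg (by positivity) h1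
  have h5 : (2 / ((n : ℝ) * ((n : ℝ) + 2))) * T
      = (((n : ℝ) + 1) / n) * ((n : ℝ) / ((n : ℝ) + 2) * T) - (((n : ℝ) - 1) / n) * T := by
    field_simp
    ring
  rw [h5]
  linarith

lemma OC_sq_le (μ : Fin n → ℝ) : tS μ ^ 2 ≤ ((n : ℝ) + 1) * sS μ := by
  have h := sq_sum_le_card_mul_sum_sq (s := (Finset.univ : Finset (Fin n))) (f := μ)
  simp only [Finset.card_univ, Fintype.card_fin] at h
  have h2 : 0 ≤ sS μ := Finset.sum_nonneg fun i _ => sq_nonneg _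
  unfold tS
  unfold sS at h2 ⊢
  nlinarith

/-- The core inequality on a cell. -/
lemma OC_cell (hn : 1 ≤ n) (j : Fin n) {ε : ℝ} {φ : (Fin n → ℝ) → ℝ} (h : Adm n ε φ)
    (hε0 : 0 ≤ ε) (hε : ε ≤ epsN n) :
    kap n * vol (XS j ∩ {μ | 1 < tS μ + φ μ})
      ≤ ∫ μ in XS j ∩ {μ | 1 < tS μ + φ μ}, (((n : ℝ) + 1) * sS μ - tS μ ^ 2 - 1) := by
  have hφ := h.cont
  have ht := OC_tS_cont (n := n)
  have hs := OC_sS_cont (n := n)
  have hn0 : (0 : ℝ) < n := by exact_mod_cast hn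
  have hn1 : (1 : ℝ) ≤ n := by exact_mod_cast hn
  set D := XS j ∩ {μ | 1 < tS μ + φ μ} with hD
  have hDm : MeasurableSet D :=
    (I1_XS_measurableSet j).inter (measurableSet_lt measurable_const (ht.add hφ).measurable)
  have hDi : ∀ {g : (Fin n → ℝ) → ℝ}, Continuous g → IntegrableOn g D volume :=
    fun hg => (I1_XS_integrable j hg).mono_set inter_subset_left
  set q : (Fin n → ℝ) → ℝ := fun μ => ((n : ℝ) + 1) * sS μ - tS μ ^ 2 with hq
  have hqc : Continuous q := by simp only [hq]; fun_prop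
  have hq0 : ∀ μ, 0 ≤ q μ := fun μ => by simp only [hq]; linarith [OC_sq_le μ]
  have hqh : ∀ c : ℝ, 0 ≤ c → ∀ μ, q (c • μ) = c ^ 2 * q μ := by
    intro c _ μ
    simp only [hq, sS, tS, Pi.smul_apply, smul_eq_mul, mul_pow, ← Finset.mul_sum]
    ring
  set T := ∫ μ in XS j, tS μ ^ 2 * φ μ with hT
  -- nonnegativity on XS j
  have hpos : ∀ μ ∈ XS j, ∀ i, 0 ≤ μ i := fun μ hμ i => hμ.1.1 i
  have hT0 : 0 ≤ T := by
    refine setIntegral_nonneg (I1_XS_measurableSet j) fun μ hμ => ?_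
    exact mul_nonneg (sq_nonneg _) (h.nonneg μ (hpos μ hμ))
  -- LC with w = q
  have hLCq := LC j h q hqc 2 hqh
  -- LC with w = 1
  have hLC1 := LC j h (fun _ => (1 : ℝ)) continuous_const 0 (by intro c _ μ; simp)
  have hHL := HL j h
  have hPI := PI hn j h
  -- upper bound for ∫ q φ
  have hup : ∫ μ in XS j, q μ * φ μ ≤ (1 / ((n : ℝ) + 3) + ε) * ∫ μ in D, q μ := by
    rw [hLCq, ← integral_const_mul]
    refine setIntegral_mono_on (hDi (by fun_prop)) (hDi (by fun_prop)) hDm fun μ hμ => ?_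
    have h1 : φ μ ≤ ε * tS μ := h.le μ (hpos μ hμ.1)
    have h2 : tS μ ≤ 1 := hμ.1.1.2
    have h3 : 0 ≤ tS μ := Finset.sum_nonneg fun i _ => hpos μ hμ.1 i
    have h4 : tS μ + φ μ - ((n : ℝ) + (2 : ℕ)) / ((n : ℝ) + (2 : ℕ) + 1) ≤ 1 / ((n : ℝ) + 3) + ε := by
      have : ((n : ℝ) + (2 : ℕ)) / ((n : ℝ) + (2 : ℕ) + 1) = 1 - 1 / ((n : ℝ) + 3) := by
        push_cast; field_simp; ring
      rw [this]
      nlinarith
    calc q μ * (tS μ + φ μ - ((n : ℝ) + (2 : ℕ)) / ((n : ℝ) + (2 : ℕ) + 1))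
        ≤ q μ * (1 / ((n : ℝ) + 3) + ε) := mul_le_mul_of_nonneg_left h4 (hq0 μ)
      _ = (1 / ((n : ℝ) + 3) + ε) * q μ := by ring
  -- lower bound for ∫ φ
  have hlow : vol D / ((n : ℝ) + 1) ≤ ∫ μ in XS j, φ μ := by
    have e1 : ∫ μ in XS j, φ μ = ∫ μ in XS j, (fun _ => (1 : ℝ)) μ * φ μ := by simp
    rw [e1, hLC1, vol_eq_integral, div_eq_mul_inv, mul_comm, ← integral_const_mul]
    refine setIntegral_mono_on (hDi (by fun_prop)) (hDi (by fun_prop)) hDm fun μ hμ => ?_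
    have h1 : 1 < tS μ + φ μ := hμ.2
    have : ((n : ℝ) + (0 : ℕ)) / ((n : ℝ) + (0 : ℕ) + 1) = 1 - ((n : ℝ) + 1)⁻¹ := by
      push_cast; field_simp; ring
    rw [this]
    linarith
  -- ∫ q φ = ∫ (.. - 2 t²) φ + T
  have hsplit : ∫ μ in XS j, q μ * φ μ
      = (∫ μ in XS j, (((n : ℝ) + 1) * sS μ - 2 * tS μ ^ 2) * φ μ) + T := by
    rw [hT, ← integral_add (I1_XS_integrable j (by fun_prop)) (I1_XS_integrable j (by fun_prop))]
    refine integral_congr_ae (Filter.Eventually.of_forall fun μ => ?_)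
    simp only [hq]; ring
  have hfin : ∫ μ in D, (((n : ℝ) + 1) * sS μ - tS μ ^ 2 - 1) = (∫ μ in D, q μ) - vol D := by
    rw [vol_eq_integral, ← integral_sub (hDi hqc) (hDi continuous_const)]
  rw [hfin]
  set Q := ∫ μ in D, q μ with hQ
  set V := vol D with hV
  set P := ∫ μ in XS j, φ μ with hP
  have hκ : kap n = 1 / ((n : ℝ) * ((n : ℝ) + 2)) := rfl
  -- collect: (1 + 2κ) T ≤ (1/(n+3) + ε) Q,  V ≤ (n+3) T
  have hVT : V ≤ ((n : ℝ) + 3) * T := by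
    have : T = (((n : ℝ) + 1) / ((n : ℝ) + 3)) * P := hHL
    rw [this]
    have h1 : V ≤ ((n : ℝ) + 1) * P := by
      rw [div_le_iff₀ (by positivity)] at hlow
      linarith
    have h2 : ((n : ℝ) + 3) * ((((n : ℝ) + 1) / ((n : ℝ) + 3)) * P) = ((n : ℝ) + 1) * P := by
      field_simp
    rw [h2]; exact h1
  have hTQ : (1 + 2 * kap n) * T ≤ (1 / ((n : ℝ) + 3) + ε) * Q := by
    have : (2 / ((n : ℝ) * ((n : ℝ) + 2))) = 2 * kap n := by rw [hκ]; ring
    rw [this] at hPI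
    linarith
  have hκ0 : 0 < kap n := by rw [hκ]; positivity
  have hκ1 : kap n ≤ 1 := by
    rw [hκ, div_le_one (by positivity)]
    nlinarith
  have hε' : ((n : ℝ) + 3) * ε ≤ kap n / 2 := by
    have : ((n : ℝ) + 3) * epsN n = kap n / 2 := by
      rw [hκ]; unfold epsN; field_simp
    calc ((n : ℝ) + 3) * ε ≤ ((n : ℝ) + 3) * epsN n := mul_le_mul_of_nonneg_left hε (by positivity)
      _ = kap n / 2 := this
  have hQ0 : 0 ≤ Q := setIntegral_nonneg hDm fun μ _ => hq0 μ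
  -- (n+3)(1+2κ) T ≤ (1 + (n+3) ε) Q ≤ (1 + κ/2) Q
  have h6 : ((n : ℝ) + 3) * ((1 + 2 * kap n) * T) ≤ (1 + kap n / 2) * Q := by
    have h7 : ((n : ℝ) + 3) * ((1 + 2 * kap n) * T) ≤ ((n : ℝ) + 3) * ((1 / ((n : ℝ) + 3) + ε) * Q) :=
      mul_le_mul_of_nonneg_left hTQ (by positivity)
    have h8 : ((n : ℝ) + 3) * ((1 / ((n : ℝ) + 3) + ε) * Q) = (1 + ((n : ℝ) + 3) * ε) * Q := by
      field_simp
    rw [h8] at h7
    have h9 : (1 + ((n : ℝ) + 3) * ε) * Q ≤ (1 + kap n / 2) * Q :=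
      mul_le_mul_of_nonneg_right (by linarith) hQ0
    linarith
  -- conclude (1 + κ) V ≤ Q
  have h10 : (1 + kap n) * (1 + kap n / 2) ≤ 1 + 2 * kap n := by nlinarith
  have h11 : (1 + kap n / 2) * ((1 + kap n) * V) ≤ (1 + kap n / 2) * Q := by
    have hA : (1 + kap n / 2) * ((1 + kap n) * V) ≤ (1 + 2 * kap n) * (((n : ℝ) + 3) * T) := by
      have hx : 0 ≤ ((n : ℝ) + 3) * T := by positivity
      have hV0 : 0 ≤ V := ENNReal.toReal_nonneg
      calc (1 + kap n / 2) * ((1 + kap n) * V) = ((1 + kap n) * (1 + kap n / 2)) * V := by ring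
        _ ≤ ((1 + kap n) * (1 + kap n / 2)) * (((n : ℝ) + 3) * T) :=
            mul_le_mul_of_nonneg_left hVT (by positivity)
        _ ≤ (1 + 2 * kap n) * (((n : ℝ) + 3) * T) := mul_le_mul_of_nonneg_right h10 hx
    have hB : (1 + 2 * kap n) * (((n : ℝ) + 3) * T) = ((n : ℝ) + 3) * ((1 + 2 * kap n) * T) := by ring
    linarith
  have h12 : (1 + kap n) * V ≤ Q := le_of_mul_le_mul_left h11 (by positivity)
  linarith

/-- The core inequality on the corner simplex. -/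
theorem OC (hn : 1 ≤ n) {ε : ℝ} {φ : (Fin n → ℝ) → ℝ} (h : Adm n ε φ)
    (hε0 : 0 ≤ ε) (hε : ε ≤ epsN n) :
    kap n * vol (stdS n ∩ {μ | 1 < tS μ + φ μ})
      ≤ ∫ μ in stdS n ∩ {μ | 1 < tS μ + φ μ}, (((n : ℝ) + 1) * sS μ - tS μ ^ 2 - 1) := by
  have hφ := h.cont
  have ht := OC_tS_cont (n := n)
  have hs := OC_sS_cont (n := n)
  set A := stdS n ∩ {μ | 1 < tS μ + φ μ} with hA
  have hAm : MeasurableSet A :=
    stdS_isCompact.measurableSet.inter (measurableSet_lt measurable_const (ht.add hφ).measurable)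
  have hAi : ∀ {g : (Fin n → ℝ) → ℝ}, Continuous g → IntegrableOn g A volume :=
    fun hg => (stdS_integrable hg).mono_set inter_subset_left
  have hset : ∀ j : Fin n, A ∩ cell j = XS j ∩ {μ | 1 < tS μ + φ μ} := by
    intro j
    ext μ
    simp only [hA, XS, mem_inter_iff]
    tauto
  rw [vol_eq_integral, part_cell hn A hAm _ (hAi continuous_const),
    part_cell hn A hAm _ (hAi (by fun_prop)), Finset.mul_sum]
  refine Finset.sum_le_sum fun j _ => ?_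
  rw [hset j, ← vol_eq_integral]
  exact OC_cell hn j h hε0 hε

end Vale.Agent.Lib.P254
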