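import Vale.Agent.Lib.P254.LM.OC
import Vale.Agent.Lib.P254.LM.Gauge

/-!
# The first order inequality for a convex body inside the corner simplex
-/

namespace Vale.Agent.Lib.P254

open MeasureTheory Set

variable {n : ℕ}

private lemma npos : (0 : ℝ) < (n : ℝ) + 1 := by positivity

lemma lam0_Psi (μ : Fin n → ℝ) : lam0 (Psi μ) = (1 - tS μ) / ((n : ℝ) + 1) := by
  have hN : ((n : ℝ) + 1) ≠ 0 := npos.ne'
  simp only [lam0, Psi, Finset.sum_add_distrib, Finset.sum_const, Finset.card_univ,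
    Fintype.card_fin, nsmul_eq_mul]
  unfold tS
  field_simp
  ring

lemma q2_Psi (μ : Fin n → ℝ) : q2 (Psi μ) = ((n : ℝ) + 1) * sS μ - tS μ ^ 2 := by
  have hN : ((n : ℝ) + 1) ≠ 0 := npos.ne'
  have h1 : ∑ i, Psi μ i ^ 2
      = sS μ + 2 * ((1 - tS μ) / ((n : ℝ) + 1)) * tS μ + (n : ℝ) * ((1 - tS μ) / ((n : ℝ) + 1)) ^ 2 := by
    have : ∀ i, Psi μ i ^ 2 = μ i ^ 2 + 2 * ((1 - tS μ) / ((n : ℝ) + 1)) * μ i
        + ((1 - tS μ) / ((n : ℝ) + 1)) ^ 2 := by
      intro i
      simp only [Psi]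
      ring
    simp only [this, Finset.sum_add_distrib, ← Finset.mul_sum, Finset.sum_const, Finset.card_univ,
      Fintype.card_fin, nsmul_eq_mul]
    rfl
  unfold q2
  rw [lam0_Psi, h1]
  field_simp
  ring

/-- the inverse of `Psi` -/
private lemma Psi_inv (x : Fin n → ℝ) : Psi (fun i => x i - lam0 x) = x := by
  have hN : ((n : ℝ) + 1) ≠ 0 := npos.ne'
  funext i
  have ht : tS (fun i => x i - lam0 x) = 1 - ((n : ℝ) + 1) * lam0 x := by
    simp only [tS, Finset.sum_sub_distrib, Finset.sum_const, Finset.card_univ, Fintype.card_fin,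
      nsmul_eq_mul]
    unfold lam0
    ring
  simp only [Psi, ht]
  field_simp
  ring

private lemma inv_Psi (μ : Fin n → ℝ) : (fun i => Psi μ i - lam0 (Psi μ)) = μ := by
  funext i
  rw [lam0_Psi]
  simp [Psi]

lemma Psi_image (A : Set (Fin n → ℝ)) :
    Psi '' (stdS n ∩ A) = (stdS n ∩ Pc0 n) ∩ {x | (fun i => x i - lam0 x) ∈ A} := by
  have hN : (0 : ℝ) < (n : ℝ) + 1 := npos
  ext x
  constructor
  · rintro ⟨μ, ⟨hμS, hμA⟩, rfl⟩
    have hl : 0 ≤ lam0 (Psi μ) := by
      rw [lam0_Psi]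
      have : tS μ ≤ 1 := hμS.2
      apply div_nonneg _ hN.le
      linarith
    have hk : ∀ k, lam0 (Psi μ) ≤ Psi μ k := by
      intro k
      have h1 : Psi μ k - lam0 (Psi μ) = μ k := congrFun (inv_Psi μ) k
      have h0 := hμS.1 k
      linarith
    refine ⟨⟨⟨fun i => hl.trans (hk i), ?_⟩, hk⟩, ?_⟩
    · unfold lam0 at hl
      linarith
    · show (fun i => Psi μ i - lam0 (Psi μ)) ∈ A
      rw [inv_Psi]
      exact hμA
  · rintro ⟨⟨hxS, hxP⟩, hxA⟩
    refine ⟨fun i => x i - lam0 x, ⟨⟨fun i => ?_, ?_⟩, hxA⟩, Psi_inv x⟩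
    · have := hxP i
      simp only
      linarith
    · have hl : 0 ≤ lam0 x := by
        unfold lam0
        linarith [hxS.2]
      have ht : ∑ i, (x i - lam0 x) = 1 - ((n : ℝ) + 1) * lam0 x := by
        simp only [Finset.sum_sub_distrib, Finset.sum_const, Finset.card_univ, Fintype.card_fin,
          nsmul_eq_mul]
        unfold lam0
        ring
      rw [ht]
      nlinarith

private lemma Psi_eq (μ : Fin n → ℝ) :
    Psi μ = μ + ((fun _ => -1 / ((n : ℝ) + 1)) ⬝ᵥ μ + 1 / ((n : ℝ) + 1)) • (fun _ => (1 : ℝ)) := by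
  funext i
  simp only [Psi, tS, dotProduct, Pi.add_apply, Pi.smul_apply, smul_eq_mul, mul_one,
    ← Finset.mul_sum]
  ring

private lemma setIntegral_Psi {A : Set (Fin n → ℝ)} (hA : MeasurableSet A)
    (g : (Fin n → ℝ) → ℝ) :
    ∫ y in Psi '' A, g y = (1 / ((n : ℝ) + 1)) * ∫ μ in A, g (Psi μ) := by
  have hN : (0 : ℝ) < (n : ℝ) + 1 := npos
  have hba : (1 : ℝ) + (fun _ => -1 / ((n : ℝ) + 1) : Fin n → ℝ) ⬝ᵥ (fun _ => (1 : ℝ))
      = 1 / ((n : ℝ) + 1) := by
    simp only [dotProduct, mul_one, Finset.sum_const, Finset.card_univ, Fintype.card_fin,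
      nsmul_eq_mul]
    field_simp
    ring
  have h := setIntegral_image_rankOne (fun _ => (1 : ℝ)) (fun _ => -1 / ((n : ℝ) + 1) : Fin n → ℝ)
    (1 / ((n : ℝ) + 1)) (by rw [hba]; positivity) hA g
  rw [hba, abs_of_pos (by positivity)] at h
  have hfun : (fun x : Fin n → ℝ => x + ((fun _ => -1 / ((n : ℝ) + 1)) ⬝ᵥ x + 1 / ((n : ℝ) + 1)) •
      (fun _ => (1 : ℝ))) = Psi := by
    funext μ
    exact (Psi_eq μ).symm
  rw [hfun] at h
  rw [h]
  simp only [← Psi_eq]

/-- the inequality on the cone piece opposite to the vertex `0` -/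
theorem core0 (hn : 1 ≤ n) (K : Set (Fin n → ℝ)) (hKc : Convex ℝ K) (hKcl : IsClosed K)
    (hKS : K ⊆ stdS n) (hcore : coreS n (delN n) ⊆ K) (hcen : cen0 n ∈ K) :
    kap n * vol ((stdS n \ K) ∩ Pc0 n) ≤ ∫ x in (stdS n \ K) ∩ Pc0 n, (q2 x - 1) := by
  have hN : (0 : ℝ) < (n : ℝ) + 1 := npos
  have hn1 : (1 : ℝ) ≤ (n : ℝ) := by exact_mod_cast hn
  have hD : (0 : ℝ) < 4 * (n : ℝ) * ((n : ℝ) + 2) * ((n : ℝ) + 3) := by positivity
  have hη : ((n : ℝ) + 1) * delN n = 1 / (4 * (n : ℝ) * ((n : ℝ) + 2) * ((n : ℝ) + 3)) := by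
    unfold delN
    field_simp
  have hD4 : (2 : ℝ) ≤ 4 * (n : ℝ) * ((n : ℝ) + 2) * ((n : ℝ) + 3) := by
    have h1 : (4 : ℝ) ≤ 4 * (n : ℝ) := by linarith
    have h2 : (4 : ℝ) * 2 ≤ 4 * (n : ℝ) * ((n : ℝ) + 2) :=
      mul_le_mul h1 (by linarith) (by norm_num) (by linarith)
    have h3 : (4 : ℝ) * 2 * 3 ≤ 4 * (n : ℝ) * ((n : ℝ) + 2) * ((n : ℝ) + 3) :=
      mul_le_mul h2 (by linarith) (by norm_num) (by positivity)
    linarith
  have hδ0 : 0 < delN n := by
    unfold delN
    positivity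
  have hη2 : ((n : ℝ) + 1) * delN n ≤ 1 / 2 := by
    rw [hη]
    exact one_div_le_one_div_of_le (by norm_num) hD4
  have hη0 : 0 < ((n : ℝ) + 1) * delN n := by positivity
  obtain ⟨φ, hφ, hK⟩ := exists_adm hn K hKc hKcl hKS (delN n) hδ0 (by linarith) hcore hcen
  have hε0 : 0 ≤ ((n : ℝ) + 1) * delN n / (1 - ((n : ℝ) + 1) * delN n) :=
    div_nonneg hη0.le (by linarith)
  have hε : ((n : ℝ) + 1) * delN n / (1 - ((n : ℝ) + 1) * delN n) ≤ epsN n := by
    have he : epsN n = 2 * (((n : ℝ) + 1) * delN n) := by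
      rw [hη]
      unfold epsN
      field_simp
      ring
    rw [he, div_le_iff₀ (by linarith)]
    nlinarith
  have hOC := OC hn hφ hε0 hε
  have himg : Psi '' (stdS n ∩ {μ | 1 < tS μ + φ μ}) = (stdS n \ K) ∩ Pc0 n := by
    rw [Psi_image]
    ext x
    have hx : (fun i => x i - lam0 x) ∈ {μ | 1 < tS μ + φ μ} ↔ x ∉ K := by
      have := hK (fun i => x i - lam0 x)
      rw [Psi_inv] at this
      rw [this]
      simp
    simp only [mem_inter_iff, mem_sdiff]
    rw [show (x ∈ {x | (fun i => x i - lam0 x) ∈ {μ | 1 < tS μ + φ μ}})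
      ↔ (fun i => x i - lam0 x) ∈ {μ | 1 < tS μ + φ μ} from Iff.rfl, hx]
    tauto
  have hmeas : MeasurableSet (stdS n ∩ {μ | 1 < tS μ + φ μ}) := by
    refine stdS_isClosed.measurableSet.inter (IsOpen.measurableSet ?_)
    refine isOpen_lt continuous_const (Continuous.add ?_ hφ.cont)
    unfold tS
    fun_prop
  rw [← himg, vol_eq_integral, setIntegral_Psi hmeas, setIntegral_Psi hmeas]
  simp only [q2_Psi]
  rw [vol_eq_integral] at hOC
  have h1 : (0 : ℝ) ≤ 1 / ((n : ℝ) + 1) := by positivity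
  calc kap n * (1 / ((n : ℝ) + 1) * ∫ μ in stdS n ∩ {μ | 1 < tS μ + φ μ}, (1 : ℝ))
      = 1 / ((n : ℝ) + 1) * (kap n * ∫ μ in stdS n ∩ {μ | 1 < tS μ + φ μ}, (1 : ℝ)) := by ring
    _ ≤ _ := mul_le_mul_of_nonneg_left hOC h1

private lemma lam0_swapZero (i : Fin n) (x : Fin n → ℝ) : lam0 (swapZero i x) = x i := by
  unfold lam0
  rw [swapZero_sum]
  ring

private lemma swapZero_self' (i : Fin n) (x : Fin n → ℝ) : swapZero i x i = lam0 x :=
  swapZero_apply_self i x

private lemma q2_swapZero (i : Fin n) (x : Fin n → ℝ) : q2 (swapZero i x) = q2 x := by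
  unfold q2
  rw [lam0_swapZero]
  have h : ∑ k, swapZero i x k ^ 2 = ∑ k, x k ^ 2 - x i ^ 2 + lam0 x ^ 2 := by
    rw [← Finset.add_sum_erase Finset.univ (fun k => swapZero i x k ^ 2) (Finset.mem_univ i),
      ← Finset.add_sum_erase Finset.univ (fun k => x k ^ 2) (Finset.mem_univ i)]
    have h2 : ∑ k ∈ Finset.univ.erase i, swapZero i x k ^ 2 = ∑ k ∈ Finset.univ.erase i, x k ^ 2 :=
      Finset.sum_congr rfl
        (fun k hk => by rw [swapZero_apply_ne _ _ (Finset.ne_of_mem_erase hk)])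
    rw [h2, swapZero_self']
    ring
  rw [h]
  ring

private lemma swapZero_continuous (i : Fin n) : Continuous (swapZero i) := by
  refine continuous_pi fun k => ?_
  by_cases hk : k = i
  · subst hk
    simp only [swapZero_apply_self]
    fun_prop
  · simp only [swapZero_apply_ne _ _ hk]
    fun_prop

private lemma swapZero_image_eq (i : Fin n) (K : Set (Fin n → ℝ)) :
    swapZero i '' K = swapZero i ⁻¹' K := by
  ext x
  constructor
  · rintro ⟨y, hy, rfl⟩
    show swapZero i (swapZero i y) ∈ K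
    rw [swapZero_involutive]
    exact hy
  · intro hx
    exact ⟨swapZero i x, hx, swapZero_involutive i x⟩

private lemma swapZero_affine (i : Fin n) (u v : Fin n → ℝ) {a b : ℝ} (hab : a + b = 1) :
    a • swapZero i u + b • swapZero i v = swapZero i (a • u + b • v) := by
  funext k
  by_cases hk : k = i
  · subst hk
    simp only [Pi.add_apply, Pi.smul_apply, smul_eq_mul, swapZero_apply_self,
      Finset.sum_add_distrib, ← Finset.mul_sum]
    linear_combination hab
  · simp only [Pi.add_apply, Pi.smul_apply, smul_eq_mul, swapZero_apply_ne _ _ hk]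

private lemma transfer (i : Fin n) (K : Set (Fin n → ℝ)) (hK : IsClosed K)
    (g : (Fin n → ℝ) → ℝ) :
    ∫ x in (stdS n \ (swapZero i '' K)) ∩ Pc0 n, g x
      = ∫ x in (stdS n \ K) ∩ {x | x i ≤ lam0 x ∧ ∀ k, x i ≤ x k}, g (swapZero i x) := by
  have hba : (fun k => -1 - (Pi.single i 1 : Fin n → ℝ) k) ⬝ᵥ (Pi.single i 1 : Fin n → ℝ) = -2 := by
    simp [dotProduct, Pi.single_apply]
    norm_num
  have hmeas : MeasurableSet ((stdS n \ K) ∩ {x | x i ≤ lam0 x ∧ ∀ k, x i ≤ x k}) := by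
    refine (stdS_isClosed.measurableSet.diff hK.measurableSet).inter (IsClosed.measurableSet ?_)
    have : {x : Fin n → ℝ | x i ≤ lam0 x ∧ ∀ k, x i ≤ x k}
        = {x | x i ≤ lam0 x} ∩ ⋂ k, {x | x i ≤ x k} := by
      ext x
      simp
    rw [this]
    refine IsClosed.inter ?_ (isClosed_iInter fun k => ?_)
    · refine isClosed_le (continuous_apply i) ?_
      unfold lam0
      fun_prop
    · exact isClosed_le (continuous_apply i) (continuous_apply k)
  have h := setIntegral_image_rankOne (Pi.single i 1 : Fin n → ℝ)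
    (fun k => -1 - (Pi.single i 1 : Fin n → ℝ) k) 1 (by rw [hba]; norm_num) hmeas g
  rw [hba] at h
  have himg : (fun x : Fin n → ℝ => x + ((fun k => -1 - (Pi.single i 1 : Fin n → ℝ) k) ⬝ᵥ x + 1) •
      (Pi.single i 1 : Fin n → ℝ)) '' ((stdS n \ K) ∩ {x | x i ≤ lam0 x ∧ ∀ k, x i ≤ x k})
      = (stdS n \ (swapZero i '' K)) ∩ Pc0 n := by
    show swapZero i '' ((stdS n \ K) ∩ {x | x i ≤ lam0 x ∧ ∀ k, x i ≤ x k}) = _
    rw [swapZero_image_eq, swapZero_image_eq]
    ext x
    simp only [mem_preimage, mem_inter_iff, mem_sdiff, mem_ofPred_eq, Pc0]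
    rw [lam0_swapZero, swapZero_self']
    constructor
    · rintro ⟨⟨h1, h2⟩, h3, h4⟩
      refine ⟨⟨?_, h2⟩, fun k => ?_⟩
      · have := swapZero_mem i h1
        rwa [swapZero_involutive] at this
      · by_cases hk : k = i
        · subst hk
          exact h3
        · have := h4 k
          rwa [swapZero_apply_ne _ _ hk] at this
    · rintro ⟨⟨h1, h2⟩, h3⟩
      refine ⟨⟨swapZero_mem i h1, h2⟩, h3 i, fun k => ?_⟩
      by_cases hk : k = i
      · subst hk
        rw [swapZero_self']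
      · rw [swapZero_apply_ne _ _ hk]
        exact h3 k
  rw [himg] at h
  rw [h]
  norm_num
  rfl

/-- the inequality on the whole simplex -/
theorem core_all (hn : 1 ≤ n) (K : Set (Fin n → ℝ)) (hKc : Convex ℝ K) (hKcl : IsClosed K)
    (hKS : K ⊆ stdS n) (hcore : coreS n (delN n) ⊆ K) (hcen : cen0 n ∈ K)
    (hcen' : ∀ i, swapZero i (cen0 n) ∈ K) :
    kap n * vol (stdS n \ K) ≤ ∫ x in stdS n \ K, (q2 x - 1) := by
  have hmeas : MeasurableSet (stdS n \ K) := stdS_isClosed.measurableSet.diff hKcl.measurableSet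
  have hq : Continuous (fun x : Fin n → ℝ => q2 x - 1) := by
    unfold q2 lam0
    fun_prop
  have hint : IntegrableOn (fun x : Fin n → ℝ => q2 x - 1) (stdS n \ K) :=
    (stdS_integrable hq).mono_set sdiff_subset
  have hint1 : IntegrableOn (fun _ : Fin n → ℝ => (1 : ℝ)) (stdS n \ K) :=
    (stdS_integrable continuous_const).mono_set sdiff_subset
  rw [vol_eq_integral, part_bary _ hmeas _ hint, part_bary _ hmeas _ hint1, mul_add,
    Finset.mul_sum]
  refine add_le_add ?_ (Finset.sum_le_sum fun i _ => ?_)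
  · have h := core0 hn K hKc hKcl hKS hcore hcen
    rwa [vol_eq_integral] at h
  · have hc : Convex ℝ (swapZero i '' K) := by
      rintro _ ⟨u, hu, rfl⟩ _ ⟨v, hv, rfl⟩ a b ha hb hab
      exact ⟨a • u + b • v, hKc hu hv ha hb hab, (swapZero_affine i u v hab).symm⟩
    have hcl : IsClosed (swapZero i '' K) := by
      rw [swapZero_image_eq]
      exact hKcl.preimage (swapZero_continuous i)
    have hS : swapZero i '' K ⊆ stdS n := by
      rintro _ ⟨u, hu, rfl⟩
      exact swapZero_mem i (hKS hu)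
    have hco : coreS n (delN n) ⊆ swapZero i '' K := by
      intro x hx
      rw [swapZero_image_eq]
      refine hcore ⟨fun k => ?_, ?_⟩
      · by_cases hk : k = i
        · subst hk
          rw [swapZero_self']
          exact hx.2
        · rw [swapZero_apply_ne _ _ hk]
          exact hx.1 k
      · rw [lam0_swapZero]
        exact hx.1 i
    have hce : cen0 n ∈ swapZero i '' K := by
      rw [swapZero_image_eq]
      exact hcen' i
    have h := core0 hn (swapZero i '' K) hc hcl hS hco hce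
    rw [vol_eq_integral, transfer i K hKcl, transfer i K hKcl] at h
    simpa only [q2_swapZero] using h

end Vale.Agent.Lib.P254
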